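import Vale.Agent.Lib.P225.Casimir

/-!
Angular cut-off, the normalisation map `x ↦ r x/‖x‖`, and the fact that rotation generators
commute with composition by the normalisation map.
-/

namespace Vale.Agent.Lib.P225

open Laplacian MeasureTheory

variable {n : ℕ}

/-- A smooth bump on the real line, supported in `(1/2, 3/2)` and equal to `1` near `1`. -/
noncomputable def bump : ContDiffBump (1 : ℝ) := ⟨1 / 4, 1 / 2, by norm_num, by norm_num⟩

/-- The radial cut-off `χ(x) = bump(‖x‖²)`. -/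
noncomputable def chi (x : EuclideanSpace ℝ (Fin n)) : ℝ := bump (‖x‖ ^ 2)

theorem chi_contDiff {m : ℕ∞} :
    ContDiff ℝ m (chi : EuclideanSpace ℝ (Fin n) → ℝ) :=
  (bump.contDiff (n := m)).comp (contDiff_norm_sq ℝ)

theorem chi_nonneg (x : EuclideanSpace ℝ (Fin n)) : 0 ≤ chi x := bump.nonneg

theorem chi_eq_zero_of_le (x : EuclideanSpace ℝ (Fin n)) (hx : ‖x‖ ^ 2 ≤ 1 / 2) :
    chi x = 0 := by
  apply bump.zero_of_le_dist
  show (1 / 2 : ℝ) ≤ dist (‖x‖ ^ 2) 1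
  rw [Real.dist_eq, abs_sub_comm, abs_of_nonneg (by linarith)]
  linarith

theorem chi_eq_zero_of_ge (x : EuclideanSpace ℝ (Fin n)) (hx : 3 / 2 ≤ ‖x‖ ^ 2) :
    chi x = 0 := by
  apply bump.zero_of_le_dist
  show (1 / 2 : ℝ) ≤ dist (‖x‖ ^ 2) 1
  rw [Real.dist_eq, abs_of_nonneg (by linarith)]
  linarith

theorem chi_zero : chi (0 : EuclideanSpace ℝ (Fin n)) = 0 :=
  chi_eq_zero_of_le 0 (by simp)

theorem chi_eq_one (x : EuclideanSpace ℝ (Fin n)) (hx : ‖x‖ = 1) : chi x = 1 := by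
  apply bump.one_of_mem_closedBall
  rw [hx]
  simp [bump]

theorem chi_hasCompactSupport : HasCompactSupport (chi : EuclideanSpace ℝ (Fin n) → ℝ) := by
  apply HasCompactSupport.of_support_subset_isCompact (isCompact_closedBall 0 2)
  intro x hx
  rw [Function.mem_support] at hx
  rw [mem_closedBall_zero_iff]
  by_contra hcon
  push Not at hcon
  apply hx
  apply chi_eq_zero_of_ge
  nlinarith

theorem chi_eventually_zero :
    ∀ᶠ y in nhds (0 : EuclideanSpace ℝ (Fin n)), chi y = 0 := by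
  have h1 : Metric.ball (0 : EuclideanSpace ℝ (Fin n)) (1 / 2) ∈ nhds 0 :=
    Metric.ball_mem_nhds 0 (by norm_num)
  filter_upwards [h1] with y hy
  rw [mem_ball_zero_iff] at hy
  apply chi_eq_zero_of_le
  have := norm_nonneg y
  nlinarith

/-- Radial functions have zero derivative in directions orthogonal to the position vector. -/
theorem fderiv_radial_eq_zero (φ : ℝ → ℝ) (x v : EuclideanSpace ℝ (Fin n))
    (hφ : DifferentiableAt ℝ φ (‖x‖ ^ 2)) (hv : inner ℝ x v = 0) :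
    fderiv ℝ (fun y : EuclideanSpace ℝ (Fin n) => φ (‖y‖ ^ 2)) x v = 0 := by
  have h1 : HasFDerivAt (fun y : EuclideanSpace ℝ (Fin n) => ‖y‖ ^ 2) (2 • innerSL ℝ x) x :=
    (hasStrictFDerivAt_norm_sq x).hasFDerivAt
  have h2 := hφ.hasDerivAt.comp_hasFDerivAt x h1
  have h3 : HasFDerivAt (fun y : EuclideanSpace ℝ (Fin n) => φ (‖y‖ ^ 2)) _ x := h2
  rw [h3.fderiv]
  simp [hv]

theorem fderiv_chi_eq_zero (x v : EuclideanSpace ℝ (Fin n)) (hv : inner ℝ x v = 0) :
    fderiv ℝ chi x v = 0 :=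
  fderiv_radial_eq_zero (fun s => bump s) x v
    ((bump.contDiff (n := 1)).differentiable (by norm_num) _) hv

/-- The normalisation map `x ↦ r x/‖x‖`. -/
noncomputable def nrm (r : ℝ) (x : EuclideanSpace ℝ (Fin n)) : EuclideanSpace ℝ (Fin n) :=
  (r * ‖x‖⁻¹) • x

theorem nrm_zero (r : ℝ) : nrm r (0 : EuclideanSpace ℝ (Fin n)) = 0 := by
  simp [nrm]

theorem nrm_eq_smul (r : ℝ) (x : EuclideanSpace ℝ (Fin n)) : nrm r x = r • nrm 1 x := by
  simp [nrm, smul_smul]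

theorem norm_nrm (r : ℝ) (hr : 0 ≤ r) (x : EuclideanSpace ℝ (Fin n)) (hx : x ≠ 0) :
    ‖nrm r x‖ = r := by
  have hx' : ‖x‖ ≠ 0 := norm_ne_zero_iff.mpr hx
  rw [nrm, norm_smul, Real.norm_eq_abs, abs_mul, abs_of_nonneg hr, abs_inv, abs_norm]
  field_simp

theorem norm_nrm_le (r : ℝ) (hr : 0 ≤ r) (x : EuclideanSpace ℝ (Fin n)) : ‖nrm r x‖ ≤ r := by
  by_cases hx : x = 0
  · subst hx
    rw [nrm_zero, norm_zero]
    exact hr
  · exact (norm_nrm r hr x hx).le

theorem radialUnit_nrm (r : ℝ) (hr : 0 < r) (x : EuclideanSpace ℝ (Fin n)) (hx : x ≠ 0) :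
    radialUnit (nrm r x) = nrm 1 x := by
  unfold radialUnit
  rw [norm_nrm r hr.le x hx, nrm_eq_smul r x, smul_smul, inv_mul_cancel₀ hr.ne', one_smul]

theorem nrm_ne_zero (r : ℝ) (hr : 0 < r) (x : EuclideanSpace ℝ (Fin n)) (hx : x ≠ 0) :
    nrm r x ≠ 0 := by
  intro h
  have := norm_nrm r hr.le x hx
  rw [h, norm_zero] at this
  linarith

theorem nrm_contDiffAt (r : ℝ) (x : EuclideanSpace ℝ (Fin n)) (hx : x ≠ 0)
    {m : WithTop ℕ∞} : ContDiffAt ℝ m (nrm r) x := by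
  unfold nrm
  have h1 : ContDiffAt ℝ m (fun y : EuclideanSpace ℝ (Fin n) => ‖y‖) x := contDiffAt_norm ℝ hx
  have h2 : ContDiffAt ℝ m (fun y : EuclideanSpace ℝ (Fin n) => ‖y‖⁻¹) x :=
    h1.inv (norm_ne_zero_iff.mpr hx)
  exact (contDiffAt_const.mul h2).smul contDiffAt_id

theorem fderiv_nrm (r : ℝ) (x v : EuclideanSpace ℝ (Fin n)) (hx : x ≠ 0)
    (hv : inner ℝ x v = 0) : fderiv ℝ (nrm r) x v = (r * ‖x‖⁻¹) • v := by
  have hx' : ‖x‖ ^ 2 ≠ 0 := pow_ne_zero 2 (norm_ne_zero_iff.mpr hx)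
  have hfun : (nrm r : EuclideanSpace ℝ (Fin n) → EuclideanSpace ℝ (Fin n)) =
      fun y => (r * (Real.sqrt (‖y‖ ^ 2))⁻¹) • y := by
    funext y
    rw [Real.sqrt_sq (norm_nonneg y)]
    rfl
  have hφ : DifferentiableAt ℝ (fun s : ℝ => r * (Real.sqrt s)⁻¹) (‖x‖ ^ 2) := by
    have : DifferentiableAt ℝ (fun s : ℝ => Real.sqrt s) (‖x‖ ^ 2) :=
      (Real.hasDerivAt_sqrt hx').differentiableAt
    exact (differentiableAt_const r).mul (this.inv (by
      rw [Real.sqrt_ne_zero']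
      positivity))
  have hg : DifferentiableAt ℝ
      (fun y : EuclideanSpace ℝ (Fin n) => (fun s : ℝ => r * (Real.sqrt s)⁻¹) (‖y‖ ^ 2)) x :=
    DifferentiableAt.comp (g := fun s : ℝ => r * (Real.sqrt s)⁻¹) x hφ
      ((contDiff_norm_sq ℝ (n := 1)).differentiable (by norm_num) x)
  have h0 := fderiv_radial_eq_zero (fun s : ℝ => r * (Real.sqrt s)⁻¹) x v hφ hv
  have h1 := hg.hasFDerivAt.smul (hasFDerivAt_id x)
  have h3 : HasFDerivAt (fun y : EuclideanSpace ℝ (Fin n) => (r * (Real.sqrt (‖y‖ ^ 2))⁻¹) • y)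
      _ x := h1
  rw [hfun, h3.fderiv]
  simp only [add_apply, smul_apply,
    ContinuousLinearMap.smulRight_apply, ContinuousLinearMap.id_apply]
  rw [h0, zero_smul, add_zero, Real.sqrt_sq (norm_nonneg x)]

/-- The operator `W ↦ W(r x/‖x‖) χ(x)`. -/
noncomputable def cutK (r : ℝ) (W : EuclideanSpace ℝ (Fin n) → ℝ)
    (x : EuclideanSpace ℝ (Fin n)) : ℝ :=
  W (nrm r x) * chi x

theorem cutK_contDiff (r : ℝ) (W : EuclideanSpace ℝ (Fin n) → ℝ) {m : ℕ∞}
    (hW : ContDiff ℝ m W) : ContDiff ℝ m (cutK r W) := by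
  rw [contDiff_iff_contDiffAt]
  intro x
  by_cases hx : x = 0
  · subst hx
    have h1 : cutK r W =ᶠ[nhds 0] fun _ => (0 : ℝ) := by
      filter_upwards [chi_eventually_zero] with y hy
      simp [cutK, hy]
    exact contDiffAt_const.congr_of_eventuallyEq h1
  · exact (hW.contDiffAt.comp x (nrm_contDiffAt r x hx)).mul chi_contDiff.contDiffAt

theorem cutK_hasCompactSupport (r : ℝ) (W : EuclideanSpace ℝ (Fin n) → ℝ) :
    HasCompactSupport (cutK r W) :=
  chi_hasCompactSupport.mul_left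

theorem rotDeriv_cutK (i j : Fin n) (r : ℝ) (W : EuclideanSpace ℝ (Fin n) → ℝ)
    (hW : Differentiable ℝ W) (x : EuclideanSpace ℝ (Fin n)) :
    rotDeriv i j (cutK r W) x = cutK r (rotDeriv i j W) x := by
  by_cases hx : x = 0
  · subst hx
    simp [rotDeriv, cutK, chi_zero]
  · rw [rotDeriv_eq]
    have hv := inner_rotVec i j x
    have hN : DifferentiableAt ℝ (nrm r) x :=
      (nrm_contDiffAt r x hx (m := 1)).differentiableAt (by norm_num)
    have h1 : HasFDerivAt (fun y => W (nrm r y))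
        ((fderiv ℝ W (nrm r x)).comp (fderiv ℝ (nrm r) x)) x :=
      (hW (nrm r x)).hasFDerivAt.comp x hN.hasFDerivAt
    have h2 : HasFDerivAt (chi : EuclideanSpace ℝ (Fin n) → ℝ) (fderiv ℝ chi x) x :=
      ((chi_contDiff (m := 1)).differentiable (by norm_num) x).hasFDerivAt
    have h3 : HasFDerivAt (cutK r W) _ x := h1.mul h2
    rw [h3.fderiv]
    simp only [add_apply, smul_apply, ContinuousLinearMap.comp_apply, smul_eq_mul]
    rw [fderiv_chi_eq_zero x _ hv, fderiv_nrm r x _ hx hv, ← rotVec_smul]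
    unfold cutK
    rw [rotDeriv_eq]
    simp [nrm]
    ring

end Vale.Agent.Lib.P225
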