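import Vale.Agent.Lib.P225.Harmonic

/-!
The angular operator `S` as a sum of squares of rotation generators.
-/

namespace Vale.Agent.Lib.P225

open Laplacian

variable {n : ℕ}

theorem casimir_algebra (x D : Fin n → ℝ) (H : Fin n → Fin n → ℝ)
    (hH : ∀ i j, H i j = H j i) :
    ∑ i, ∑ j, (x i * ((if i = j then 1 else 0) * D j + x i * H j j - (D i + x j * H j i))
        - x j * (D j + x i * H i j - ((if j = i then 1 else 0) * D i + x j * H i i)))
      = 2 * ((∑ i, x i ^ 2) * ∑ i, H i i - ∑ i, ∑ j, x i * x j * H i j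
          - ((n : ℝ) - 1) * ∑ i, x i * D i) := by
  have h1 : ∀ i j, (x i * ((if i = j then 1 else 0) * D j + x i * H j j - (D i + x j * H j i))
        - x j * (D j + x i * H i j - ((if j = i then 1 else 0) * D i + x j * H i i)))
      = x i ^ 2 * H j j + x j ^ 2 * H i i - 2 * (x i * x j * H i j) - x i * D i - x j * D j
        + (if i = j then 2 * (x i * D i) else 0) := by
    intro i j
    by_cases hij : i = j
    · subst hij
      simp
      ring
    · have hji : ¬ j = i := fun h => hij h.symm
      simp only [hij, hji, if_false]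
      rw [hH j i]
      ring
  simp_rw [h1]
  simp only [Finset.sum_add_distrib, Finset.sum_sub_distrib]
  have e1 : ∑ i, ∑ j, x i ^ 2 * H j j = (∑ i, x i ^ 2) * ∑ i, H i i := by
    rw [Finset.sum_mul_sum]
  have e2 : ∑ i, ∑ j, x j ^ 2 * H i i = (∑ i, x i ^ 2) * ∑ i, H i i := by
    rw [Finset.sum_comm, Finset.sum_mul_sum]
  have e3 : ∑ i, ∑ j, 2 * (x i * x j * H i j) = 2 * ∑ i, ∑ j, x i * x j * H i j := by
    simp only [Finset.mul_sum]
  have e4 : ∑ i : Fin n, ∑ _j : Fin n, x i * D i = n * ∑ i, x i * D i := by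
    simp [Finset.mul_sum]
  have e5 : ∑ _i : Fin n, ∑ j : Fin n, x j * D j = n * ∑ i, x i * D i := by
    simp
  have e6 : ∑ i, ∑ j, (if i = j then 2 * (x i * D i) else 0) = 2 * ∑ i, x i * D i := by
    simp [Finset.mul_sum]
  rw [e1, e2, e3, e4, e5, e6]
  ring

/-- The sum of the squares of all rotation generators is twice the angular operator. -/
theorem casimir (W : EuclideanSpace ℝ (Fin n) → ℝ) (hW : ContDiff ℝ 2 W)
    (x : EuclideanSpace ℝ (Fin n)) :
    ∑ i, ∑ j, rotDeriv i j (rotDeriv i j W) x = 2 * angS W x := by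
  have hdiff : DifferentiableAt ℝ (fderiv ℝ W) x :=
    ((hW.fderiv_right (m := 1) (by norm_num)).differentiable (by norm_num)) x
  have hsymm : ∀ v w, fderiv ℝ (fderiv ℝ W) x v w = fderiv ℝ (fderiv ℝ W) x w v :=
    hW.contDiffAt.isSymmSndFDerivAt (by simp)
  have key : ∀ i j, rotDeriv i j (rotDeriv i j W) x =
      (x i * ((if i = j then 1 else 0) * fderiv ℝ W x (EuclideanSpace.single j 1)
          + x i * fderiv ℝ (fderiv ℝ W) x (EuclideanSpace.single j 1) (EuclideanSpace.single j 1)
          - (fderiv ℝ W x (EuclideanSpace.single i 1)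
          + x j * fderiv ℝ (fderiv ℝ W) x (EuclideanSpace.single j 1) (EuclideanSpace.single i 1)))
        - x j * (fderiv ℝ W x (EuclideanSpace.single j 1)
          + x i * fderiv ℝ (fderiv ℝ W) x (EuclideanSpace.single i 1) (EuclideanSpace.single j 1)
          - ((if j = i then 1 else 0) * fderiv ℝ W x (EuclideanSpace.single i 1)
          + x j * fderiv ℝ (fderiv ℝ W) x (EuclideanSpace.single i 1)
              (EuclideanSpace.single i 1)))) := by
    intro i j
    have e : rotDeriv i j (rotDeriv i j W) x =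
        x i * fderiv ℝ (rotDeriv i j W) x (EuclideanSpace.single j 1)
          - x j * fderiv ℝ (rotDeriv i j W) x (EuclideanSpace.single i 1) := rfl
    rw [e, fderiv_rotDeriv i j W x _ hdiff, fderiv_rotDeriv i j W x _ hdiff]
    simp only [PiLp.single_apply, if_true, one_mul]
  simp_rw [key]
  rw [casimir_algebra (fun i => x i) (fun i => fderiv ℝ W x (EuclideanSpace.single i 1))
    (fun i j => fderiv ℝ (fderiv ℝ W) x (EuclideanSpace.single i 1) (EuclideanSpace.single j 1))
    (fun i j => hsymm _ _)]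
  unfold angS
  rw [norm_sq_eq_sum, laplacian_eq_sum, clm_apply_eq_sum (fderiv ℝ W x) x]
  have h2 : fderiv ℝ (fderiv ℝ W) x x x = ∑ i, ∑ j, x i * x j *
      fderiv ℝ (fderiv ℝ W) x (EuclideanSpace.single i 1) (EuclideanSpace.single j 1) := by
    rw [clm_apply_eq_sum (fderiv ℝ (fderiv ℝ W) x x) x, Finset.sum_comm]
    apply Finset.sum_congr rfl
    intro j _
    have h3 : fderiv ℝ (fderiv ℝ W) x x (EuclideanSpace.single j 1) =
        ∑ i, x i * fderiv ℝ (fderiv ℝ W) x (EuclideanSpace.single i 1)
          (EuclideanSpace.single j 1) := by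
      have := clm_apply_eq_sum ((fderiv ℝ (fderiv ℝ W) x).flip (EuclideanSpace.single j 1)) x
      simpa using this
    rw [h3, Finset.mul_sum]
    apply Finset.sum_congr rfl
    intro i _
    ring
  rw [h2]

end Vale.Agent.Lib.P225
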