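import Vale.Agent.Lib.P225.RadialODE

/-!
Uniqueness for the radial equation: a solution with vanishing Cauchy data at a point `a > 0`
vanishes on `[a, ∞)`.
-/

namespace Vale.Agent.Lib.P225

open Set

section unique

variable (j : ℕ) (lam : ℝ) (h hd f fd fdd : ℝ → ℝ)

theorem energy_hasDerivAt
    (hh : ∀ r, 0 < r → HasDerivAt h (hd r) r)
    (hpos : ∀ r, 0 < r → 0 < h r)
    (hf : ∀ r, 0 < r → HasDerivAt f (fd r) r)
    (hf' : ∀ r, 0 < r → HasDerivAt fd (fdd r) r)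
    (hode : ∀ r, 0 < r → fdd r + (j + 1) * (hd r / h r) * fd r = lam * f r / (h r) ^ 2)
    (r : ℝ) (hr : 0 < r) :
    HasDerivAt (fun x => f x ^ 2 + (h x ^ (j + 1) * fd x) ^ 2)
      (2 * f r * fd r * (1 + lam * h r ^ (2 * j))) r := by
  have h1 : HasDerivAt (fun x => f x ^ 2) (((2 : ℕ) : ℝ) * f r ^ (2 - 1) * fd r) r :=
    (hf r hr).pow 2
  have h2 : HasDerivAt (fun x => h x ^ (j + 1) * fd x)
      ((((j + 1 : ℕ) : ℝ) * h r ^ (j + 1 - 1) * hd r) * fd r + h r ^ (j + 1) * fdd r) r :=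
    ((hh r hr).pow (j + 1)).mul (hf' r hr)
  have h3 := h2.pow 2
  have h4 := h1.add h3
  refine h4.congr_deriv ?_
  have hne : h r ≠ 0 := (hpos r hr).ne'
  have e : fdd r = lam * f r / (h r) ^ 2 - (j + 1) * (hd r / h r) * fd r := by
    have := hode r hr
    linarith
  rw [e]
  simp only [Nat.add_sub_cancel, Nat.cast_add, Nat.cast_one, Nat.cast_ofNat]
  field_simp
  ring

theorem ode_unique
    (hh : ∀ r, 0 < r → HasDerivAt h (hd r) r)
    (hpos : ∀ r, 0 < r → 0 < h r)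
    (hf : ∀ r, 0 < r → HasDerivAt f (fd r) r)
    (hf' : ∀ r, 0 < r → HasDerivAt fd (fdd r) r)
    (hode : ∀ r, 0 < r → fdd r + (j + 1) * (hd r / h r) * fd r = lam * f r / (h r) ^ 2)
    (a : ℝ) (ha : 0 < a) (hfa : f a = 0) (hfda : fd a = 0) :
    ∀ r, a ≤ r → f r = 0 := by
  intro R hR
  have hE := energy_hasDerivAt j lam h hd f fd fdd hh hpos hf hf' hode
  have hcont_h : ContinuousOn h (Icc a R) := fun x hx =>
    (hh x (lt_of_lt_of_le ha hx.1)).continuousAt.continuousWithinAt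
  have hc : ContinuousOn (fun x => |1 + lam * h x ^ (2 * j)| / h x ^ (j + 1)) (Icc a R) := by
    apply ContinuousOn.div
    · exact (continuousOn_const.add (continuousOn_const.mul (hcont_h.pow _))).abs
    · exact hcont_h.pow _
    · intro x hx
      exact (pow_pos (hpos x (lt_of_lt_of_le ha hx.1)) _).ne'
  obtain ⟨K, hK⟩ := isCompact_Icc.exists_bound_of_continuousOn hc
  have key : ∀ x ∈ Icc a R, ‖f x ^ 2 + (h x ^ (j + 1) * fd x) ^ 2‖
      ≤ gronwallBound 0 K 0 (x - a) := by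
    apply norm_le_gronwallBound_of_norm_deriv_right_le
      (f' := fun x => 2 * f x * fd x * (1 + lam * h x ^ (2 * j)))
    · intro x hx
      exact (hE x (lt_of_lt_of_le ha hx.1)).continuousAt.continuousWithinAt
    · intro x hx
      exact (hE x (lt_of_lt_of_le ha hx.1)).hasDerivWithinAt
    · rw [hfa, hfda]
      simp
    · intro x hx
      have hx0 : 0 < x := lt_of_lt_of_le ha hx.1
      have hKx := hK x ⟨hx.1, hx.2.le⟩
      have hp : 0 < h x ^ (j + 1) := pow_pos (hpos x hx0) _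
      have hQ : 0 ≤ |1 + lam * h x ^ (2 * j)| := abs_nonneg _
      rw [Real.norm_eq_abs, abs_of_nonneg (div_nonneg hQ hp.le), div_le_iff₀ hp] at hKx
      have hK0 : 0 ≤ K := by
        by_contra hcon
        push Not at hcon
        nlinarith
      rw [Real.norm_eq_abs, Real.norm_eq_abs, add_zero, abs_mul, abs_mul, abs_mul,
        abs_of_nonneg (by positivity : (0 : ℝ) ≤ f x ^ 2 + (h x ^ (j + 1) * fd x) ^ 2)]
      have hA : 0 ≤ |f x| := abs_nonneg _
      have hB : 0 ≤ |fd x| := abs_nonneg _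
      have e1 : f x ^ 2 = |f x| ^ 2 := (sq_abs _).symm
      have e2 : (h x ^ (j + 1) * fd x) ^ 2 = (h x ^ (j + 1) * |fd x|) ^ 2 := by
        rw [mul_pow, mul_pow, sq_abs]
      rw [e1, e2]
      have h5 : 2 * (|f x| * (h x ^ (j + 1) * |fd x|)) ≤
          |f x| ^ 2 + (h x ^ (j + 1) * |fd x|) ^ 2 := by
        nlinarith [sq_nonneg (|f x| - h x ^ (j + 1) * |fd x|)]
      have h6 : |(2 : ℝ)| = 2 := abs_of_pos (by norm_num)
      rw [h6]
      have h7 : 2 * |f x| * |fd x| * |1 + lam * h x ^ (2 * j)| ≤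
          2 * |f x| * |fd x| * (K * h x ^ (j + 1)) :=
        mul_le_mul_of_nonneg_left hKx (by positivity)
      have h8 : K * (2 * (|f x| * (h x ^ (j + 1) * |fd x|))) ≤
          K * (|f x| ^ 2 + (h x ^ (j + 1) * |fd x|) ^ 2) :=
        mul_le_mul_of_nonneg_left h5 hK0
      linarith
  have h9 := key R ⟨hR, le_rfl⟩
  rw [gronwallBound_ε0_δ0, Real.norm_eq_abs] at h9
  have h10 : f R ^ 2 + (h R ^ (j + 1) * fd R) ^ 2 = 0 := abs_eq_zero.mp (le_antisymm h9 (abs_nonneg _))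
  have h11 : f R ^ 2 = 0 := by
    nlinarith [sq_nonneg (f R), sq_nonneg (h R ^ (j + 1) * fd R)]
  exact pow_eq_zero_iff (by norm_num) |>.mp h11

/-- A solution of the radial equation (with `lam ≥ 0`) that is regular at `0` and vanishes at
`r = 1` vanishes identically. -/
theorem regular_unique (hlam : 0 ≤ lam)
    (hh : ∀ r, 0 < r → HasDerivAt h (hd r) r)
    (hpos : ∀ r, 0 < r → 0 < h r) (hle : ∀ r, 0 < r → h r ≤ r)
    (hf : ∀ r, 0 < r → HasDerivAt f (fd r) r)
    (hf' : ∀ r, 0 < r → HasDerivAt fd (fdd r) r)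
    (hode : ∀ r, 0 < r → fdd r + (j + 1) * (hd r / h r) * fd r = lam * f r / (h r) ^ 2)
    (M : ℝ) (hbd : ∀ r, 0 < r → r ≤ 1 → |f r| ≤ M ∧ |fd r| ≤ M)
    (hf1 : f 1 = 0) :
    ∀ r, 0 < r → f r = 0 := by
  have hmono := sq_monotoneOn j lam h hd f fd fdd hlam hh hpos hle hf hf' hode M hbd
  have hzero : ∀ r, 0 < r → r ≤ 1 → f r = 0 := by
    intro r hr hr1
    have h1 : f r ^ 2 ≤ f 1 ^ 2 := hmono (mem_Ioi.mpr hr) (mem_Ioi.mpr one_pos) hr1
    rw [hf1] at h1
    have h2 : f r ^ 2 = 0 := by nlinarith [sq_nonneg (f r)]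
    exact pow_eq_zero_iff (by norm_num) |>.mp h2
  have hfd : fd (1 / 2) = 0 := by
    have h1 : HasDerivAt f (fd (1 / 2)) (1 / 2) := hf _ (by norm_num)
    have h2 : f =ᶠ[nhds (1 / 2)] fun _ => 0 := by
      filter_upwards [Ioo_mem_nhds (show (1 / 4 : ℝ) < 1 / 2 by norm_num)
        (show (1 / 2 : ℝ) < 1 by norm_num)] with x hx
      exact hzero x (by linarith [hx.1]) hx.2.le
    have h3 : HasDerivAt f 0 (1 / 2) := (hasDerivAt_const (1 / 2 : ℝ) (0 : ℝ)).congr_of_eventuallyEq h2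
    exact h1.unique h3
  intro r hr
  rcases le_or_gt r 1 with h1 | h1
  · exact hzero r hr h1
  · exact ode_unique j lam h hd f fd fdd hh hpos hf hf' hode (1 / 2) (by norm_num)
      (hzero _ (by norm_num) (by norm_num)) hfd r (by linarith)

end unique

end Vale.Agent.Lib.P225
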