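import Vale.Agent.Lib.P225.RadialODE

/-!
Consequences of concavity of the warping function, and the `deriv` form of the rigidity lemma.
-/

namespace Vale.Agent.Lib.P225

open Set

/-- A `C²` warping function with `h 0 = 0`, `h' 0 = 1` and `h'' ≤ 0` on `(0, ∞)` satisfies
`h' ≤ 1` and `h r ≤ r` on `(0, ∞)`. -/
theorem warp_bounds (h : ℝ → ℝ) (hC : ContDiff ℝ 2 h) (h0 : h 0 = 0) (hd0 : deriv h 0 = 1)
    (hconc : ∀ r, 0 < r → deriv (deriv h) r ≤ 0) :
    (∀ r, 0 < r → deriv h r ≤ 1) ∧ (∀ r, 0 < r → h r ≤ r) := by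
  have hdiff : Differentiable ℝ h := hC.differentiable (by norm_num)
  have hC1 : ContDiff ℝ 1 (deriv h) := by
    have : ContDiff ℝ (1 + 1) h := by
      norm_num
      exact hC
    exact (contDiff_succ_iff_deriv.mp this).2.2
  have hdiff' : Differentiable ℝ (deriv h) := hC1.differentiable (by norm_num)
  have hanti : AntitoneOn (deriv h) (Ici 0) := by
    apply antitoneOn_of_deriv_nonpos (convex_Ici 0)
    · exact hC1.continuous.continuousOn
    · exact hdiff'.differentiableOn
    · intro x hx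
      rw [interior_Ici] at hx
      exact hconc x hx
  have hder : ∀ r, 0 < r → deriv h r ≤ 1 := by
    intro r hr
    have := hanti (mem_Ici.mpr le_rfl) (mem_Ici.mpr hr.le) hr.le
    rwa [hd0] at this
  refine ⟨hder, ?_⟩
  have hmono : MonotoneOn (fun r => r - h r) (Ici 0) := by
    apply monotoneOn_of_deriv_nonneg (convex_Ici 0)
    · exact (continuous_id.sub hdiff.continuous).continuousOn
    · exact (differentiable_id.sub hdiff).differentiableOn
    · intro x hx
      rw [interior_Ici] at hx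
      have h1 : HasDerivAt (fun r => r - h r) (1 - deriv h x) x :=
        (hasDerivAt_id x).sub (hdiff x).hasDerivAt
      rw [h1.deriv]
      have := hder x hx
      linarith
  intro r hr
  have := hmono (mem_Ici.mpr le_rfl) (mem_Ici.mpr hr.le) hr.le
  simp only [h0, sub_zero] at this
  linarith

/-- The rigidity lemma stated with `deriv`. -/
theorem radial_rigidity_deriv (n k : ℕ) (lam : ℝ) (h f : ℝ → ℝ) (hn : 2 ≤ n)
    (hC : ContDiff ℝ 2 h) (h0 : h 0 = 0) (hd0 : deriv h 0 = 1)
    (hpos : ∀ r, 0 < r → 0 < h r)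
    (hconc : ∀ r, 0 < r → deriv (deriv h) r ≤ 0)
    (hf : ContDiffOn ℝ 2 f (Ioi 0))
    (hode : ∀ r, 0 < r → deriv (deriv f) r + ((n : ℝ) - 1) * (deriv h r / h r) * deriv f r
      = lam * f r / (h r) ^ 2)
    (hbd : ∃ M, ∀ r, 0 < r → r ≤ 1 → |f r| ≤ M ∧ |deriv f r| ≤ M)
    (hgrowth : ∃ C, ∀ r, 1 ≤ r → |f r| ≤ C * (1 + r) ^ k)
    (hlam : (k : ℝ) * (k + n - 2) < lam) :
    ∀ r, 0 < r → f r = 0 := by
  obtain ⟨j, rfl⟩ := Nat.exists_eq_add_of_le hn
  obtain ⟨hder, hle⟩ := warp_bounds h hC h0 hd0 hconc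
  obtain ⟨M, hM⟩ := hbd
  obtain ⟨C, hCg⟩ := hgrowth
  have hdiff : Differentiable ℝ h := hC.differentiable (by norm_num)
  have hfd : ∀ r, 0 < r → HasDerivAt f (deriv f r) r := by
    intro r hr
    have : DifferentiableAt ℝ f r :=
      (hf.differentiableOn (by norm_num)).differentiableAt (isOpen_Ioi.mem_nhds hr)
    exact this.hasDerivAt
  have hfdd : ∀ r, 0 < r → HasDerivAt (deriv f) (deriv (deriv f) r) r := by
    intro r hr
    have h1 : ContDiffOn ℝ 1 (deriv f) (Ioi 0) := by
      apply ContDiffOn.deriv_of_isOpen hf isOpen_Ioi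
      norm_num
    have : DifferentiableAt ℝ (deriv f) r :=
      (h1.differentiableOn (by norm_num)).differentiableAt (isOpen_Ioi.mem_nhds hr)
    exact this.hasDerivAt
  apply radial_rigidity j lam h (deriv h) f (deriv f) (deriv (deriv f)) k
  · have e : ((k : ℝ) + ((2 + j : ℕ) : ℝ) - 2) = (k : ℝ) + j := by
      push_cast
      ring
    rw [add_sub_assoc] at hlam
    have e2 : ((2 + j : ℕ) : ℝ) - 2 = j := by
      push_cast
      ring
    rw [e2] at hlam
    exact hlam
  · exact fun r _ => (hdiff r).hasDerivAt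
  · exact hpos
  · exact hle
  · exact hder
  · exact hfd
  · exact hfdd
  · intro r hr
    have := hode r hr
    have e2 : ((2 + j : ℕ) : ℝ) - 1 = (j : ℝ) + 1 := by
      push_cast
      ring
    rw [e2] at this
    exact this
  · exact hM
  · exact hCg

end Vale.Agent.Lib.P225
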