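import Vale.Agent.Lib.P225.PolyFun
import Vale.Agent.Lib.P225.Unique
import Vale.Agent.Lib.P225.Warp

/-!
Spherical coefficient functions `r ↦ ∫ u(r x/‖x‖) w(x) dx` of a function `u` on Euclidean space:
differentiation under the integral sign.
-/

namespace Vale.Agent.Lib.P225

open Laplacian MeasureTheory Set

variable {n : ℕ}

theorem norm_nrm_le_abs (r : ℝ) (x : EuclideanSpace ℝ (Fin n)) : ‖nrm r x‖ ≤ |r| := by
  by_cases hx : x = 0
  · subst hx
    rw [nrm_zero, norm_zero]
    exact abs_nonneg r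
  · have hx' : ‖x‖ ≠ 0 := norm_ne_zero_iff.mpr hx
    rw [nrm, norm_smul, Real.norm_eq_abs, abs_mul, abs_inv, abs_norm, mul_assoc,
      inv_mul_cancel₀ hx', mul_one]

theorem measurable_nrm (r : ℝ) :
    Measurable (nrm r : EuclideanSpace ℝ (Fin n) → EuclideanSpace ℝ (Fin n)) := by
  unfold nrm
  fun_prop

theorem measurable_nrm_pair (G : EuclideanSpace ℝ (Fin n) → EuclideanSpace ℝ (Fin n) → ℝ)
    (hG : Continuous (fun q : EuclideanSpace ℝ (Fin n) × EuclideanSpace ℝ (Fin n) => G q.1 q.2))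
    (r : ℝ) : Measurable (fun x : EuclideanSpace ℝ (Fin n) => G (nrm r x) (nrm 1 x)) :=
  hG.measurable.comp ((measurable_nrm r).prodMk (measurable_nrm 1))

theorem exists_bound_nrm (G : EuclideanSpace ℝ (Fin n) → EuclideanSpace ℝ (Fin n) → ℝ)
    (hG : Continuous (fun q : EuclideanSpace ℝ (Fin n) × EuclideanSpace ℝ (Fin n) => G q.1 q.2))
    (R : ℝ) :
    ∃ B : ℝ, 0 ≤ B ∧ ∀ (r : ℝ) (x : EuclideanSpace ℝ (Fin n)), |r| ≤ R →
      |G (nrm r x) (nrm 1 x)| ≤ B := by
  have hK : IsCompact ((Metric.closedBall (0 : EuclideanSpace ℝ (Fin n)) R) ×ˢ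
      (Metric.closedBall (0 : EuclideanSpace ℝ (Fin n)) 1)) :=
    (isCompact_closedBall 0 R).prod (isCompact_closedBall 0 1)
  obtain ⟨B, hB⟩ := hK.exists_bound_of_continuousOn hG.continuousOn
  refine ⟨max B 0, le_max_right _ _, ?_⟩
  intro r x hr
  have h1 : (nrm r x, nrm 1 x) ∈ (Metric.closedBall (0 : EuclideanSpace ℝ (Fin n)) R) ×ˢ
      (Metric.closedBall (0 : EuclideanSpace ℝ (Fin n)) 1) := by
    refine ⟨?_, ?_⟩
    · rw [mem_closedBall_zero_iff]
      exact (norm_nrm_le_abs r x).trans hr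
    · rw [mem_closedBall_zero_iff]
      have := norm_nrm_le_abs 1 x
      simpa using this
  have h2 := hB _ h1
  rw [Real.norm_eq_abs] at h2
  exact h2.trans (le_max_left _ _)

theorem integrable_nrm_mul (G : EuclideanSpace ℝ (Fin n) → EuclideanSpace ℝ (Fin n) → ℝ)
    (hG : Continuous (fun q : EuclideanSpace ℝ (Fin n) × EuclideanSpace ℝ (Fin n) => G q.1 q.2))
    (w : EuclideanSpace ℝ (Fin n) → ℝ) (hw : Continuous w) (hc : HasCompactSupport w) (r : ℝ) :
    Integrable (fun x : EuclideanSpace ℝ (Fin n) => G (nrm r x) (nrm 1 x) * w x) := by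
  obtain ⟨B, hB0, hB⟩ := exists_bound_nrm G hG |r|
  have hwi : Integrable w := hw.integrable_of_hasCompactSupport hc
  apply Integrable.mono' (hwi.norm.const_mul B)
  · exact ((measurable_nrm_pair G hG r).mul hw.measurable).aestronglyMeasurable
  · apply Filter.Eventually.of_forall
    intro x
    rw [norm_mul, Real.norm_eq_abs]
    exact mul_le_mul_of_nonneg_right (hB r x le_rfl) (norm_nonneg _)

/-- Differentiation under the integral sign for `r ↦ ∫ G(r x/‖x‖, x/‖x‖) w(x) dx`. -/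
theorem hasDerivAt_integral_nrm
    (G G' : EuclideanSpace ℝ (Fin n) → EuclideanSpace ℝ (Fin n) → ℝ)
    (hG : Continuous (fun q : EuclideanSpace ℝ (Fin n) × EuclideanSpace ℝ (Fin n) => G q.1 q.2))
    (hG' : Continuous
      (fun q : EuclideanSpace ℝ (Fin n) × EuclideanSpace ℝ (Fin n) => G' q.1 q.2))
    (hd : ∀ (θ : EuclideanSpace ℝ (Fin n)) (r : ℝ),
      HasDerivAt (fun s : ℝ => G (s • θ) θ) (G' (r • θ) θ) r)
    (w : EuclideanSpace ℝ (Fin n) → ℝ) (hw : Continuous w) (hc : HasCompactSupport w)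
    (r₀ : ℝ) :
    HasDerivAt (fun r : ℝ => ∫ x, G (nrm r x) (nrm 1 x) * w x)
      (∫ x, G' (nrm r₀ x) (nrm 1 x) * w x) r₀ := by
  obtain ⟨B, hB0, hB⟩ := exists_bound_nrm G' hG' (|r₀| + 1)
  have hwi : Integrable w := hw.integrable_of_hasCompactSupport hc
  have key := hasDerivAt_integral_of_dominated_loc_of_deriv_le
    (μ := (volume : Measure (EuclideanSpace ℝ (Fin n))))
    (F := fun (r : ℝ) (x : EuclideanSpace ℝ (Fin n)) => G (nrm r x) (nrm 1 x) * w x)
    (F' := fun (r : ℝ) (x : EuclideanSpace ℝ (Fin n)) => G' (nrm r x) (nrm 1 x) * w x)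
    (x₀ := r₀) (s := Metric.ball r₀ 1) (bound := fun x => B * ‖w x‖)
    (Metric.ball_mem_nhds r₀ one_pos)
    (Filter.Eventually.of_forall (fun r =>
      ((measurable_nrm_pair G hG r).mul hw.measurable).aestronglyMeasurable))
    (integrable_nrm_mul G hG w hw hc r₀)
    ((measurable_nrm_pair G' hG' r₀).mul hw.measurable).aestronglyMeasurable
    (Filter.Eventually.of_forall (fun x r hr => by
      rw [norm_mul, Real.norm_eq_abs]
      apply mul_le_mul_of_nonneg_right _ (norm_nonneg _)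
      apply hB r x
      rw [Metric.mem_ball, Real.dist_eq] at hr
      have := abs_sub_abs_le_abs_sub r r₀
      linarith))
    (hwi.norm.const_mul B)
    (Filter.Eventually.of_forall (fun x r _ => by
      have h1 := (hd (nrm 1 x) r).mul_const (w x)
      have h2 : (fun s : ℝ => G (nrm s x) (nrm 1 x) * w x) =
          fun s : ℝ => G (s • nrm 1 x) (nrm 1 x) * w x := by
        funext s
        rw [nrm_eq_smul s x]
      rw [h2, nrm_eq_smul r x]
      exact h1))
  exact key.2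

/-- The weight `P(x/‖x‖) χ(x)²`. -/
noncomputable def sphW (P : EuclideanSpace ℝ (Fin n) → ℝ) (x : EuclideanSpace ℝ (Fin n)) : ℝ :=
  cutK 1 P x * chi x

theorem sphW_continuous (P : EuclideanSpace ℝ (Fin n) → ℝ) (hP : Continuous P) :
    Continuous (sphW P) :=
  ((cutK_contDiff 1 P (m := 0) (contDiff_zero.mpr hP)).continuous).mul
    (chi_contDiff (m := 0)).continuous

theorem sphW_hasCompactSupport (P : EuclideanSpace ℝ (Fin n) → ℝ) :
    HasCompactSupport (sphW P) :=
  chi_hasCompactSupport.mul_left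

/-- The coefficient function `r ↦ ∫ u(r x/‖x‖) P(x/‖x‖) χ(x)² dx`. -/
noncomputable def coeffI (u P : EuclideanSpace ℝ (Fin n) → ℝ) (r : ℝ) : ℝ :=
  ∫ x, u (nrm r x) * sphW P x

/-- The first derivative of the coefficient function. -/
noncomputable def coeffI1 (u P : EuclideanSpace ℝ (Fin n) → ℝ) (r : ℝ) : ℝ :=
  ∫ x, fderiv ℝ u (nrm r x) (nrm 1 x) * sphW P x

/-- The second derivative of the coefficient function. -/
noncomputable def coeffI2 (u P : EuclideanSpace ℝ (Fin n) → ℝ) (r : ℝ) : ℝ :=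
  ∫ x, fderiv ℝ (fderiv ℝ u) (nrm r x) (nrm 1 x) (nrm 1 x) * sphW P x

theorem hasDerivAt_smul_id (θ : EuclideanSpace ℝ (Fin n)) (r : ℝ) :
    HasDerivAt (fun s : ℝ => s • θ) θ r := by
  simpa using (hasDerivAt_id r).smul_const θ

theorem cont_G0 (u : EuclideanSpace ℝ (Fin n) → ℝ) (hu : Continuous u) :
    Continuous (fun q : EuclideanSpace ℝ (Fin n) × EuclideanSpace ℝ (Fin n) => u q.1) :=
  hu.comp continuous_fst

theorem cont_G1 (u : EuclideanSpace ℝ (Fin n) → ℝ) (hu : ContDiff ℝ 1 u) :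
    Continuous (fun q : EuclideanSpace ℝ (Fin n) × EuclideanSpace ℝ (Fin n) =>
      fderiv ℝ u q.1 q.2) :=
  ((hu.continuous_fderiv (by norm_num)).comp continuous_fst).clm_apply continuous_snd

theorem cont_G2 (u : EuclideanSpace ℝ (Fin n) → ℝ) (hu : ContDiff ℝ 2 u) :
    Continuous (fun q : EuclideanSpace ℝ (Fin n) × EuclideanSpace ℝ (Fin n) =>
      fderiv ℝ (fderiv ℝ u) q.1 q.2 q.2) := by
  have hu1 : ContDiff ℝ 1 (fderiv ℝ u) := hu.fderiv_right (by norm_num)
  exact (((hu1.continuous_fderiv (by norm_num)).comp continuous_fst).clm_apply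
    continuous_snd).clm_apply continuous_snd

theorem coeffI_hasDerivAt (u P : EuclideanSpace ℝ (Fin n) → ℝ) (hu : ContDiff ℝ 1 u)
    (hP : Continuous P) (r : ℝ) : HasDerivAt (coeffI u P) (coeffI1 u P r) r := by
  apply hasDerivAt_integral_nrm (fun y _ => u y) (fun y θ => fderiv ℝ u y θ)
    (cont_G0 u hu.continuous) (cont_G1 u hu) _ (sphW P) (sphW_continuous P hP)
    (sphW_hasCompactSupport P) r
  intro θ r
  exact (hu.differentiable (by norm_num) (r • θ)).hasFDerivAt.comp_hasDerivAt r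
    (hasDerivAt_smul_id θ r)

theorem coeffI1_hasDerivAt (u P : EuclideanSpace ℝ (Fin n) → ℝ) (hu : ContDiff ℝ 2 u)
    (hP : Continuous P) (r : ℝ) : HasDerivAt (coeffI1 u P) (coeffI2 u P r) r := by
  have hu1 : ContDiff ℝ 1 (fderiv ℝ u) := hu.fderiv_right (by norm_num)
  apply hasDerivAt_integral_nrm (fun y θ => fderiv ℝ u y θ)
    (fun y θ => fderiv ℝ (fderiv ℝ u) y θ θ)
    (cont_G1 u (hu.of_le (by norm_num))) (cont_G2 u hu) _ (sphW P) (sphW_continuous P hP)
    (sphW_hasCompactSupport P) r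
  intro θ r
  have h2 : HasDerivAt (fun s : ℝ => fderiv ℝ u (s • θ)) (fderiv ℝ (fderiv ℝ u) (r • θ) θ) r :=
    (hu1.differentiable (by norm_num) (r • θ)).hasFDerivAt.comp_hasDerivAt r
      (hasDerivAt_smul_id θ r)
  have h3 := h2.clm_apply (hasDerivAt_const r θ)
  simpa using h3

theorem laplacian_continuous (u : EuclideanSpace ℝ (Fin n) → ℝ) (hu : ContDiff ℝ 2 u) :
    Continuous (Δ u) := by
  have hu1 : ContDiff ℝ 1 (fderiv ℝ u) := hu.fderiv_right (by norm_num)
  have h1 : Δ u = fun x => ∑ i, fderiv ℝ (fderiv ℝ u) x (EuclideanSpace.single i 1)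
      (EuclideanSpace.single i 1) := by
    funext x
    exact laplacian_eq_sum u x
  rw [h1]
  apply continuous_finsetSum
  intro i _
  exact ((hu1.continuous_fderiv (by norm_num)).clm_apply continuous_const).clm_apply
    continuous_const

theorem angS_continuous (u : EuclideanSpace ℝ (Fin n) → ℝ) (hu : ContDiff ℝ 2 u) :
    Continuous (angS u) := by
  have hu1 : ContDiff ℝ 1 (fderiv ℝ u) := hu.fderiv_right (by norm_num)
  unfold angS
  apply Continuous.sub
  · apply Continuous.sub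
    · exact (continuous_norm.pow 2).mul (laplacian_continuous u hu)
    · exact ((hu1.continuous_fderiv (by norm_num)).clm_apply continuous_id).clm_apply
        continuous_id
  · exact continuous_const.mul
      ((hu.continuous_fderiv (by norm_num)).clm_apply continuous_id)

theorem sphW_zero (P : EuclideanSpace ℝ (Fin n) → ℝ) : sphW P 0 = 0 := by
  simp [sphW, chi_zero]

/-- The radial equation satisfied by the coefficient functions of a function that is harmonic
for the metric `dr² + h(r)² g_{S^{n-1}}`. -/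
theorem coeff_ode (h : ℝ → ℝ) (u : EuclideanSpace ℝ (Fin n) → ℝ) (hu : ContDiff ℝ 2 u)
    (hharm : ∀ x, x ≠ 0 → warpedLaplacian h u x = 0)
    (p : MvPolynomial (Fin n) ℝ) (d : ℕ) (hp : p.IsHomogeneous d) (hlap : plap p = 0)
    (r : ℝ) (hr : 0 < r) (hhr : h r ≠ 0) :
    coeffI2 u (pfun p) r + ((n : ℝ) - 1) * (deriv h r / h r) * coeffI1 u (pfun p) r
      = ((d : ℝ) * (d + n - 2)) * coeffI u (pfun p) r / (h r) ^ 2 := by
  have hPc : Continuous (pfun p) := (pfun_contDiff p (m := 0)).continuous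
  have hw := sphW_continuous (pfun p) hPc
  have hc := sphW_hasCompactSupport (pfun p)
  have i2 := integrable_nrm_mul (fun y θ => fderiv ℝ (fderiv ℝ u) y θ θ) (cont_G2 u hu)
    (sphW (pfun p)) hw hc r
  have i1 := integrable_nrm_mul (fun y θ => fderiv ℝ u y θ) (cont_G1 u (hu.of_le (by norm_num)))
    (sphW (pfun p)) hw hc r
  have i0 := integrable_nrm_mul (fun y _ => angS u y) (cont_G0 (angS u) (angS_continuous u hu))
    (sphW (pfun p)) hw hc r
  have hpt : ∀ x : EuclideanSpace ℝ (Fin n),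
      fderiv ℝ (fderiv ℝ u) (nrm r x) (nrm 1 x) (nrm 1 x) * sphW (pfun p) x
        + ((n : ℝ) - 1) * (deriv h r / h r) * (fderiv ℝ u (nrm r x) (nrm 1 x) * sphW (pfun p) x)
        + (1 / (h r) ^ 2) * (angS u (nrm r x) * sphW (pfun p) x) = 0 := by
    intro x
    by_cases hx : x = 0
    · subst hx
      simp [sphW_zero]
    · have hy : nrm r x ≠ 0 := nrm_ne_zero r hr x hx
      have h1 := hharm (nrm r x) hy
      unfold warpedLaplacian at h1
      rw [sphereLaplacian_eq_angS u _ hy] at h1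
      unfold radialDeriv2 radialDeriv at h1
      rw [radialUnit_nrm r hr x hx, norm_nrm r hr.le x hx] at h1
      have h2 : (fderiv ℝ (fderiv ℝ u) (nrm r x) (nrm 1 x) (nrm 1 x)
          + ((n : ℝ) - 1) * (deriv h r / h r) * fderiv ℝ u (nrm r x) (nrm 1 x)
          + angS u (nrm r x) / (h r) ^ 2) * sphW (pfun p) x = 0 := by
        rw [h1, zero_mul]
      rw [← h2]
      ring
  have hint : ∫ x, (fderiv ℝ (fderiv ℝ u) (nrm r x) (nrm 1 x) (nrm 1 x) * sphW (pfun p) x
        + ((n : ℝ) - 1) * (deriv h r / h r) * (fderiv ℝ u (nrm r x) (nrm 1 x) * sphW (pfun p) x)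
        + (1 / (h r) ^ 2) * (angS u (nrm r x) * sphW (pfun p) x)) = 0 := by
    simp_rw [hpt]
    simp
  have h1 := integral_add (i2.add (i1.const_mul (((n : ℝ) - 1) * (deriv h r / h r))))
    (i0.const_mul (1 / (h r) ^ 2))
  have h2 := integral_add i2 (i1.const_mul (((n : ℝ) - 1) * (deriv h r / h r)))
  simp only [Pi.add_apply] at h1 h2
  rw [h1, h2, integral_const_mul, integral_const_mul] at hint
  have hS : ∫ x, angS u (nrm r x) * sphW (pfun p) x
      = -((d : ℝ) * (d + n - 2)) * coeffI u (pfun p) r := by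
    have e1 : (fun x : EuclideanSpace ℝ (Fin n) => angS u (nrm r x) * sphW (pfun p) x) =
        fun x => cutK r (angS u) x * cutK 1 (pfun p) x := by
      funext x
      unfold sphW cutK
      ring
    rw [e1, integral_angS_cutK r u (pfun p) hu (pfun_contDiff p)]
    have e2 : (fun x : EuclideanSpace ℝ (Fin n) => cutK r u x * cutK 1 (angS (pfun p)) x) =
        fun x => -((d : ℝ) * (d + n - 2)) * (u (nrm r x) * sphW (pfun p) x) := by
      funext x
      unfold sphW cutK
      rw [angS_pfun p d hp hlap]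
      ring
    rw [e2, integral_const_mul]
    rfl
  rw [hS] at hint
  have e3 : coeffI2 u (pfun p) r = ∫ x, fderiv ℝ (fderiv ℝ u) (nrm r x) (nrm 1 x) (nrm 1 x)
      * sphW (pfun p) x := rfl
  have e4 : coeffI1 u (pfun p) r = ∫ x, fderiv ℝ u (nrm r x) (nrm 1 x) * sphW (pfun p) x := rfl
  rw [e3, e4]
  field_simp
  field_simp at hint
  linarith

/-- Uniform bounds for the integrals `∫ G(r x/‖x‖, x/‖x‖) w(x) dx`, `|r| ≤ R`. -/
theorem abs_integral_nrm_le (G : EuclideanSpace ℝ (Fin n) → EuclideanSpace ℝ (Fin n) → ℝ)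
    (hG : Continuous (fun q : EuclideanSpace ℝ (Fin n) × EuclideanSpace ℝ (Fin n) => G q.1 q.2))
    (w : EuclideanSpace ℝ (Fin n) → ℝ) (hw : Continuous w) (hc : HasCompactSupport w) (R : ℝ) :
    ∃ B : ℝ, ∀ r : ℝ, |r| ≤ R → |∫ x, G (nrm r x) (nrm 1 x) * w x| ≤ B := by
  obtain ⟨B, hB0, hB⟩ := exists_bound_nrm G hG R
  have hwi : Integrable w := hw.integrable_of_hasCompactSupport hc
  refine ⟨B * ∫ x, ‖w x‖, ?_⟩
  intro r hr
  rw [← integral_const_mul, ← Real.norm_eq_abs]
  apply norm_integral_le_of_norm_le (hwi.norm.const_mul B)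
  apply Filter.Eventually.of_forall
  intro x
  rw [norm_mul, Real.norm_eq_abs]
  exact mul_le_mul_of_nonneg_right (hB r x hr) (norm_nonneg _)

theorem coeffI_growth (u P : EuclideanSpace ℝ (Fin n) → ℝ)
    (hP : Continuous P) (k : ℕ) (C : ℝ) (hC : ∀ x, |u x| ≤ C * (1 + ‖x‖) ^ k) :
    ∀ r : ℝ, 1 ≤ r → |coeffI u P r| ≤ (C * ∫ x, ‖sphW P x‖) * (1 + r) ^ k := by
  intro r hr
  have hC0 : 0 ≤ C := by
    have := hC 0
    simp at this
    exact (abs_nonneg _).trans this
  have hwi : Integrable (sphW P) :=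
    (sphW_continuous P hP).integrable_of_hasCompactSupport (sphW_hasCompactSupport P)
  have e : (C * ∫ x, ‖sphW P x‖) * (1 + r) ^ k = ∫ x, (C * (1 + r) ^ k) * ‖sphW P x‖ := by
    rw [integral_const_mul]
    ring
  rw [e, ← Real.norm_eq_abs]
  apply norm_integral_le_of_norm_le (hwi.norm.const_mul _)
  apply Filter.Eventually.of_forall
  intro x
  rw [norm_mul, Real.norm_eq_abs]
  apply mul_le_mul_of_nonneg_right _ (norm_nonneg _)
  have h1 : ‖nrm r x‖ ≤ r := norm_nrm_le r (by linarith) x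
  calc |u (nrm r x)| ≤ C * (1 + ‖nrm r x‖) ^ k := hC _
    _ ≤ C * (1 + r) ^ k := by
      apply mul_le_mul_of_nonneg_left _ hC0
      apply pow_le_pow_left₀ (by positivity)
      linarith

/-- Vanishing of coefficient functions: for a harmonic function `u` of growth order `k` on the
rotationally symmetric manifold and a harmonic homogeneous polynomial `p` of degree `d`, the
coefficient function vanishes identically if `d > k`, or if it vanishes at `r = 1`. -/
theorem coeffI_vanish (hn : 2 ≤ n) (k : ℕ) (h : ℝ → ℝ) (hC : ContDiff ℝ 2 h) (h0 : h 0 = 0)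
    (hd0 : deriv h 0 = 1) (hpos : ∀ r, 0 < r → 0 < h r)
    (hconc : ∀ r, 0 < r → deriv (deriv h) r ≤ 0)
    (u : EuclideanSpace ℝ (Fin n) → ℝ) (hu : u ∈ polyGrowthHarmonic n h k)
    (p : MvPolynomial (Fin n) ℝ) (d : ℕ) (hp : p.IsHomogeneous d) (hlap : plap p = 0)
    (hcase : k < d ∨ coeffI u (pfun p) 1 = 0) :
    ∀ r, 0 < r → coeffI u (pfun p) r = 0 := by
  obtain ⟨hu2, hharm, C, hgrow⟩ := hu
  obtain ⟨hder, hle⟩ := warp_bounds h hC h0 hd0 hconc
  have hPc : Continuous (pfun p) := (pfun_contDiff p (m := 0)).continuous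
  have hw := sphW_continuous (pfun p) hPc
  have hc := sphW_hasCompactSupport (pfun p)
  obtain ⟨j, rfl⟩ : ∃ j, n = j + 2 := ⟨n - 2, by omega⟩
  have hh : ∀ r, 0 < r → HasDerivAt h (deriv h r) r :=
    fun r _ => (hC.differentiable (by norm_num) r).hasDerivAt
  have hf : ∀ r, 0 < r → HasDerivAt (coeffI u (pfun p)) (coeffI1 u (pfun p) r) r :=
    fun r _ => coeffI_hasDerivAt u (pfun p) (hu2.of_le (by norm_num)) hPc r
  have hf' : ∀ r, 0 < r → HasDerivAt (coeffI1 u (pfun p)) (coeffI2 u (pfun p) r) r :=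
    fun r _ => coeffI1_hasDerivAt u (pfun p) hu2 hPc r
  have hode : ∀ r, 0 < r → coeffI2 u (pfun p) r
      + ((j : ℝ) + 1) * (deriv h r / h r) * coeffI1 u (pfun p) r
      = ((d : ℝ) * (d + j)) * coeffI u (pfun p) r / (h r) ^ 2 := by
    intro r hr
    have h1 := coeff_ode h u hu2 hharm p d hp hlap r hr (hpos r hr).ne'
    push_cast at h1
    have e1 : ((j : ℝ) + 2 - 1) = (j : ℝ) + 1 := by ring
    have e2 : ((d : ℝ) + ((j : ℝ) + 2) - 2) = (d : ℝ) + j := by ring
    rw [e1, e2] at h1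
    exact h1
  obtain ⟨M0, hM0⟩ := abs_integral_nrm_le (fun y _ => u y) (cont_G0 u hu2.continuous)
    (sphW (pfun p)) hw hc 1
  obtain ⟨M1, hM1⟩ := abs_integral_nrm_le (fun y θ => fderiv ℝ u y θ)
    (cont_G1 u (hu2.of_le (by norm_num))) (sphW (pfun p)) hw hc 1
  have hbd : ∀ r, 0 < r → r ≤ 1 →
      |coeffI u (pfun p) r| ≤ max M0 M1 ∧ |coeffI1 u (pfun p) r| ≤ max M0 M1 := by
    intro r hr hr1
    have hr' : |r| ≤ 1 := by
      rw [abs_of_pos hr]
      exact hr1
    exact ⟨(hM0 r hr').trans (le_max_left _ _), (hM1 r hr').trans (le_max_right _ _)⟩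
  rcases hcase with hdk | h1
  · have hlam : (k : ℝ) * (k + j) < (d : ℝ) * (d + j) := by
      have h2 : (k : ℝ) + 1 ≤ d := by exact_mod_cast hdk
      have hk0 : (0 : ℝ) ≤ k := Nat.cast_nonneg k
      have hj0 : (0 : ℝ) ≤ j := Nat.cast_nonneg j
      nlinarith
    exact radial_rigidity j ((d : ℝ) * (d + j)) h (deriv h) (coeffI u (pfun p))
      (coeffI1 u (pfun p)) (coeffI2 u (pfun p)) k hlam hh hpos hle hder hf hf' hode
      (max M0 M1) hbd (C * ∫ x, ‖sphW (pfun p) x‖) (coeffI_growth u (pfun p) hPc k C hgrow)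
  · have hlam : (0 : ℝ) ≤ (d : ℝ) * (d + j) := by positivity
    exact regular_unique j ((d : ℝ) * (d + j)) h (deriv h) (coeffI u (pfun p))
      (coeffI1 u (pfun p)) (coeffI2 u (pfun p)) hlam hh hpos hle hf hf' hode
      (max M0 M1) hbd h1

end Vale.Agent.Lib.P225
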