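import Vale.Agent.Lib.P225.RadialReal

/-!
The radial rigidity lemma under a cone bound `h r ≤ c r` at infinity.
-/

namespace Vale.Agent.Lib.P225

open Set

section odecone

variable (j : ℕ) (lam : ℝ) (h hd f fd fdd : ℝ → ℝ)

/-- Rigidity with a cone bound: if moreover `h r ≤ c r` for all `r ≥ ρ`, a solution of the radial
equation that is regular at `0` and grows at most like `r^k`, with a real exponent `k ≥ 0`,
vanishes identically as soon as `lam > (c k) (c k + j)`. -/
theorem radial_rigidity_cone (k : ℝ) (hk0 : 0 ≤ k) (c : ℝ) (hcpos : 0 < c) (ρ : ℝ)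
    (hcone : ∀ r, ρ ≤ r → h r ≤ c * r)
    (hlam : (c * k) * (c * k + j) < lam)
    (hh : ∀ r, 0 < r → HasDerivAt h (hd r) r)
    (hpos : ∀ r, 0 < r → 0 < h r) (hle : ∀ r, 0 < r → h r ≤ r)
    (hder : ∀ r, 0 < r → hd r ≤ 1)
    (hf : ∀ r, 0 < r → HasDerivAt f (fd r) r)
    (hf' : ∀ r, 0 < r → HasDerivAt fd (fdd r) r)
    (hode : ∀ r, 0 < r → fdd r + (j + 1) * (hd r / h r) * fd r = lam * f r / (h r) ^ 2)
    (M : ℝ) (hbd : ∀ r, 0 < r → r ≤ 1 → |f r| ≤ M ∧ |fd r| ≤ M)
    (C : ℝ) (hgrowth : ∀ r, 1 ≤ r → |f r| ≤ C * (1 + r) ^ k) :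
    ∀ r, 0 < r → f r = 0 := by
  have hj0 : (0 : ℝ) ≤ j := Nat.cast_nonneg j
  have hck0 : 0 ≤ c * k := mul_nonneg hcpos.le hk0
  have hlam0 : 0 ≤ lam := by nlinarith [mul_nonneg hck0 (add_nonneg hck0 hj0)]
  by_contra hcon
  push Not at hcon
  obtain ⟨r0, hr0, hfr0⟩ := hcon
  have hmono := sq_monotoneOn j lam h hd f fd fdd hlam0 hh hpos hle hf hf' hode M hbd
  have hffd := f_mul_fd_nonneg j lam h hd f fd fdd hlam0 hh hpos hle hf hf' hode M hbd
  -- (a) f does not vanish on [r0, ∞)
  have hne : ∀ r, r0 ≤ r → f r ≠ 0 := by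
    intro r hr hzero
    have h1 : f r0 ^ 2 ≤ f r ^ 2 := hmono (mem_Ioi.mpr hr0) (mem_Ioi.mpr (hr0.trans_le hr)) hr
    rw [hzero] at h1
    have h2 : 0 < f r0 ^ 2 := by positivity
    simp at h1
    exact hfr0 h1
  -- (b) the logarithmic derivative
  set p : ℝ → ℝ := fun r => h r * fd r / f r with hp
  have hp0 : ∀ r, r0 ≤ r → 0 ≤ p r := by
    intro r hr
    have hr' : 0 < r := hr0.trans_le hr
    have h1 := hffd r hr'
    have h2 := hne r hr
    have h3 : p r = h r * (f r * fd r) / (f r) ^ 2 := by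
      simp only [hp]
      field_simp
    rw [h3]
    have := hpos r hr'
    positivity
  have hpd : ∀ r, r0 ≤ r →
      HasDerivAt p ((lam - j * hd r * p r - p r ^ 2) / h r) r := by
    intro r hr
    have hr' : 0 < r := hr0.trans_le hr
    have h2 := hne r hr
    have h3 := (hpos r hr').ne'
    have h1 : HasDerivAt p (((hd r * fd r + h r * fdd r) * f r - h r * fd r * fd r) / f r ^ 2) r :=
      ((hh r hr').mul (hf' r hr')).div (hf r hr') h2
    refine h1.congr_deriv ?_
    have e : fdd r = lam * f r / (h r) ^ 2 - (j + 1) * (hd r / h r) * fd r := by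
      have := hode r hr'
      linarith
    rw [e]
    simp only [hp]
    field_simp
    ring
  have hpd_lb : ∀ r, r0 ≤ r → (lam - j * p r - p r ^ 2) / h r
      ≤ (lam - j * hd r * p r - p r ^ 2) / h r := by
    intro r hr
    have hr' : 0 < r := hr0.trans_le hr
    apply div_le_div_of_nonneg_right _ (hpos r hr').le
    have h1 := hp0 r hr
    have h2 := hder r hr'
    have h3 : j * hd r * p r ≤ j * p r := by
      have : hd r * p r ≤ 1 * p r := mul_le_mul_of_nonneg_right h2 h1
      nlinarith
    linarith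
  obtain ⟨κ, hκk, hφ⟩ := exists_threshold_real j lam (c * k) hck0 hlam
  have hκ0 : 0 < κ := lt_of_le_of_lt hck0 hκk
  set c0 : ℝ := lam - j * κ - κ ^ 2 with hc0
  -- lower bound of the derivative of p below the threshold
  have hpd_c0 : ∀ r, r0 ≤ r → p r ≤ κ → c0 / r ≤ (lam - j * hd r * p r - p r ^ 2) / h r := by
    intro r hr hpk
    have hr' : 0 < r := hr0.trans_le hr
    have h1 := hp0 r hr
    have h2 : c0 ≤ lam - j * p r - p r ^ 2 := by
      simp only [hc0]
      nlinarith
    have h3 : c0 / r ≤ c0 / h r :=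
      div_le_div_of_nonneg_left hφ.le (hpos r hr') (hle r hr')
    have h4 : c0 / h r ≤ (lam - j * p r - p r ^ 2) / h r :=
      div_le_div_of_nonneg_right h2 (hpos r hr').le
    exact h3.trans (h4.trans (hpd_lb r hr))
  -- Claim A
  have claimA : ∃ r1, r0 ≤ r1 ∧ κ ≤ p r1 := by
    by_contra hA
    push Not at hA
    set q : ℝ → ℝ := fun r => p r - c0 * Real.log r with hq
    have hqd : ∀ r, r0 ≤ r → HasDerivAt q ((lam - j * hd r * p r - p r ^ 2) / h r - c0 * r⁻¹) r := by
      intro r hr
      have hr' : 0 < r := hr0.trans_le hr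
      exact (hpd r hr).sub ((Real.hasDerivAt_log hr'.ne').const_mul c0)
    have hqmono : MonotoneOn q (Ici r0) := by
      apply monotoneOn_of_deriv_nonneg (convex_Ici r0)
      · intro x hx
        exact (hqd x hx).continuousAt.continuousWithinAt
      · intro x hx
        rw [interior_Ici] at hx
        exact (hqd x hx.le).differentiableAt.differentiableWithinAt
      · intro x hx
        rw [interior_Ici] at hx
        rw [(hqd x hx.le).deriv]
        have := hpd_c0 x hx.le (hA x hx.le).le
        rw [div_eq_mul_inv] at this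
        linarith
    set r2 : ℝ := r0 * Real.exp ((κ + 1) / c0) with hr2
    have hexp : 1 ≤ Real.exp ((κ + 1) / c0) := Real.one_le_exp (by positivity)
    have hr2ge : r0 ≤ r2 := by
      simp only [hr2]
      nlinarith
    have h1 : q r0 ≤ q r2 := hqmono (mem_Ici.mpr le_rfl) (mem_Ici.mpr hr2ge) hr2ge
    have hlog : Real.log r2 = Real.log r0 + (κ + 1) / c0 := by
      simp only [hr2]
      rw [Real.log_mul hr0.ne' (Real.exp_pos _).ne', Real.log_exp]
    simp only [hq] at h1
    rw [hlog] at h1
    have h2 : c0 * ((κ + 1) / c0) = κ + 1 := by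
      field_simp
    have h3 := hp0 r0 le_rfl
    have h4 := hA r2 hr2ge
    nlinarith
  obtain ⟨r1, hr1, hpr1⟩ := claimA
  have hr1pos : 0 < r1 := hr0.trans_le hr1
  -- Claim B
  have claimB : ∀ r, r1 ≤ r → κ ≤ p r := by
    intro r3 hr3
    by_contra hB
    push Not at hB
    have hcont : ContinuousOn p (Icc r1 r3) := by
      intro x hx
      exact (hpd x (hr1.trans hx.1)).continuousAt.continuousWithinAt
    have hclosed : IsClosed (Icc r1 r3 ∩ p ⁻¹' (Ici κ)) :=
      hcont.preimage_isClosed_of_isClosed isClosed_Icc isClosed_Ici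
    have hcompact : IsCompact (Icc r1 r3 ∩ p ⁻¹' (Ici κ)) :=
      isCompact_Icc.of_isClosed_subset hclosed inter_subset_left
    have hnonempty : (Icc r1 r3 ∩ p ⁻¹' (Ici κ)).Nonempty :=
      ⟨r1, ⟨le_rfl, hr3⟩, hpr1⟩
    obtain ⟨rs, hrs, hgreatest⟩ := hcompact.exists_isGreatest hnonempty
    have hrs1 : r1 ≤ rs := hrs.1.1
    have hrs3 : rs ≤ r3 := hrs.1.2
    have hprs : κ ≤ p rs := hrs.2
    have hbelow : ∀ x, rs < x → x ≤ r3 → p x < κ := by
      intro x hx1 hx3
      by_contra hx
      push Not at hx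
      have : x ≤ rs := hgreatest ⟨⟨hrs1.trans hx1.le, hx3⟩, hx⟩
      linarith
    have hpmono : MonotoneOn p (Icc rs r3) := by
      apply monotoneOn_of_deriv_nonneg (convex_Icc rs r3)
      · intro x hx
        exact (hpd x (hr1.trans (hrs1.trans hx.1))).continuousAt.continuousWithinAt
      · intro x hx
        rw [interior_Icc] at hx
        exact (hpd x (hr1.trans (hrs1.trans hx.1.le))).differentiableAt.differentiableWithinAt
      · intro x hx
        rw [interior_Icc] at hx
        have hx0 : r0 ≤ x := hr1.trans (hrs1.trans hx.1.le)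
        rw [(hpd x hx0).deriv]
        have h1 := hpd_c0 x hx0 (hbelow x hx.1 hx.2.le).le
        have h2 : 0 ≤ c0 / x := div_nonneg hφ.le (hr0.trans_le hx0).le
        linarith
    have h1 : p rs ≤ p r3 := hpmono ⟨le_rfl, hrs3⟩ ⟨hrs3, le_rfl⟩ hrs3
    linarith
  -- Step 5: growth of log |f|
  set r1' : ℝ := max r1 ρ with hr1'
  have hr1r1' : r1 ≤ r1' := le_max_left _ _
  have hρr1' : ρ ≤ r1' := le_max_right _ _
  have hr1'pos : 0 < r1' := hr1pos.trans_le hr1r1'
  set κ' : ℝ := κ / c with hκ'
  have hκ'k : k < κ' := by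
    simp only [hκ']
    rw [lt_div_iff₀ hcpos]
    linarith
  set G : ℝ → ℝ := fun r => Real.log (f r) - κ' * Real.log r with hG
  have hGd : ∀ r, r1' ≤ r → HasDerivAt G (fd r / f r - κ' * r⁻¹) r := by
    intro r hr
    have hr' : 0 < r := hr1'pos.trans_le hr
    exact ((hf r hr').log (hne r (hr1.trans (hr1r1'.trans hr)))).sub
      ((Real.hasDerivAt_log hr'.ne').const_mul κ')
  have hGmono : MonotoneOn G (Ici r1') := by
    apply monotoneOn_of_deriv_nonneg (convex_Ici r1')
    · intro x hx
      exact (hGd x hx).continuousAt.continuousWithinAt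
    · intro x hx
      rw [interior_Ici] at hx
      exact (hGd x hx.le).differentiableAt.differentiableWithinAt
    · intro x hx
      rw [interior_Ici] at hx
      rw [(hGd x hx.le).deriv]
      have hx' : 0 < x := hr1'pos.trans hx
      have hhx := hpos x hx'
      have h1 := claimB x (hr1r1'.trans hx.le)
      have h2 : fd x / f x = p x / h x := by
        simp only [hp]
        have := hne x (hr1.trans (hr1r1'.trans hx.le))
        field_simp
      have hcx : h x ≤ c * x := hcone x (hρr1'.trans hx.le)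
      have h3 : κ / (c * x) ≤ κ / h x := div_le_div_of_nonneg_left hκ0.le hhx hcx
      have h4 : κ / h x ≤ p x / h x := div_le_div_of_nonneg_right h1 hhx.le
      have h5 : κ' * x⁻¹ = κ / (c * x) := by
        simp only [hκ']
        field_simp
      rw [h2, h5]
      linarith
  set B : ℝ := Real.log C + k * Real.log 2 - Real.log (f r1') + κ' * Real.log r1' with hB
  have hεpos : 0 < κ' - k := by linarith
  set r := max (max r1' 1) (Real.exp ((|B| + 1) / (κ' - k))) with hr
  have hr_r1 : r1' ≤ r := (le_max_left _ _).trans (le_max_left _ _)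
  have hr_1 : 1 ≤ r := (le_max_right _ _).trans (le_max_left _ _)
  have hr_exp : Real.exp ((|B| + 1) / (κ' - k)) ≤ r := le_max_right _ _
  have hrpos : 0 < r := lt_of_lt_of_le one_pos hr_1
  have hlogr : (|B| + 1) / (κ' - k) ≤ Real.log r := by
    rw [← Real.log_exp ((|B| + 1) / (κ' - k))]
    exact Real.log_le_log (Real.exp_pos _) hr_exp
  have h1 : G r1' ≤ G r := hGmono (mem_Ici.mpr le_rfl) (mem_Ici.mpr hr_r1) hr_r1
  have hfr : f r ≠ 0 := hne r (hr1.trans (hr1r1'.trans hr_r1))
  have hgr := hgrowth r hr_1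
  have habs : 0 < |f r| := abs_pos.mpr hfr
  have hpow : (0 : ℝ) < (1 + r) ^ k := Real.rpow_pos_of_pos (by linarith) k
  have hCpos : 0 < C := by
    by_contra hC
    push Not at hC
    have : C * (1 + r) ^ k ≤ 0 := mul_nonpos_of_nonpos_of_nonneg hC hpow.le
    linarith
  have h2 : Real.log (f r) ≤ Real.log C + k * (Real.log 2 + Real.log r) := by
    rw [← Real.log_abs]
    have h3 : Real.log |f r| ≤ Real.log (C * (1 + r) ^ k) := Real.log_le_log habs hgr
    rw [Real.log_mul hCpos.ne' hpow.ne', Real.log_rpow (by linarith)] at h3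
    have h4 : Real.log (1 + r) ≤ Real.log 2 + Real.log r := by
      rw [← Real.log_mul (by norm_num) hrpos.ne']
      exact Real.log_le_log (by linarith) (by linarith)
    have h5 : (k : ℝ) * Real.log (1 + r) ≤ k * (Real.log 2 + Real.log r) :=
      mul_le_mul_of_nonneg_left h4 hk0
    linarith
  simp only [hG] at h1
  have h6 : (κ' - k) * Real.log r ≤ B := by
    simp only [hB]
    linarith
  have h7 : |B| + 1 ≤ (κ' - k) * Real.log r := by
    have := mul_le_mul_of_nonneg_left hlogr hεpos.le
    rw [mul_div_cancel₀ _ hεpos.ne'] at this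
    exact this
  have h8 := le_abs_self B
  linarith

end odecone

end Vale.Agent.Lib.P225
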