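import Vale.Agent.Lib.P225.WarpedLaplacian

/-!
Harmonic functions of real polynomial growth order for the metric `dr² + h(r)² g_{S^{n-1}}`.
-/

namespace Vale.Agent.Lib.P225

/-- The `C²` functions on `ℝⁿ` that are harmonic for the metric `dr² + h(r)² g_{S^{n-1}}` and
bounded by a multiple of `(1 + ‖x‖)^d`, for a real exponent `d`. -/
def polyGrowthHarmonicReal (n : ℕ) (h : ℝ → ℝ) (d : ℝ) : Set (EuclideanSpace ℝ (Fin n) → ℝ) :=
  {u | ContDiff ℝ 2 u ∧ (∀ x, x ≠ 0 → warpedLaplacian h u x = 0) ∧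
    ∃ C : ℝ, ∀ x, |u x| ≤ C * (1 + ‖x‖) ^ d}

end Vale.Agent.Lib.P225
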