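import Vale.Agent.Lib.P225.Coeff
import Vale.Agent.Lib.P225.RadialReal
import Vale.Agent.Lib.P225.WarpedLaplacianReal

/-!
Coefficient functions of harmonic functions with a real growth exponent.
-/

namespace Vale.Agent.Lib.P225

open Laplacian MeasureTheory Set

variable {n : ℕ}

theorem coeffI_growth_real (u P : EuclideanSpace ℝ (Fin n) → ℝ)
    (hP : Continuous P) (k : ℝ) (hk0 : 0 ≤ k) (C : ℝ) (hC : ∀ x, |u x| ≤ C * (1 + ‖x‖) ^ k) :
    ∀ r : ℝ, 1 ≤ r → |coeffI u P r| ≤ (C * ∫ x, ‖sphW P x‖) * (1 + r) ^ k := by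
  intro r hr
  have hC0 : 0 ≤ C := by
    have := hC 0
    simp at this
    exact (abs_nonneg _).trans this
  have hwi : Integrable (sphW P) :=
    (sphW_continuous P hP).integrable_of_hasCompactSupport (sphW_hasCompactSupport P)
  have e : (C * ∫ x, ‖sphW P x‖) * (1 + r) ^ k = ∫ x, (C * (1 + r) ^ k) * ‖sphW P x‖ := by
    rw [integral_const_mul]
    ring
  rw [e, ← Real.norm_eq_abs]
  apply norm_integral_le_of_norm_le (hwi.norm.const_mul _)
  apply Filter.Eventually.of_forall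
  intro x
  rw [norm_mul, Real.norm_eq_abs]
  apply mul_le_mul_of_nonneg_right _ (norm_nonneg _)
  have h1 : ‖nrm r x‖ ≤ r := norm_nrm_le r (by linarith) x
  calc |u (nrm r x)| ≤ C * (1 + ‖nrm r x‖) ^ k := hC _
    _ ≤ C * (1 + r) ^ k := by
      apply mul_le_mul_of_nonneg_left _ hC0
      apply Real.rpow_le_rpow (by positivity) (by linarith) hk0

/-- Vanishing of coefficient functions: for a harmonic function `u` of real growth order `k` on the
rotationally symmetric manifold and a harmonic homogeneous polynomial `p` of degree `d`, the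
coefficient function vanishes identically if `d > k`, or if it vanishes at `r = 1`. -/
theorem coeffI_vanish_real (hn : 2 ≤ n) (k : ℝ) (hk0 : 0 ≤ k) (h : ℝ → ℝ) (hC : ContDiff ℝ 2 h) (h0 : h 0 = 0)
    (hd0 : deriv h 0 = 1) (hpos : ∀ r, 0 < r → 0 < h r)
    (hconc : ∀ r, 0 < r → deriv (deriv h) r ≤ 0)
    (u : EuclideanSpace ℝ (Fin n) → ℝ) (hu : u ∈ polyGrowthHarmonicReal n h k)
    (p : MvPolynomial (Fin n) ℝ) (d : ℕ) (hp : p.IsHomogeneous d) (hlap : plap p = 0)
    (hcase : k < (d : ℝ) ∨ coeffI u (pfun p) 1 = 0) :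
    ∀ r, 0 < r → coeffI u (pfun p) r = 0 := by
  obtain ⟨hu2, hharm, C, hgrow⟩ := hu
  obtain ⟨hder, hle⟩ := warp_bounds h hC h0 hd0 hconc
  have hPc : Continuous (pfun p) := (pfun_contDiff p (m := 0)).continuous
  have hw := sphW_continuous (pfun p) hPc
  have hc := sphW_hasCompactSupport (pfun p)
  obtain ⟨j, rfl⟩ : ∃ j, n = j + 2 := ⟨n - 2, by omega⟩
  have hh : ∀ r, 0 < r → HasDerivAt h (deriv h r) r :=
    fun r _ => (hC.differentiable (by norm_num) r).hasDerivAt
  have hf : ∀ r, 0 < r → HasDerivAt (coeffI u (pfun p)) (coeffI1 u (pfun p) r) r :=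
    fun r _ => coeffI_hasDerivAt u (pfun p) (hu2.of_le (by norm_num)) hPc r
  have hf' : ∀ r, 0 < r → HasDerivAt (coeffI1 u (pfun p)) (coeffI2 u (pfun p) r) r :=
    fun r _ => coeffI1_hasDerivAt u (pfun p) hu2 hPc r
  have hode : ∀ r, 0 < r → coeffI2 u (pfun p) r
      + ((j : ℝ) + 1) * (deriv h r / h r) * coeffI1 u (pfun p) r
      = ((d : ℝ) * (d + j)) * coeffI u (pfun p) r / (h r) ^ 2 := by
    intro r hr
    have h1 := coeff_ode h u hu2 hharm p d hp hlap r hr (hpos r hr).ne'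
    push_cast at h1
    have e1 : ((j : ℝ) + 2 - 1) = (j : ℝ) + 1 := by ring
    have e2 : ((d : ℝ) + ((j : ℝ) + 2) - 2) = (d : ℝ) + j := by ring
    rw [e1, e2] at h1
    exact h1
  obtain ⟨M0, hM0⟩ := abs_integral_nrm_le (fun y _ => u y) (cont_G0 u hu2.continuous)
    (sphW (pfun p)) hw hc 1
  obtain ⟨M1, hM1⟩ := abs_integral_nrm_le (fun y θ => fderiv ℝ u y θ)
    (cont_G1 u (hu2.of_le (by norm_num))) (sphW (pfun p)) hw hc 1
  have hbd : ∀ r, 0 < r → r ≤ 1 →
      |coeffI u (pfun p) r| ≤ max M0 M1 ∧ |coeffI1 u (pfun p) r| ≤ max M0 M1 := by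
    intro r hr hr1
    have hr' : |r| ≤ 1 := by
      rw [abs_of_pos hr]
      exact hr1
    exact ⟨(hM0 r hr').trans (le_max_left _ _), (hM1 r hr').trans (le_max_right _ _)⟩
  rcases hcase with hdk | h1
  · have hlam : (k : ℝ) * (k + j) < (d : ℝ) * (d + j) := by
      have hj0 : (0 : ℝ) ≤ j := Nat.cast_nonneg j
      nlinarith
    exact radial_rigidity_real j ((d : ℝ) * (d + j)) h (deriv h) (coeffI u (pfun p))
      (coeffI1 u (pfun p)) (coeffI2 u (pfun p)) k hk0 hlam hh hpos hle hder hf hf' hode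
      (max M0 M1) hbd (C * ∫ x, ‖sphW (pfun p) x‖)
      (coeffI_growth_real u (pfun p) hPc k hk0 C hgrow)
  · have hlam : (0 : ℝ) ≤ (d : ℝ) * (d + j) := by positivity
    exact regular_unique j ((d : ℝ) * (d + j)) h (deriv h) (coeffI u (pfun p))
      (coeffI1 u (pfun p)) (coeffI2 u (pfun p)) hlam hh hpos hle hf hf' hode
      (max M0 M1) hbd h1

end Vale.Agent.Lib.P225
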