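import Vale.Agent.Lib.P225.Coeff

/-!
Completeness: a continuous function all of whose coefficient functions against harmonic
homogeneous polynomials vanish at radius `r` vanishes on the sphere of radius `r`.
-/

namespace Vale.Agent.Lib.P225

open Laplacian MeasureTheory Set MvPolynomial

variable {n : ℕ}

theorem coeffI_add_right (u : EuclideanSpace ℝ (Fin n) → ℝ) (hu : Continuous u)
    (p q : MvPolynomial (Fin n) ℝ) (r : ℝ) :
    coeffI u (pfun (p + q)) r = coeffI u (pfun p) r + coeffI u (pfun q) r := by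
  unfold coeffI
  have hp := integrable_nrm_mul (fun y _ => u y) (cont_G0 u hu) (sphW (pfun p))
    (sphW_continuous _ (pfun_contDiff p (m := 0)).continuous) (sphW_hasCompactSupport _) r
  have hq := integrable_nrm_mul (fun y _ => u y) (cont_G0 u hu) (sphW (pfun q))
    (sphW_continuous _ (pfun_contDiff q (m := 0)).continuous) (sphW_hasCompactSupport _) r
  rw [← integral_add hp hq]
  congr 1
  funext x
  unfold sphW cutK
  rw [pfun_add]
  ring

theorem coeffI_smul_right (u : EuclideanSpace ℝ (Fin n) → ℝ)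
    (c : ℝ) (p : MvPolynomial (Fin n) ℝ) (r : ℝ) :
    coeffI u (pfun (c • p)) r = c * coeffI u (pfun p) r := by
  unfold coeffI
  rw [← integral_const_mul]
  congr 1
  funext x
  unfold sphW cutK
  rw [pfun_smul]
  ring

theorem coeffI_N2_pow_mul (u : EuclideanSpace ℝ (Fin n) → ℝ) (m : ℕ)
    (p : MvPolynomial (Fin n) ℝ) (r : ℝ) :
    coeffI u (pfun (N2 ^ m * p)) r = coeffI u (pfun p) r := by
  unfold coeffI
  congr 1
  funext x
  congr 1
  unfold sphW cutK
  by_cases hx : x = 0
  · subst hx
    simp [chi_zero]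
  · rw [pfun_mul, pfun_pow, pfun_N2, norm_nrm 1 zero_le_one x hx]
    simp

theorem coeffI_all_poly (hn : 1 ≤ n) (u : EuclideanSpace ℝ (Fin n) → ℝ) (hu : Continuous u)
    (r : ℝ)
    (hzero : ∀ (d : ℕ) (p : MvPolynomial (Fin n) ℝ), p.IsHomogeneous d → plap p = 0 →
      coeffI u (pfun p) r = 0) :
    ∀ q : MvPolynomial (Fin n) ℝ, coeffI u (pfun q) r = 0 := by
  let M : Submodule ℝ (MvPolynomial (Fin n) ℝ) :=
    { carrier := {q | coeffI u (pfun q) r = 0}
      add_mem' := by
        intro a b ha hb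
        simp only [Set.mem_ofPred_eq] at *
        rw [coeffI_add_right u hu, ha, hb, add_zero]
      zero_mem' := by
        simp [coeffI, sphW, cutK, pfun_zero]
      smul_mem' := by
        intro c a ha
        simp only [Set.mem_ofPred_eq] at *
        rw [coeffI_smul_right, ha, mul_zero] }
  intro q
  exact fischer_induction hn M (fun m j H hH hlap => by
    show coeffI u (pfun (N2 ^ m * H)) r = 0
    rw [coeffI_N2_pow_mul]
    exact hzero j H hH hlap) q

/-- Polynomial functions are uniformly dense among continuous functions on the unit sphere. -/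
theorem exists_poly_near (f : EuclideanSpace ℝ (Fin n) → ℝ) (hf : Continuous f) (ε : ℝ)
    (hε : 0 < ε) :
    ∃ q : MvPolynomial (Fin n) ℝ, ∀ θ : EuclideanSpace ℝ (Fin n), ‖θ‖ = 1 →
      |pfun q θ - f θ| < ε := by
  have : CompactSpace (Metric.sphere (0 : EuclideanSpace ℝ (Fin n)) 1) :=
    isCompact_iff_compactSpace.mp (isCompact_sphere 0 1)
  let coord : Fin n → C(Metric.sphere (0 : EuclideanSpace ℝ (Fin n)) 1, ℝ) :=
    fun i => ⟨fun θ => (θ : EuclideanSpace ℝ (Fin n)) i,
      (coord_contDiff i (m := 0)).continuous.comp continuous_subtype_val⟩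
  let φ : MvPolynomial (Fin n) ℝ →ₐ[ℝ] C(Metric.sphere (0 : EuclideanSpace ℝ (Fin n)) 1, ℝ) :=
    MvPolynomial.aeval coord
  have hφ : ∀ (q : MvPolynomial (Fin n) ℝ)
      (θ : Metric.sphere (0 : EuclideanSpace ℝ (Fin n)) 1),
      φ q θ = pfun q (θ : EuclideanSpace ℝ (Fin n)) := by
    intro q θ
    induction q using MvPolynomial.induction_on with
    | C a => simp [φ, pfun]
    | add p q hp hq => simp [map_add, hp, hq, pfun_add]
    | mul_X p i hp => simp [map_mul, hp, pfun_mul, pfun_X, φ, coord]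
  have hsep : φ.range.SeparatesPoints := by
    intro θ₁ θ₂ hne
    have hne' : (θ₁ : EuclideanSpace ℝ (Fin n)) ≠ θ₂ := fun h => hne (Subtype.ext h)
    have h1 : ∃ i, (θ₁ : EuclideanSpace ℝ (Fin n)) i ≠ (θ₂ : EuclideanSpace ℝ (Fin n)) i := by
      by_contra hcon
      push Not at hcon
      apply hne'
      ext i
      exact hcon i
    obtain ⟨i, hi⟩ := h1
    refine ⟨fun θ => (θ : EuclideanSpace ℝ (Fin n)) i, ?_, hi⟩
    refine ⟨coord i, ?_, rfl⟩
    exact ⟨X i, by simp [φ]⟩
  obtain ⟨g, hg⟩ := ContinuousMap.exists_mem_subalgebra_near_continuous_of_separatesPoints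
    φ.range hsep (fun θ => f (θ : EuclideanSpace ℝ (Fin n)))
    (hf.comp continuous_subtype_val) ε hε
  obtain ⟨q, hq⟩ := g.2
  refine ⟨q, ?_⟩
  intro θ hθ
  have h2 := hg ⟨θ, by simp [hθ]⟩
  rw [Real.norm_eq_abs] at h2
  have h3 : (g : C(Metric.sphere (0 : EuclideanSpace ℝ (Fin n)) 1, ℝ)) ⟨θ, by simp [hθ]⟩
      = pfun q θ := by
    rw [← hφ q ⟨θ, by simp [hθ]⟩]
    exact congrArg (fun F : C(Metric.sphere (0 : EuclideanSpace ℝ (Fin n)) 1, ℝ) =>
      F ⟨θ, by simp [hθ]⟩) hq.symm
  rw [h3] at h2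
  exact h2

/-- Completeness of polynomials on the sphere, in integrated form. -/
theorem eq_zero_on_sphere (u : EuclideanSpace ℝ (Fin n) → ℝ) (hu : Continuous u)
    (r : ℝ) (hr : 0 < r) (hzero : ∀ q : MvPolynomial (Fin n) ℝ, coeffI u (pfun q) r = 0) :
    ∀ y : EuclideanSpace ℝ (Fin n), ‖y‖ = r → u y = 0 := by
  have hKc : Continuous (cutK r u) := (cutK_contDiff r u (m := 0) (contDiff_zero.mpr hu)).continuous
  have hchi : Continuous (chi : EuclideanSpace ℝ (Fin n) → ℝ) := (chi_contDiff (m := 0)).continuous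
  have hwu : Continuous (fun x : EuclideanSpace ℝ (Fin n) => cutK r u x * chi x) := hKc.mul hchi
  have hwuc : HasCompactSupport (fun x : EuclideanSpace ℝ (Fin n) => cutK r u x * chi x) :=
    chi_hasCompactSupport.mul_left
  have iF := integrable_nrm_mul (fun y _ => u y) (cont_G0 u hu) _ hwu hwuc r
  have iA := integrable_nrm_mul (fun y _ => |u y|) (cont_G0 _ hu.abs)
    (fun x : EuclideanSpace ℝ (Fin n) => chi x * chi x) (hchi.mul hchi)
    chi_hasCompactSupport.mul_left r
  have hA0 : 0 ≤ ∫ x : EuclideanSpace ℝ (Fin n), |u (nrm r x)| * (chi x * chi x) := by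
    apply integral_nonneg
    intro x
    exact mul_nonneg (abs_nonneg _) (mul_nonneg (chi_nonneg x) (chi_nonneg x))
  have hle : ∀ ε : ℝ, 0 < ε → ∫ x, u (nrm r x) * (cutK r u x * chi x) ≤
      ε * ∫ x : EuclideanSpace ℝ (Fin n), |u (nrm r x)| * (chi x * chi x) := by
    intro ε hε
    obtain ⟨q, hq⟩ := exists_poly_near (fun θ => u (r • θ))
      (hu.comp (continuous_const_smul r)) ε hε
    have iq := integrable_nrm_mul (fun y _ => u y) (cont_G0 u hu) (sphW (pfun q))
      (sphW_continuous _ (pfun_contDiff q (m := 0)).continuous) (sphW_hasCompactSupport _) r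
    have h0 : ∫ x, u (nrm r x) * sphW (pfun q) x = 0 := hzero q
    have h1 : ∫ x, u (nrm r x) * (cutK r u x * chi x) =
        ∫ x, (u (nrm r x) * (cutK r u x * chi x) - u (nrm r x) * sphW (pfun q) x) := by
      rw [integral_sub iF iq, h0, sub_zero]
    rw [h1, ← integral_const_mul]
    refine (le_abs_self _).trans ?_
    rw [← Real.norm_eq_abs]
    apply norm_integral_le_of_norm_le (iA.const_mul ε)
    apply Filter.Eventually.of_forall
    intro x
    have e1 : u (nrm r x) * (cutK r u x * chi x) - u (nrm r x) * sphW (pfun q) x =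
        u (nrm r x) * ((u (nrm r x) - pfun q (nrm 1 x)) * (chi x * chi x)) := by
      unfold sphW cutK
      ring
    rw [e1, Real.norm_eq_abs, abs_mul, abs_mul,
      abs_of_nonneg (mul_nonneg (chi_nonneg x) (chi_nonneg x))]
    by_cases hx : x = 0
    · subst hx
      simp [chi_zero]
    · have h2 : |pfun q (nrm 1 x) - u (r • nrm 1 x)| < ε := hq (nrm 1 x) (norm_nrm 1 zero_le_one x hx)
      rw [← nrm_eq_smul, abs_sub_comm] at h2
      have h3 : 0 ≤ |u (nrm r x)| := abs_nonneg _
      have h4 : 0 ≤ chi x * chi x := mul_nonneg (chi_nonneg x) (chi_nonneg x)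
      calc |u (nrm r x)| * (|u (nrm r x) - pfun q (nrm 1 x)| * (chi x * chi x))
          ≤ |u (nrm r x)| * (ε * (chi x * chi x)) :=
            mul_le_mul_of_nonneg_left (mul_le_mul_of_nonneg_right h2.le h4) h3
        _ = ε * (|u (nrm r x)| * (chi x * chi x)) := by ring
  have hF0 : ∫ x, u (nrm r x) * (cutK r u x * chi x) ≤ 0 := by
    by_contra hcon
    push Not at hcon
    set I := ∫ x, u (nrm r x) * (cutK r u x * chi x) with hI
    set A := ∫ x : EuclideanSpace ℝ (Fin n), |u (nrm r x)| * (chi x * chi x) with hAdef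
    have h5 := hle (I / (2 * (A + 1))) (by positivity)
    have h6 : I / (2 * (A + 1)) * A ≤ I / 2 := by
      rw [div_mul_eq_mul_div, div_le_div_iff₀ (by positivity) (by norm_num)]
      nlinarith
    linarith
  have hFeq : (fun x : EuclideanSpace ℝ (Fin n) => u (nrm r x) * (cutK r u x * chi x)) =
      fun x => (cutK r u x) ^ 2 := by
    funext x
    unfold cutK
    ring
  rw [hFeq] at hF0
  have hall : ∀ x : EuclideanSpace ℝ (Fin n), cutK r u x = 0 := by
    intro x
    by_contra hx
    have hpos := Continuous.integral_pos_of_hasCompactSupport_nonneg_nonzero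
      (μ := (volume : Measure (EuclideanSpace ℝ (Fin n))))
      (f := fun x : EuclideanSpace ℝ (Fin n) => (cutK r u x) ^ 2) (x := x)
      (hKc.pow 2) ((cutK_hasCompactSupport r u).mono (by
        intro z hz
        rw [Function.mem_support] at hz ⊢
        exact fun h => hz (by simp [h])))
      (fun y => sq_nonneg _) (pow_ne_zero 2 hx)
    linarith
  intro y hy
  have hy0 : y ≠ 0 := by
    intro h
    rw [h, norm_zero] at hy
    linarith
  have h7 := hall (r⁻¹ • y)
  have h8 : ‖r⁻¹ • y‖ = 1 := by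
    rw [norm_smul, hy, Real.norm_eq_abs, abs_inv, abs_of_pos hr, inv_mul_cancel₀ hr.ne']
  unfold cutK at h7
  rw [chi_eq_one _ h8, mul_one] at h7
  have h9 : nrm r (r⁻¹ • y) = y := by
    unfold nrm
    rw [h8, inv_one, mul_one, smul_smul, mul_inv_cancel₀ hr.ne', one_smul]
  rw [h9] at h7
  exact h7

end Vale.Agent.Lib.P225
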