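import Vale.Agent.Lib.P225.DimCone

/-!
The cone-angle refinement of the dimension bound: on a rotationally symmetric manifold with
concave warping function `h`, the ratio `h r / r` is nonincreasing, and the space of harmonic
functions of growth order `d` has dimension at most that of the harmonic polynomials of degree
at most `⌊(h ρ / ρ) d⌋`, for every `ρ > 0`.
-/

namespace Vale.Agent.Lib.P225

open Set

variable {n : ℕ}

/-- For a `C²` function `h` with `h 0 = 0` and `h'' ≤ 0` on `(0, ∞)`, the ratio `h r / r` is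
nonincreasing on `(0, ∞)`: `h r ≤ (h ρ / ρ) r` for `0 < ρ ≤ r`. -/
theorem warp_cone (h : ℝ → ℝ) (hC : ContDiff ℝ 2 h) (h0 : h 0 = 0)
    (hconc : ∀ r, 0 < r → deriv (deriv h) r ≤ 0) (ρ r : ℝ) (hρ : 0 < ρ) (hr : ρ ≤ r) :
    h r ≤ h ρ / ρ * r := by
  have hdiff : Differentiable ℝ h := hC.differentiable (by norm_num)
  have hC1 : ContDiff ℝ 1 (deriv h) := by
    have : ContDiff ℝ (1 + 1) h := by
      norm_num
      exact hC
    exact (contDiff_succ_iff_deriv.mp this).2.2
  have hdiff' : Differentiable ℝ (deriv h) := hC1.differentiable (by norm_num)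
  have hanti : AntitoneOn (deriv h) (Ici 0) := by
    apply antitoneOn_of_deriv_nonpos (convex_Ici 0)
    · exact hC1.continuous.continuousOn
    · exact hdiff'.differentiableOn
    · intro x hx
      rw [interior_Ici] at hx
      exact hconc x hx
  have hcv : ConcaveOn ℝ (Ici (0 : ℝ)) h := by
    apply AntitoneOn.concaveOn_of_deriv (convex_Ici 0) hdiff.continuous.continuousOn
      hdiff.differentiableOn
    rw [interior_Ici]
    exact hanti.mono Ioi_subset_Ici_self
  have hr0 : 0 < r := hρ.trans_le hr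
  have hb0 : 0 ≤ ρ / r := by positivity
  have hb1 : ρ / r ≤ 1 := by
    rw [div_le_one hr0]
    exact hr
  have key := hcv.2 (mem_Ici.mpr (le_refl (0 : ℝ))) (mem_Ici.mpr hr0.le)
    (sub_nonneg.mpr hb1) hb0 (by ring)
  simp only [smul_eq_mul, mul_zero, zero_add, h0] at key
  have e : ρ / r * r = ρ := by
    field_simp
  rw [e] at key
  have h2 : h r * ρ ≤ h ρ * r := by
    have := mul_le_mul_of_nonneg_right key hr0.le
    have e2 : ρ / r * h r * r = h r * ρ := by
      field_simp
    rw [e2] at this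
    exact this
  rw [div_mul_eq_mul_div, le_div_iff₀ hρ]
  exact h2

/-- Dimension bound with the cone angle `h ρ / ρ`. -/
theorem harm_finrank_angle (hn : 2 ≤ n) (d : ℝ) (hd : 0 ≤ d) (h : ℝ → ℝ) (hC : ContDiff ℝ 2 h)
    (h0 : h 0 = 0) (hd0 : deriv h 0 = 1) (hpos : ∀ r, 0 < r → 0 < h r)
    (hconc : ∀ r, 0 < r → deriv (deriv h) r ≤ 0) (ρ : ℝ) (hρ : 0 < ρ) :
    Module.Finite ℝ (harmSubReal n h d) ∧
      Module.finrank ℝ (harmSubReal n h d) ≤
        (n + ⌊h ρ / ρ * d⌋₊ - 1).choose (n - 1) + (n + ⌊h ρ / ρ * d⌋₊ - 2).choose (n - 1) :=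
  harm_finrank_cone hn d hd h hC h0 hd0 hpos hconc (h ρ / ρ) (div_pos (hpos ρ hρ) hρ) ρ
    (fun r hr => warp_cone h hC h0 hconc ρ r hρ hr)

/-- The two definitions of the space of harmonic functions of integer growth order agree. -/
theorem polyGrowthHarmonicReal_natCast (h : ℝ → ℝ) (k : ℕ) :
    polyGrowthHarmonicReal n h (k : ℝ) = polyGrowthHarmonic n h k := by
  ext u
  simp only [polyGrowthHarmonicReal, polyGrowthHarmonic, mem_ofPred_eq, Real.rpow_natCast]

/-- The Euclidean count is strictly increasing in the degree. -/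
theorem count_strict (hn : 2 ≤ n) (m k : ℕ) (hk : 1 ≤ k) (hm : m ≤ k - 1) :
    (n + m - 1).choose (n - 1) + (n + m - 2).choose (n - 1) <
      (n + k - 1).choose k + (n + k - 2).choose (k - 1) := by
  have c1 : (n + k - 1).choose k = (n + k - 1).choose (n - 1) :=
    Nat.choose_symm_of_eq_add (by omega)
  have c2 : (n + k - 2).choose (k - 1) = (n + k - 2).choose (n - 1) :=
    Nat.choose_symm_of_eq_add (by omega)
  rw [c1, c2]
  have a1 : (n + m - 1).choose (n - 1) ≤ (n + k - 2).choose (n - 1) :=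
    Nat.choose_le_choose _ (by omega)
  have a2 : (n + m - 2).choose (n - 1) ≤ (n + k - 2).choose (n - 1) :=
    Nat.choose_le_choose _ (by omega)
  have a3 : (n + k - 2).choose (n - 1) < (n + k - 1).choose (n - 1) := by
    obtain ⟨j, rfl⟩ : ∃ j, n = j + 2 := ⟨n - 2, by omega⟩
    have e1 : j + 2 + k - 1 = (j + k) + 1 := by omega
    have e2 : j + 2 - 1 = j + 1 := by omega
    have e3 : j + 2 + k - 2 = j + k := by omega
    rw [e1, e2, e3, Nat.choose_succ_succ']
    have : 0 < (j + k).choose j := Nat.choose_pos (by omega)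
    omega
  omega

/-- Rigidity: if `h` is not the Euclidean warping function, the dimension of the space of
harmonic functions of integer growth order `k ≥ 1` is strictly below the Euclidean one. -/
theorem harm_finrank_lt (hn : 2 ≤ n) (k : ℕ) (hk : 1 ≤ k) (h : ℝ → ℝ) (hC : ContDiff ℝ 2 h)
    (h0 : h 0 = 0) (hd0 : deriv h 0 = 1) (hpos : ∀ r, 0 < r → 0 < h r)
    (hconc : ∀ r, 0 < r → deriv (deriv h) r ≤ 0) (hne : ∃ r, 0 < r ∧ h r ≠ r) :
    Module.finrank ℝ (Submodule.span ℝ (polyGrowthHarmonic n h k)) <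
      (n + k - 1).choose k + (n + k - 2).choose (k - 1) := by
  obtain ⟨ρ, hρ, hρne⟩ := hne
  obtain ⟨-, hle⟩ := warp_bounds h hC h0 hd0 hconc
  have hlt : h ρ < ρ := lt_of_le_of_ne (hle ρ hρ) hρne
  have hc1 : h ρ / ρ < 1 := by
    rw [div_lt_one hρ]
    exact hlt
  have hc0 : 0 < h ρ / ρ := div_pos (hpos ρ hρ) hρ
  have hkpos : (0 : ℝ) < k := by exact_mod_cast hk
  have hfl : ⌊h ρ / ρ * (k : ℝ)⌋₊ ≤ k - 1 := by
    have h1 : h ρ / ρ * (k : ℝ) < (k : ℝ) := by nlinarith
    have h2 : ⌊h ρ / ρ * (k : ℝ)⌋₊ < k := by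
      rw [Nat.floor_lt (by positivity)]
      exact h1
    omega
  have h3 := (harm_finrank_angle hn (k : ℝ) hkpos.le h hC h0 hd0 hpos hconc ρ hρ).2
  rw [← span_polyGrowthHarmonicReal, polyGrowthHarmonicReal_natCast] at h3
  exact lt_of_le_of_lt h3 (count_strict hn _ k hk hfl)

end Vale.Agent.Lib.P225
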