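import Vale.Agent.Lib.P225.Complete

/-!
The space of harmonic functions of polynomial growth on a rotationally symmetric manifold is a
linear subspace, and the dimension count.
-/

namespace Vale.Agent.Lib.P225

open Laplacian MeasureTheory Set MvPolynomial

variable {n : ℕ}

theorem fderiv_add_fun (u v : EuclideanSpace ℝ (Fin n) → ℝ) (hu : Differentiable ℝ u)
    (hv : Differentiable ℝ v) : fderiv ℝ (u + v) = fderiv ℝ u + fderiv ℝ v := by
  funext x
  exact fderiv_add (hu x) (hv x)

theorem fderiv_smul_fun (c : ℝ) (u : EuclideanSpace ℝ (Fin n) → ℝ) (hu : Differentiable ℝ u) :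
    fderiv ℝ (c • u) = c • fderiv ℝ u := by
  funext x
  exact fderiv_const_smul (hu x) c

theorem warpedLaplacian_add (h : ℝ → ℝ) (u v : EuclideanSpace ℝ (Fin n) → ℝ)
    (hu : ContDiff ℝ 2 u) (hv : ContDiff ℝ 2 v) (x : EuclideanSpace ℝ (Fin n)) :
    warpedLaplacian h (u + v) x = warpedLaplacian h u x + warpedLaplacian h v x := by
  have hu1 : Differentiable ℝ u := hu.differentiable (by norm_num)
  have hv1 : Differentiable ℝ v := hv.differentiable (by norm_num)
  have hu2 : Differentiable ℝ (fderiv ℝ u) :=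
    (hu.fderiv_right (m := 1) (by norm_num)).differentiable (by norm_num)
  have hv2 : Differentiable ℝ (fderiv ℝ v) :=
    (hv.fderiv_right (m := 1) (by norm_num)).differentiable (by norm_num)
  unfold warpedLaplacian sphereLaplacian radialDeriv2 radialDeriv
  rw [hu.contDiffAt.laplacian_add hv.contDiffAt, fderiv_add_fun u v hu1 hv1,
    fderiv_add (hu2 x) (hv2 x)]
  simp only [Pi.add_apply, add_apply]
  ring

theorem warpedLaplacian_smul (h : ℝ → ℝ) (c : ℝ) (u : EuclideanSpace ℝ (Fin n) → ℝ)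
    (hu : ContDiff ℝ 2 u) (x : EuclideanSpace ℝ (Fin n)) :
    warpedLaplacian h (c • u) x = c * warpedLaplacian h u x := by
  have hu1 : Differentiable ℝ u := hu.differentiable (by norm_num)
  have hu2 : Differentiable ℝ (fderiv ℝ u) :=
    (hu.fderiv_right (m := 1) (by norm_num)).differentiable (by norm_num)
  unfold warpedLaplacian sphereLaplacian radialDeriv2 radialDeriv
  rw [InnerProductSpace.laplacian_smul c hu.contDiffAt, fderiv_smul_fun c u hu1,
    fderiv_const_smul (hu2 x) c]
  simp only [Pi.smul_apply, smul_apply, smul_eq_mul]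
  ring

/-- The harmonic functions of growth order `k` form a linear subspace. -/
def harmSub (n : ℕ) (h : ℝ → ℝ) (k : ℕ) : Submodule ℝ (EuclideanSpace ℝ (Fin n) → ℝ) where
  carrier := polyGrowthHarmonic n h k
  add_mem' := by
    rintro u v ⟨hu, hu', Cu, hCu⟩ ⟨hv, hv', Cv, hCv⟩
    refine ⟨hu.add hv, ?_, Cu + Cv, ?_⟩
    · intro x hx
      rw [warpedLaplacian_add h u v hu hv x, hu' x hx, hv' x hx, add_zero]
    · intro x
      have h1 := hCu x
      have h2 := hCv x
      have h3 := abs_add_le (u x) (v x)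
      rw [add_mul]
      simp only [Pi.add_apply]
      linarith
  zero_mem' := by
    refine ⟨contDiff_const, ?_, 0, ?_⟩
    · intro x hx
      have h1 := warpedLaplacian_smul h 0 (0 : EuclideanSpace ℝ (Fin n) → ℝ) contDiff_const x
      simpa using h1
    · intro x
      simp
  smul_mem' := by
    rintro c u ⟨hu, hu', Cu, hCu⟩
    refine ⟨hu.const_smul c, ?_, |c| * Cu, ?_⟩
    · intro x hx
      rw [warpedLaplacian_smul h c u hu x, hu' x hx, mul_zero]
    · intro x
      simp only [Pi.smul_apply, smul_eq_mul, abs_mul]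
      rw [mul_assoc]
      exact mul_le_mul_of_nonneg_left (hCu x) (abs_nonneg c)

theorem mem_harmSub (h : ℝ → ℝ) (k : ℕ) (u : EuclideanSpace ℝ (Fin n) → ℝ) :
    u ∈ harmSub n h k ↔ u ∈ polyGrowthHarmonic n h k := Iff.rfl

theorem span_polyGrowthHarmonic (h : ℝ → ℝ) (k : ℕ) :
    Submodule.span ℝ (polyGrowthHarmonic n h k) = harmSub n h k :=
  Submodule.span_eq (harmSub n h k)

theorem coeffI_add_left (u v P : EuclideanSpace ℝ (Fin n) → ℝ) (hu : Continuous u)
    (hv : Continuous v) (hP : Continuous P) (r : ℝ) :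
    coeffI (u + v) P r = coeffI u P r + coeffI v P r := by
  unfold coeffI
  have hiu := integrable_nrm_mul (fun y _ => u y) (cont_G0 u hu) (sphW P)
    (sphW_continuous _ hP) (sphW_hasCompactSupport _) r
  have hiv := integrable_nrm_mul (fun y _ => v y) (cont_G0 v hv) (sphW P)
    (sphW_continuous _ hP) (sphW_hasCompactSupport _) r
  rw [← integral_add hiu hiv]
  congr 1
  funext x
  simp only [Pi.add_apply]
  ring

theorem coeffI_smul_left (c : ℝ) (u P : EuclideanSpace ℝ (Fin n) → ℝ) (r : ℝ) :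
    coeffI (c • u) P r = c * coeffI u P r := by
  unfold coeffI
  rw [← integral_const_mul]
  congr 1
  funext x
  simp only [Pi.smul_apply, smul_eq_mul]
  ring

/-- The pairing `(u, q) ↦ ∫ u(x/‖x‖) q(x/‖x‖) χ(x)² dx` as a bilinear map. -/
noncomputable def pairL (n : ℕ) (h : ℝ → ℝ) (k : ℕ)
    (T : Submodule ℝ (MvPolynomial (Fin n) ℝ)) : harmSub n h k →ₗ[ℝ] T →ₗ[ℝ] ℝ :=
  LinearMap.mk₂ ℝ
    (fun u q => coeffI (u : EuclideanSpace ℝ (Fin n) → ℝ) (pfun (q : MvPolynomial (Fin n) ℝ)) 1)
    (fun u v q => by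
      simp only [Submodule.coe_add]
      exact coeffI_add_left _ _ _ u.2.1.continuous v.2.1.continuous
        (pfun_contDiff _ (m := 0)).continuous 1)
    (fun c u q => by
      simp only [Submodule.coe_smul, smul_eq_mul]
      exact coeffI_smul_left c _ _ 1)
    (fun u p q => by
      simp only [Submodule.coe_add]
      exact coeffI_add_right _ u.2.1.continuous _ _ 1)
    (fun c u q => by
      simp only [Submodule.coe_smul, smul_eq_mul]
      exact coeffI_smul_right _ c _ 1)

theorem pairL_apply (h : ℝ → ℝ) (k : ℕ) (T : Submodule ℝ (MvPolynomial (Fin n) ℝ))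
    (u : harmSub n h k) (q : T) :
    pairL n h k T u q =
      coeffI (u : EuclideanSpace ℝ (Fin n) → ℝ) (pfun (q : MvPolynomial (Fin n) ℝ)) 1 := rfl

/-- A harmonic function of growth order `k` whose pairings with all homogeneous polynomials of
degrees `k` and `k - 1` vanish is zero. -/
theorem pair_injective (hn : 2 ≤ n) (k : ℕ) (h : ℝ → ℝ) (hC : ContDiff ℝ 2 h) (h0 : h 0 = 0)
    (hd0 : deriv h 0 = 1) (hpos : ∀ r, 0 < r → 0 < h r)
    (hconc : ∀ r, 0 < r → deriv (deriv h) r ≤ 0)
    (u : EuclideanSpace ℝ (Fin n) → ℝ) (hu : u ∈ polyGrowthHarmonic n h k)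
    (hk : ∀ q : MvPolynomial (Fin n) ℝ, q.IsHomogeneous k → coeffI u (pfun q) 1 = 0)
    (hk1 : ∀ q : MvPolynomial (Fin n) ℝ, q.IsHomogeneous (k - 1) → coeffI u (pfun q) 1 = 0) :
    u = 0 := by
  have hcont : Continuous u := hu.1.continuous
  have key : ∀ (d : ℕ) (p : MvPolynomial (Fin n) ℝ), p.IsHomogeneous d → plap p = 0 →
      ∀ r, 0 < r → coeffI u (pfun p) r = 0 := by
    intro d p hp hlap
    apply coeffI_vanish hn k h hC h0 hd0 hpos hconc u hu p d hp hlap
    by_cases hdk : k < d
    · exact Or.inl hdk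
    · right
      push Not at hdk
      rcases Nat.even_or_odd (k - d) with ⟨m, hm⟩ | ⟨m, hm⟩
      · have h1 : (N2 ^ m * p).IsHomogeneous k := by
          have h2 := (N2_isHomogeneous.pow m).mul hp
          have h3 : 2 * m + d = k := by omega
          rw [h3] at h2
          exact h2
        rw [← coeffI_N2_pow_mul u m p 1]
        exact hk _ h1
      · have h1 : (N2 ^ m * p).IsHomogeneous (k - 1) := by
          have h2 := (N2_isHomogeneous.pow m).mul hp
          have h3 : 2 * m + d = k - 1 := by omega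
          rw [h3] at h2
          exact h2
        rw [← coeffI_N2_pow_mul u m p 1]
        exact hk1 _ h1
  have hsph : ∀ y : EuclideanSpace ℝ (Fin n), y ≠ 0 → u y = 0 := by
    intro y hy
    have hr : 0 < ‖y‖ := norm_pos_iff.mpr hy
    exact eq_zero_on_sphere u hcont ‖y‖ hr
      (coeffI_all_poly (by omega) u hcont ‖y‖ (fun d p hp hlap => key d p hp hlap ‖y‖ hr)) y rfl
  funext y
  by_cases hy : y = 0
  · subst hy
    let e : EuclideanSpace ℝ (Fin n) := EuclideanSpace.single ⟨0, by omega⟩ (1 : ℝ)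
    have he : e ≠ 0 := by
      intro hcon
      have h1 := congrArg (fun v : EuclideanSpace ℝ (Fin n) => v ⟨0, by omega⟩) hcon
      simp [e] at h1
    have hg : Continuous (fun t : ℝ => u (t • e)) :=
      hcont.comp (continuous_id.smul continuous_const)
    have h2 := Continuous.ext_on (dense_compl_singleton (0 : ℝ)) hg
      (continuous_const (y := (0 : ℝ))) (fun t ht => hsph (t • e) (smul_ne_zero ht he))
    have h3 := congrFun h2 0
    simpa using h3
  · exact hsph y hy

theorem finrank_homogeneous (n d : ℕ) :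
    Module.Finite ℝ (homogeneousSubmodule (Fin n) ℝ d) ∧
      Module.finrank ℝ (homogeneousSubmodule (Fin n) ℝ d) = (n + d - 1).choose d := by
  have hs : {f : Fin n →₀ ℕ | f.degree = d} =
      ((Finset.univ.finsuppAntidiag d : Finset (Fin n →₀ ℕ)) : Set (Fin n →₀ ℕ)) := by
    ext f
    simp [Finsupp.degree_eq_sum]
  have heq : homogeneousSubmodule (Fin n) ℝ d = AddMonoidAlgebra.supported _ ℝ
      ((Finset.univ.finsuppAntidiag d : Finset (Fin n →₀ ℕ)) : Set (Fin n →₀ ℕ)) := by
    rw [homogeneousSubmodule_eq_finsupp_supported, hs]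
  let e := (LinearEquiv.ofEq _ _ heq).trans (AddMonoidAlgebra.supportedEquivFinsupp
    (R := ℝ) (S := ℝ)
    ((Finset.univ.finsuppAntidiag d : Finset (Fin n →₀ ℕ)) : Set (Fin n →₀ ℕ)))
  refine ⟨Module.Finite.equiv e.symm, ?_⟩
  rw [LinearEquiv.finrank_eq e, Module.finrank_finsupp_self]
  simp [Finset.card_finsuppAntidiag_nat_eq_choose]

/-- Dimension bound for the space of harmonic functions of growth order `k`. -/
theorem harm_finrank (hn : 2 ≤ n) (k : ℕ) (hk : 1 ≤ k) (h : ℝ → ℝ) (hC : ContDiff ℝ 2 h)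
    (h0 : h 0 = 0) (hd0 : deriv h 0 = 1) (hpos : ∀ r, 0 < r → 0 < h r)
    (hconc : ∀ r, 0 < r → deriv (deriv h) r ≤ 0) :
    Module.Finite ℝ (harmSub n h k) ∧
      Module.finrank ℝ (harmSub n h k) ≤ (n + k - 1).choose k + (n + k - 2).choose (k - 1) := by
  obtain ⟨f1, r1⟩ := finrank_homogeneous n k
  obtain ⟨f2, r2⟩ := finrank_homogeneous n (k - 1)
  let Φ : harmSub n h k →ₗ[ℝ] (homogeneousSubmodule (Fin n) ℝ k →ₗ[ℝ] ℝ) ×
      (homogeneousSubmodule (Fin n) ℝ (k - 1) →ₗ[ℝ] ℝ) :=
    (pairL n h k (homogeneousSubmodule (Fin n) ℝ k)).prod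
      (pairL n h k (homogeneousSubmodule (Fin n) ℝ (k - 1)))
  have hinj : Function.Injective Φ := by
    rw [injective_iff_map_eq_zero]
    intro u hu
    have h1 : pairL n h k (homogeneousSubmodule (Fin n) ℝ k) u = 0 := congrArg Prod.fst hu
    have h2 : pairL n h k (homogeneousSubmodule (Fin n) ℝ (k - 1)) u = 0 :=
      congrArg Prod.snd hu
    have h3 := pair_injective hn k h hC h0 hd0 hpos hconc u.1 u.2
      (fun q hq => by
        have h4 := LinearMap.congr_fun h1 ⟨q, hq⟩
        rw [pairL_apply] at h4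
        exact h4)
      (fun q hq => by
        have h4 := LinearMap.congr_fun h2 ⟨q, hq⟩
        rw [pairL_apply] at h4
        exact h4)
    exact Subtype.ext h3
  have hfin : Module.Finite ℝ (harmSub n h k) := Module.Finite.of_injective Φ hinj
  refine ⟨hfin, ?_⟩
  have h4 := LinearMap.finrank_le_finrank_of_injective hinj
  rw [Module.finrank_prod] at h4
  have d1 : Module.finrank ℝ (homogeneousSubmodule (Fin n) ℝ k →ₗ[ℝ] ℝ) =
      Module.finrank ℝ (homogeneousSubmodule (Fin n) ℝ k) := Subspace.dual_finrank_eq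
  have d2 : Module.finrank ℝ (homogeneousSubmodule (Fin n) ℝ (k - 1) →ₗ[ℝ] ℝ) =
      Module.finrank ℝ (homogeneousSubmodule (Fin n) ℝ (k - 1)) := Subspace.dual_finrank_eq
  have e : n + (k - 1) - 1 = n + k - 2 := by omega
  rw [d1, d2, r1, r2, e] at h4
  exact h4

/-- Constants are harmonic of every growth order. -/
theorem const_mem_polyGrowthHarmonic (h : ℝ → ℝ) (k : ℕ) (c : ℝ) :
    (fun _ : EuclideanSpace ℝ (Fin n) => c) ∈ polyGrowthHarmonic n h k := by
  refine ⟨contDiff_const, ?_, |c|, ?_⟩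
  · intro x _
    have h1 : (fun _ : EuclideanSpace ℝ (Fin n) => c) =
        c • (fun _ : EuclideanSpace ℝ (Fin n) => (1 : ℝ)) := by
      funext y
      simp
    rw [h1, warpedLaplacian_smul h c _ contDiff_const x]
    unfold warpedLaplacian sphereLaplacian radialDeriv2 radialDeriv
    simp
  · intro x
    have h1 : (1 : ℝ) ≤ (1 + ‖x‖) ^ k := one_le_pow₀ (by linarith [norm_nonneg x])
    nlinarith [abs_nonneg c]

end Vale.Agent.Lib.P225
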