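import Vale.Agent.Lib.P225.DimReal
import Vale.Agent.Lib.P225.CoeffCone

/-!
The dimension count for harmonic functions with a real growth exponent, under a cone bound on the
warping function.
-/

namespace Vale.Agent.Lib.P225

open Laplacian MeasureTheory Set MvPolynomial

variable {n : ℕ}

/-- Under the cone bound `h r ≤ c r` for `r ≥ ρ`: a harmonic function of real growth order `d`,
with `c d < k + 1`, whose pairings with all homogeneous polynomials of degrees `k` and `k - 1`
vanish is zero. -/
theorem pair_injective_cone (hn : 2 ≤ n) (d : ℝ) (hd_nonneg : 0 ≤ d) (k : ℕ)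
    (c : ℝ) (hcpos : 0 < c) (ρ : ℝ)
    (hdk : c * d < (k : ℝ) + 1) (h : ℝ → ℝ) (hC : ContDiff ℝ 2 h) (h0 : h 0 = 0)
    (hd0 : deriv h 0 = 1) (hpos : ∀ r, 0 < r → 0 < h r)
    (hconc : ∀ r, 0 < r → deriv (deriv h) r ≤ 0) (hcone : ∀ r, ρ ≤ r → h r ≤ c * r)
    (u : EuclideanSpace ℝ (Fin n) → ℝ) (hu : u ∈ polyGrowthHarmonicReal n h d)
    (hk : ∀ q : MvPolynomial (Fin n) ℝ, q.IsHomogeneous k → coeffI u (pfun q) 1 = 0)
    (hk1 : ∀ q : MvPolynomial (Fin n) ℝ, q.IsHomogeneous (k - 1) → coeffI u (pfun q) 1 = 0) :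
    u = 0 := by
  have hcont : Continuous u := hu.1.continuous
  have key : ∀ (m : ℕ) (p : MvPolynomial (Fin n) ℝ), p.IsHomogeneous m → plap p = 0 →
      ∀ r, 0 < r → coeffI u (pfun p) r = 0 := by
    intro m p hp hlap
    apply coeffI_vanish_cone hn d hd_nonneg h hC h0 hd0 hpos hconc c hcpos ρ hcone u hu p m hp hlap
    by_cases hdm : c * d < (m : ℝ)
    · exact Or.inl hdm
    · right
      push Not at hdm
      have hmk : m ≤ k := by
        have h1 : (m : ℝ) < (k : ℝ) + 1 := lt_of_le_of_lt hdm hdk
        have h2 : m < k + 1 := by exact_mod_cast h1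
        omega
      rcases Nat.even_or_odd (k - m) with ⟨t, ht⟩ | ⟨t, ht⟩
      · have h1 : (N2 ^ t * p).IsHomogeneous k := by
          have h2 := (N2_isHomogeneous.pow t).mul hp
          have h3 : 2 * t + m = k := by omega
          rw [h3] at h2
          exact h2
        rw [← coeffI_N2_pow_mul u t p 1]
        exact hk _ h1
      · have h1 : (N2 ^ t * p).IsHomogeneous (k - 1) := by
          have h2 := (N2_isHomogeneous.pow t).mul hp
          have h3 : 2 * t + m = k - 1 := by omega
          rw [h3] at h2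
          exact h2
        rw [← coeffI_N2_pow_mul u t p 1]
        exact hk1 _ h1
  have hsph : ∀ y : EuclideanSpace ℝ (Fin n), y ≠ 0 → u y = 0 := by
    intro y hy
    have hr : 0 < ‖y‖ := norm_pos_iff.mpr hy
    exact eq_zero_on_sphere u hcont ‖y‖ hr
      (coeffI_all_poly (by omega) u hcont ‖y‖ (fun m p hp hlap => key m p hp hlap ‖y‖ hr)) y rfl
  funext y
  by_cases hy : y = 0
  · subst hy
    let e : EuclideanSpace ℝ (Fin n) := EuclideanSpace.single ⟨0, by omega⟩ (1 : ℝ)
    have he : e ≠ 0 := by
      intro hcon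
      have h1 := congrArg (fun v : EuclideanSpace ℝ (Fin n) => v ⟨0, by omega⟩) hcon
      simp [e] at h1
    have hg : Continuous (fun t : ℝ => u (t • e)) :=
      hcont.comp (continuous_id.smul continuous_const)
    have h2 := Continuous.ext_on (dense_compl_singleton (0 : ℝ)) hg
      (continuous_const (y := (0 : ℝ))) (fun t ht => hsph (t • e) (smul_ne_zero ht he))
    have h3 := congrFun h2 0
    simpa using h3
  · exact hsph y hy

/-- Dimension bound for the space of harmonic functions of real growth order `d ≥ 0` under the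
cone bound `h r ≤ c r` for `r ≥ ρ`, with `k = ⌊c d⌋`. -/
theorem harm_finrank_cone (hn : 2 ≤ n) (d : ℝ) (hd : 0 ≤ d) (h : ℝ → ℝ) (hC : ContDiff ℝ 2 h)
    (h0 : h 0 = 0) (hd0 : deriv h 0 = 1) (hpos : ∀ r, 0 < r → 0 < h r)
    (hconc : ∀ r, 0 < r → deriv (deriv h) r ≤ 0)
    (c : ℝ) (hcpos : 0 < c) (ρ : ℝ) (hcone : ∀ r, ρ ≤ r → h r ≤ c * r) :
    Module.Finite ℝ (harmSubReal n h d) ∧
      Module.finrank ℝ (harmSubReal n h d) ≤
        (n + ⌊c * d⌋₊ - 1).choose (n - 1) + (n + ⌊c * d⌋₊ - 2).choose (n - 1) := by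
  set k : ℕ := ⌊c * d⌋₊ with hkdef
  have hdk : c * d < (k : ℝ) + 1 := Nat.lt_floor_add_one (c * d)
  obtain ⟨f1, r1⟩ := finrank_homogeneous n k
  obtain ⟨f2, r2⟩ := finrank_homogeneous n (k - 1)
  have d1 : Module.finrank ℝ (homogeneousSubmodule (Fin n) ℝ k →ₗ[ℝ] ℝ) =
      Module.finrank ℝ (homogeneousSubmodule (Fin n) ℝ k) := Subspace.dual_finrank_eq
  have d2 : Module.finrank ℝ (homogeneousSubmodule (Fin n) ℝ (k - 1) →ₗ[ℝ] ℝ) =
      Module.finrank ℝ (homogeneousSubmodule (Fin n) ℝ (k - 1)) := Subspace.dual_finrank_eq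
  have c1 : (n + k - 1).choose k = (n + k - 1).choose (n - 1) :=
    Nat.choose_symm_of_eq_add (by omega)
  rcases Nat.eq_zero_or_pos k with hk0 | hkpos
  · -- growth order below one: pair with constants only
    let Φ : harmSubReal n h d →ₗ[ℝ] (homogeneousSubmodule (Fin n) ℝ k →ₗ[ℝ] ℝ) :=
      pairLReal n h d (homogeneousSubmodule (Fin n) ℝ k)
    have hinj : Function.Injective Φ := by
      rw [injective_iff_map_eq_zero]
      intro u hu
      have h3 := pair_injective_cone hn d hd k c hcpos ρ hdk h hC h0 hd0 hpos hconc hcone u.1 u.2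
        (fun q hq => by
          have h4 := LinearMap.congr_fun hu ⟨q, hq⟩
          rw [pairLReal_apply] at h4
          exact h4)
        (fun q hq => by
          have hq' : q.IsHomogeneous k := by
            have h5 : k - 1 = k := by omega
            rw [h5] at hq
            exact hq
          have h4 := LinearMap.congr_fun hu ⟨q, hq'⟩
          rw [pairLReal_apply] at h4
          exact h4)
      exact Subtype.ext h3
    have hfin : Module.Finite ℝ (harmSubReal n h d) := Module.Finite.of_injective Φ hinj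
    refine ⟨hfin, ?_⟩
    have h4 := LinearMap.finrank_le_finrank_of_injective hinj
    rw [d1, r1, c1] at h4
    exact h4.trans (Nat.le_add_right _ _)
  · let Φ : harmSubReal n h d →ₗ[ℝ] (homogeneousSubmodule (Fin n) ℝ k →ₗ[ℝ] ℝ) ×
        (homogeneousSubmodule (Fin n) ℝ (k - 1) →ₗ[ℝ] ℝ) :=
      (pairLReal n h d (homogeneousSubmodule (Fin n) ℝ k)).prod
        (pairLReal n h d (homogeneousSubmodule (Fin n) ℝ (k - 1)))
    have hinj : Function.Injective Φ := by
      rw [injective_iff_map_eq_zero]
      intro u hu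
      have h1 : pairLReal n h d (homogeneousSubmodule (Fin n) ℝ k) u = 0 :=
        congrArg Prod.fst hu
      have h2 : pairLReal n h d (homogeneousSubmodule (Fin n) ℝ (k - 1)) u = 0 :=
        congrArg Prod.snd hu
      have h3 := pair_injective_cone hn d hd k c hcpos ρ hdk h hC h0 hd0 hpos hconc hcone u.1 u.2
        (fun q hq => by
          have h4 := LinearMap.congr_fun h1 ⟨q, hq⟩
          rw [pairLReal_apply] at h4
          exact h4)
        (fun q hq => by
          have h4 := LinearMap.congr_fun h2 ⟨q, hq⟩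
          rw [pairLReal_apply] at h4
          exact h4)
      exact Subtype.ext h3
    have hfin : Module.Finite ℝ (harmSubReal n h d) := Module.Finite.of_injective Φ hinj
    refine ⟨hfin, ?_⟩
    have h4 := LinearMap.finrank_le_finrank_of_injective hinj
    rw [Module.finrank_prod, d1, d2, r1, r2, c1] at h4
    have e : n + (k - 1) - 1 = n + k - 2 := by omega
    have c2 : (n + k - 2).choose (k - 1) = (n + k - 2).choose (n - 1) :=
      Nat.choose_symm_of_eq_add (by omega)
    rw [e, c2] at h4
    exact h4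

end Vale.Agent.Lib.P225
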