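import Vale.Agent.Lib.P225.Dim
import Vale.Agent.Lib.P225.CoeffReal

/-!
The dimension count for harmonic functions with a real growth exponent.
-/

namespace Vale.Agent.Lib.P225

open Laplacian MeasureTheory Set MvPolynomial

variable {n : ℕ}

/-- The harmonic functions of real growth order `d` form a linear subspace. -/
def harmSubReal (n : ℕ) (h : ℝ → ℝ) (d : ℝ) : Submodule ℝ (EuclideanSpace ℝ (Fin n) → ℝ) where
  carrier := polyGrowthHarmonicReal n h d
  add_mem' := by
    rintro u v ⟨hu, hu', Cu, hCu⟩ ⟨hv, hv', Cv, hCv⟩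
    refine ⟨hu.add hv, ?_, Cu + Cv, ?_⟩
    · intro x hx
      rw [warpedLaplacian_add h u v hu hv x, hu' x hx, hv' x hx, add_zero]
    · intro x
      have h1 := hCu x
      have h2 := hCv x
      have h3 := abs_add_le (u x) (v x)
      rw [add_mul]
      simp only [Pi.add_apply]
      linarith
  zero_mem' := by
    refine ⟨contDiff_const, ?_, 0, ?_⟩
    · intro x hx
      have h1 := warpedLaplacian_smul h 0 (0 : EuclideanSpace ℝ (Fin n) → ℝ) contDiff_const x
      simpa using h1
    · intro x
      simp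
  smul_mem' := by
    rintro c u ⟨hu, hu', Cu, hCu⟩
    refine ⟨hu.const_smul c, ?_, |c| * Cu, ?_⟩
    · intro x hx
      rw [warpedLaplacian_smul h c u hu x, hu' x hx, mul_zero]
    · intro x
      simp only [Pi.smul_apply, smul_eq_mul, abs_mul]
      rw [mul_assoc]
      exact mul_le_mul_of_nonneg_left (hCu x) (abs_nonneg c)

theorem span_polyGrowthHarmonicReal (h : ℝ → ℝ) (d : ℝ) :
    Submodule.span ℝ (polyGrowthHarmonicReal n h d) = harmSubReal n h d :=
  Submodule.span_eq (harmSubReal n h d)

/-- The pairing `(u, q) ↦ ∫ u(x/‖x‖) q(x/‖x‖) χ(x)² dx` as a bilinear map. -/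
noncomputable def pairLReal (n : ℕ) (h : ℝ → ℝ) (d : ℝ)
    (T : Submodule ℝ (MvPolynomial (Fin n) ℝ)) : harmSubReal n h d →ₗ[ℝ] T →ₗ[ℝ] ℝ :=
  LinearMap.mk₂ ℝ
    (fun u q => coeffI (u : EuclideanSpace ℝ (Fin n) → ℝ) (pfun (q : MvPolynomial (Fin n) ℝ)) 1)
    (fun u v q => by
      simp only [Submodule.coe_add]
      exact coeffI_add_left _ _ _ u.2.1.continuous v.2.1.continuous
        (pfun_contDiff _ (m := 0)).continuous 1)
    (fun c u q => by
      simp only [Submodule.coe_smul, smul_eq_mul]
      exact coeffI_smul_left c _ _ 1)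
    (fun u p q => by
      simp only [Submodule.coe_add]
      exact coeffI_add_right _ u.2.1.continuous _ _ 1)
    (fun c u q => by
      simp only [Submodule.coe_smul, smul_eq_mul]
      exact coeffI_smul_right _ c _ 1)

theorem pairLReal_apply (h : ℝ → ℝ) (d : ℝ) (T : Submodule ℝ (MvPolynomial (Fin n) ℝ))
    (u : harmSubReal n h d) (q : T) :
    pairLReal n h d T u q =
      coeffI (u : EuclideanSpace ℝ (Fin n) → ℝ) (pfun (q : MvPolynomial (Fin n) ℝ)) 1 := rfl

/-- A harmonic function of real growth order `d`, with `k ≤ d < k + 1`, whose pairings with all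
homogeneous polynomials of degrees `k` and `k - 1` vanish is zero. -/
theorem pair_injective_real (hn : 2 ≤ n) (d : ℝ) (k : ℕ) (hkd : (k : ℝ) ≤ d)
    (hdk : d < (k : ℝ) + 1) (h : ℝ → ℝ) (hC : ContDiff ℝ 2 h) (h0 : h 0 = 0)
    (hd0 : deriv h 0 = 1) (hpos : ∀ r, 0 < r → 0 < h r)
    (hconc : ∀ r, 0 < r → deriv (deriv h) r ≤ 0)
    (u : EuclideanSpace ℝ (Fin n) → ℝ) (hu : u ∈ polyGrowthHarmonicReal n h d)
    (hk : ∀ q : MvPolynomial (Fin n) ℝ, q.IsHomogeneous k → coeffI u (pfun q) 1 = 0)
    (hk1 : ∀ q : MvPolynomial (Fin n) ℝ, q.IsHomogeneous (k - 1) → coeffI u (pfun q) 1 = 0) :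
    u = 0 := by
  have hcont : Continuous u := hu.1.continuous
  have hd_nonneg : 0 ≤ d := (Nat.cast_nonneg k).trans hkd
  have key : ∀ (m : ℕ) (p : MvPolynomial (Fin n) ℝ), p.IsHomogeneous m → plap p = 0 →
      ∀ r, 0 < r → coeffI u (pfun p) r = 0 := by
    intro m p hp hlap
    apply coeffI_vanish_real hn d hd_nonneg h hC h0 hd0 hpos hconc u hu p m hp hlap
    by_cases hdm : d < (m : ℝ)
    · exact Or.inl hdm
    · right
      push Not at hdm
      have hmk : m ≤ k := by
        have h1 : (m : ℝ) < (k : ℝ) + 1 := lt_of_le_of_lt hdm hdk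
        have h2 : m < k + 1 := by exact_mod_cast h1
        omega
      rcases Nat.even_or_odd (k - m) with ⟨t, ht⟩ | ⟨t, ht⟩
      · have h1 : (N2 ^ t * p).IsHomogeneous k := by
          have h2 := (N2_isHomogeneous.pow t).mul hp
          have h3 : 2 * t + m = k := by omega
          rw [h3] at h2
          exact h2
        rw [← coeffI_N2_pow_mul u t p 1]
        exact hk _ h1
      · have h1 : (N2 ^ t * p).IsHomogeneous (k - 1) := by
          have h2 := (N2_isHomogeneous.pow t).mul hp
          have h3 : 2 * t + m = k - 1 := by omega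
          rw [h3] at h2
          exact h2
        rw [← coeffI_N2_pow_mul u t p 1]
        exact hk1 _ h1
  have hsph : ∀ y : EuclideanSpace ℝ (Fin n), y ≠ 0 → u y = 0 := by
    intro y hy
    have hr : 0 < ‖y‖ := norm_pos_iff.mpr hy
    exact eq_zero_on_sphere u hcont ‖y‖ hr
      (coeffI_all_poly (by omega) u hcont ‖y‖ (fun m p hp hlap => key m p hp hlap ‖y‖ hr)) y rfl
  funext y
  by_cases hy : y = 0
  · subst hy
    let e : EuclideanSpace ℝ (Fin n) := EuclideanSpace.single ⟨0, by omega⟩ (1 : ℝ)
    have he : e ≠ 0 := by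
      intro hcon
      have h1 := congrArg (fun v : EuclideanSpace ℝ (Fin n) => v ⟨0, by omega⟩) hcon
      simp [e] at h1
    have hg : Continuous (fun t : ℝ => u (t • e)) :=
      hcont.comp (continuous_id.smul continuous_const)
    have h2 := Continuous.ext_on (dense_compl_singleton (0 : ℝ)) hg
      (continuous_const (y := (0 : ℝ))) (fun t ht => hsph (t • e) (smul_ne_zero ht he))
    have h3 := congrFun h2 0
    simpa using h3
  · exact hsph y hy

/-- Dimension bound for the space of harmonic functions of real growth order `d ≥ 0`, with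
`k = ⌊d⌋`. -/
theorem harm_finrank_real (hn : 2 ≤ n) (d : ℝ) (hd : 0 ≤ d) (h : ℝ → ℝ) (hC : ContDiff ℝ 2 h)
    (h0 : h 0 = 0) (hd0 : deriv h 0 = 1) (hpos : ∀ r, 0 < r → 0 < h r)
    (hconc : ∀ r, 0 < r → deriv (deriv h) r ≤ 0) :
    Module.Finite ℝ (harmSubReal n h d) ∧
      Module.finrank ℝ (harmSubReal n h d) ≤
        (n + ⌊d⌋₊ - 1).choose (n - 1) + (n + ⌊d⌋₊ - 2).choose (n - 1) := by
  set k : ℕ := ⌊d⌋₊ with hkdef
  have hkd : (k : ℝ) ≤ d := Nat.floor_le hd
  have hdk : d < (k : ℝ) + 1 := Nat.lt_floor_add_one d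
  obtain ⟨f1, r1⟩ := finrank_homogeneous n k
  obtain ⟨f2, r2⟩ := finrank_homogeneous n (k - 1)
  have d1 : Module.finrank ℝ (homogeneousSubmodule (Fin n) ℝ k →ₗ[ℝ] ℝ) =
      Module.finrank ℝ (homogeneousSubmodule (Fin n) ℝ k) := Subspace.dual_finrank_eq
  have d2 : Module.finrank ℝ (homogeneousSubmodule (Fin n) ℝ (k - 1) →ₗ[ℝ] ℝ) =
      Module.finrank ℝ (homogeneousSubmodule (Fin n) ℝ (k - 1)) := Subspace.dual_finrank_eq
  have c1 : (n + k - 1).choose k = (n + k - 1).choose (n - 1) :=
    Nat.choose_symm_of_eq_add (by omega)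
  rcases Nat.eq_zero_or_pos k with hk0 | hkpos
  · -- growth order below one: pair with constants only
    let Φ : harmSubReal n h d →ₗ[ℝ] (homogeneousSubmodule (Fin n) ℝ k →ₗ[ℝ] ℝ) :=
      pairLReal n h d (homogeneousSubmodule (Fin n) ℝ k)
    have hinj : Function.Injective Φ := by
      rw [injective_iff_map_eq_zero]
      intro u hu
      have h3 := pair_injective_real hn d k hkd hdk h hC h0 hd0 hpos hconc u.1 u.2
        (fun q hq => by
          have h4 := LinearMap.congr_fun hu ⟨q, hq⟩
          rw [pairLReal_apply] at h4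
          exact h4)
        (fun q hq => by
          have hq' : q.IsHomogeneous k := by
            have h5 : k - 1 = k := by omega
            rw [h5] at hq
            exact hq
          have h4 := LinearMap.congr_fun hu ⟨q, hq'⟩
          rw [pairLReal_apply] at h4
          exact h4)
      exact Subtype.ext h3
    have hfin : Module.Finite ℝ (harmSubReal n h d) := Module.Finite.of_injective Φ hinj
    refine ⟨hfin, ?_⟩
    have h4 := LinearMap.finrank_le_finrank_of_injective hinj
    rw [d1, r1, c1] at h4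
    exact h4.trans (Nat.le_add_right _ _)
  · let Φ : harmSubReal n h d →ₗ[ℝ] (homogeneousSubmodule (Fin n) ℝ k →ₗ[ℝ] ℝ) ×
        (homogeneousSubmodule (Fin n) ℝ (k - 1) →ₗ[ℝ] ℝ) :=
      (pairLReal n h d (homogeneousSubmodule (Fin n) ℝ k)).prod
        (pairLReal n h d (homogeneousSubmodule (Fin n) ℝ (k - 1)))
    have hinj : Function.Injective Φ := by
      rw [injective_iff_map_eq_zero]
      intro u hu
      have h1 : pairLReal n h d (homogeneousSubmodule (Fin n) ℝ k) u = 0 :=
        congrArg Prod.fst hu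
      have h2 : pairLReal n h d (homogeneousSubmodule (Fin n) ℝ (k - 1)) u = 0 :=
        congrArg Prod.snd hu
      have h3 := pair_injective_real hn d k hkd hdk h hC h0 hd0 hpos hconc u.1 u.2
        (fun q hq => by
          have h4 := LinearMap.congr_fun h1 ⟨q, hq⟩
          rw [pairLReal_apply] at h4
          exact h4)
        (fun q hq => by
          have h4 := LinearMap.congr_fun h2 ⟨q, hq⟩
          rw [pairLReal_apply] at h4
          exact h4)
      exact Subtype.ext h3
    have hfin : Module.Finite ℝ (harmSubReal n h d) := Module.Finite.of_injective Φ hinj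
    refine ⟨hfin, ?_⟩
    have h4 := LinearMap.finrank_le_finrank_of_injective hinj
    rw [Module.finrank_prod, d1, d2, r1, r2, c1] at h4
    have e : n + (k - 1) - 1 = n + k - 2 := by omega
    have c2 : (n + k - 2).choose (k - 1) = (n + k - 2).choose (n - 1) :=
      Nat.choose_symm_of_eq_add (by omega)
    rw [e, c2] at h4
    exact h4

end Vale.Agent.Lib.P225
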