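import Vale.Agent.Lib.P225.ConeAngle

/-!
The Euclidean case `h r = r`: the space of harmonic functions of growth order `d` contains the
functions of all harmonic polynomials of degree at most `⌊d⌋`, so that the dimension bound is an
equality.
-/

namespace Vale.Agent.Lib.P225

open Laplacian MvPolynomial Set

variable {n : ℕ}

/-- For the Euclidean warping function the warped operator is the Euclidean Laplacian. -/
theorem warpedLaplacian_id (u : EuclideanSpace ℝ (Fin n) → ℝ) (x : EuclideanSpace ℝ (Fin n))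
    (hx : x ≠ 0) : warpedLaplacian (fun r : ℝ => r) u x = Laplacian.laplacian u x := by
  have hr : ‖x‖ ≠ 0 := norm_ne_zero_iff.mpr hx
  have hd : deriv (fun r : ℝ => r) ‖x‖ = 1 := by
    simp
  unfold warpedLaplacian sphereLaplacian
  rw [hd]
  field_simp
  ring

/-- The warped operator only depends on the warping function on `(0, ∞)`. -/
theorem warpedLaplacian_congr (h₁ h₂ : ℝ → ℝ) (heq : ∀ r, 0 < r → h₁ r = h₂ r)
    (u : EuclideanSpace ℝ (Fin n) → ℝ) (x : EuclideanSpace ℝ (Fin n)) (hx : x ≠ 0) :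
    warpedLaplacian h₁ u x = warpedLaplacian h₂ u x := by
  have hr : 0 < ‖x‖ := norm_pos_iff.mpr hx
  have hev : h₁ =ᶠ[nhds ‖x‖] h₂ := by
    filter_upwards [Ioi_mem_nhds hr] with r hr'
    exact heq r hr'
  unfold warpedLaplacian
  rw [hev.deriv_eq, heq ‖x‖ hr]

theorem polyGrowthHarmonic_congr (h₁ h₂ : ℝ → ℝ) (heq : ∀ r, 0 < r → h₁ r = h₂ r) (k : ℕ) :
    polyGrowthHarmonic n h₁ k = polyGrowthHarmonic n h₂ k := by
  ext u
  simp only [polyGrowthHarmonic, mem_ofPred_eq]
  constructor
  · rintro ⟨h1, h2, h3⟩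
    exact ⟨h1, fun x hx => by rw [← warpedLaplacian_congr h₁ h₂ heq u x hx]; exact h2 x hx, h3⟩
  · rintro ⟨h1, h2, h3⟩
    exact ⟨h1, fun x hx => by rw [warpedLaplacian_congr h₁ h₂ heq u x hx]; exact h2 x hx, h3⟩

/-- Growth of the function of a homogeneous polynomial. -/
theorem pfun_growth (p : MvPolynomial (Fin n) ℝ) (j : ℕ) (hp : p.IsHomogeneous j) :
    ∃ C : ℝ, 0 ≤ C ∧ ∀ x : EuclideanSpace ℝ (Fin n), |pfun p x| ≤ C * ‖x‖ ^ j := by
  refine ⟨∑ s ∈ p.support, |coeff s p|, Finset.sum_nonneg (fun _ _ => abs_nonneg _), ?_⟩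
  intro x
  unfold pfun
  rw [MvPolynomial.eval_eq', Finset.sum_mul]
  refine (Finset.abs_sum_le_sum_abs _ _).trans ?_
  apply Finset.sum_le_sum
  intro s hs
  rw [abs_mul]
  apply mul_le_mul_of_nonneg_left _ (abs_nonneg _)
  have hdeg : ∑ i, s i = j := by
    have h1 := hp (mem_support_iff.mp hs)
    rw [← h1, Finsupp.weight_apply, Finsupp.sum_fintype]
    · simp
    · intro i
      simp
  rw [Finset.abs_prod, ← hdeg, ← Finset.prod_pow_eq_pow_sum]
  apply Finset.prod_le_prod
  · intro i _
    exact abs_nonneg _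
  · intro i _
    rw [abs_pow]
    apply pow_le_pow_left₀ (abs_nonneg _)
    have := PiLp.norm_apply_le x i
    rwa [Real.norm_eq_abs] at this

/-- The function of a harmonic homogeneous polynomial of degree `j ≤ d` is a harmonic function of
growth order `d` for the Euclidean warping function. -/
theorem pfun_mem_euclid (p : MvPolynomial (Fin n) ℝ) (j : ℕ) (hp : p.IsHomogeneous j)
    (hlap : plap p = 0) (d : ℝ) (hjd : (j : ℝ) ≤ d) :
    pfun p ∈ polyGrowthHarmonicReal n (fun r : ℝ => r) d := by
  obtain ⟨C, hC0, hC⟩ := pfun_growth p j hp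
  refine ⟨pfun_contDiff p, ?_, C, ?_⟩
  · intro x hx
    rw [warpedLaplacian_id _ x hx, laplacian_pfun, hlap, pfun_zero]
  · intro x
    refine (hC x).trans ?_
    apply mul_le_mul_of_nonneg_left _ hC0
    have h1 : ‖x‖ ^ j ≤ (1 + ‖x‖) ^ j :=
      pow_le_pow_left₀ (norm_nonneg x) (by linarith) j
    have h2 : (1 + ‖x‖) ^ j = (1 + ‖x‖) ^ (j : ℝ) := (Real.rpow_natCast _ _).symm
    have h3 : (1 + ‖x‖) ^ (j : ℝ) ≤ (1 + ‖x‖) ^ d :=
      Real.rpow_le_rpow_of_exponent_le (by linarith [norm_nonneg x]) hjd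
    linarith

/-- The algebraic Laplacian as a linear map. -/
noncomputable def plapL (n : ℕ) : MvPolynomial (Fin n) ℝ →ₗ[ℝ] MvPolynomial (Fin n) ℝ where
  toFun := plap
  map_add' := plap_add
  map_smul' := by
    intro c p
    simp [plap_smul]

/-- The polynomial function as a linear map. -/
noncomputable def pfunL (n : ℕ) :
    MvPolynomial (Fin n) ℝ →ₗ[ℝ] (EuclideanSpace ℝ (Fin n) → ℝ) where
  toFun := pfun
  map_add' := by
    intro p q
    funext x
    simp [pfun_add]
  map_smul' := by
    intro c p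
    funext x
    simp [pfun_smul]

theorem pfunL_injective : Function.Injective (pfunL n) := by
  rw [injective_iff_map_eq_zero]
  intro q hq
  apply MvPolynomial.funext
  intro x
  have h1 := congrFun hq (WithLp.toLp 2 x)
  simpa [pfunL, pfun] using h1

instance homogeneous_finite (j : ℕ) : Module.Finite ℝ (homogeneousSubmodule (Fin n) ℝ j) :=
  (finrank_homogeneous n j).1

/-- The harmonic homogeneous polynomials of degree `j`, as a subspace of the homogeneous
polynomials of degree `j`. -/
noncomputable def harmHom (n j : ℕ) : Submodule ℝ (homogeneousSubmodule (Fin n) ℝ j) :=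
  LinearMap.ker ((plapL n).domRestrict (homogeneousSubmodule (Fin n) ℝ j))

theorem mem_harmHom (j : ℕ) (q : homogeneousSubmodule (Fin n) ℝ j) :
    q ∈ harmHom n j ↔ plap (q : MvPolynomial (Fin n) ℝ) = 0 := by
  simp [harmHom, plapL, LinearMap.mem_ker]

/-- Rank-nullity lower bound for the dimension of the harmonic homogeneous polynomials. -/
theorem harmHom_finrank_low (j : ℕ) :
    (n + j - 1).choose j ≤ Module.finrank ℝ (harmHom n j)
      + (if j < 2 then 0 else (n + (j - 2) - 1).choose (j - 2)) := by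
  have hrn := LinearMap.finrank_range_add_finrank_ker
    ((plapL n).domRestrict (homogeneousSubmodule (Fin n) ℝ j))
  rw [(finrank_homogeneous n j).2] at hrn
  have hker : Module.finrank ℝ
      (LinearMap.ker ((plapL n).domRestrict (homogeneousSubmodule (Fin n) ℝ j)))
      = Module.finrank ℝ (harmHom n j) := rfl
  rw [hker] at hrn
  by_cases hj : j < 2
  · rw [if_pos hj]
    have hb : LinearMap.range ((plapL n).domRestrict (homogeneousSubmodule (Fin n) ℝ j)) = ⊥ := by
      rw [LinearMap.range_eq_bot]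
      refine LinearMap.ext (fun q => ?_)
      have hq : (q : MvPolynomial (Fin n) ℝ).IsHomogeneous j := q.2
      exact plap_eq_zero_of_isHomogeneous_le_one _ j (by omega) hq
    rw [hb, finrank_bot, zero_add] at hrn
    omega
  · rw [if_neg hj]
    have hle : LinearMap.range ((plapL n).domRestrict (homogeneousSubmodule (Fin n) ℝ j))
        ≤ homogeneousSubmodule (Fin n) ℝ (j - 2) := by
      rintro _ ⟨q, rfl⟩
      have hq : (q : MvPolynomial (Fin n) ℝ).IsHomogeneous j := q.2
      have h1 := plap_isHomogeneous _ j hq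
      have e : j - 1 - 1 = j - 2 := by omega
      rw [e] at h1
      exact h1
    have h2 := Submodule.finrank_mono hle
    rw [(finrank_homogeneous n (j - 2)).2] at h2
    omega

/-- The harmonic homogeneous polynomials of degree `j`, as a subspace of all polynomials. -/
noncomputable def harmPoly (n j : ℕ) : Submodule ℝ (MvPolynomial (Fin n) ℝ) :=
  homogeneousSubmodule (Fin n) ℝ j ⊓ LinearMap.ker (plapL n)

theorem mem_harmPoly (j : ℕ) (q : MvPolynomial (Fin n) ℝ) :
    q ∈ harmPoly n j ↔ q.IsHomogeneous j ∧ plap q = 0 := by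
  simp [harmPoly, plapL, LinearMap.mem_ker]

instance harmPoly_finite (j : ℕ) : Module.Finite ℝ (harmPoly n j) :=
  Submodule.finiteDimensional_of_le (inf_le_left : harmPoly n j ≤ homogeneousSubmodule (Fin n) ℝ j)

theorem harmPoly_finrank_low (j : ℕ) :
    (n + j - 1).choose j ≤ Module.finrank ℝ (harmPoly n j)
      + (if j < 2 then 0 else (n + (j - 2) - 1).choose (j - 2)) := by
  have h1 := harmHom_finrank_low (n := n) j
  let ι : harmHom n j →ₗ[ℝ] harmPoly n j :=
    LinearMap.codRestrict (harmPoly n j)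
      ((homogeneousSubmodule (Fin n) ℝ j).subtype ∘ₗ (harmHom n j).subtype)
      (fun q => (mem_harmPoly j _).mpr ⟨q.1.2, (mem_harmHom j q.1).mp q.2⟩)
  have hinj : Function.Injective ι := by
    intro q q' hqq
    have h2 : ((ι q : harmPoly n j) : MvPolynomial (Fin n) ℝ)
        = ((ι q' : harmPoly n j) : MvPolynomial (Fin n) ℝ) := by
      rw [hqq]
    exact Subtype.ext (Subtype.ext h2)
  have h3 := LinearMap.finrank_le_finrank_of_injective hinj
  omega

/-- A telescoping inequality. -/
theorem tele_sum (a b : ℕ → ℕ) (h2 : ∀ j, b j ≤ a j + (if j < 2 then 0 else b (j - 2))) :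
    ∀ k, b k + (if k = 0 then 0 else b (k - 1)) ≤ ∑ j ∈ Finset.range (k + 1), a j := by
  intro k
  induction k using Nat.strong_induction_on with
  | _ k ih =>
    rcases k with _ | _ | k
    · have := h2 0
      simpa using this
    · have h0 := h2 0
      have h1 := h2 1
      simp at h0 h1
      rw [Finset.sum_range_succ, Finset.sum_range_one]
      simp
      omega
    · have h3 := h2 (k + 1 + 1)
      have h4 := ih (k + 1) (by omega)
      rw [if_neg (by omega)] at h3
      rw [if_neg (by omega)] at h4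
      have e1 : k + 1 + 1 - 2 = k := by omega
      have e2 : k + 1 - 1 = k := by omega
      have e3 : k + 1 + 1 - 1 = k + 1 := by omega
      rw [e1] at h3
      rw [e2] at h4
      rw [Finset.sum_range_succ, if_neg (by omega), e3]
      have e4 : k + 1 + 1 = k + 2 := rfl
      simp only [e4] at h3 h4 ⊢
      omega

theorem euclid_hyp :
    ContDiff ℝ 2 (fun r : ℝ => r) ∧ (fun r : ℝ => r) 0 = 0 ∧ deriv (fun r : ℝ => r) 0 = 1 ∧
      (∀ r : ℝ, 0 < r → 0 < (fun r : ℝ => r) r) ∧
      (∀ r : ℝ, 0 < r → deriv (deriv (fun r : ℝ => r)) r ≤ 0) := by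
  refine ⟨contDiff_id, rfl, by simp, fun r hr => hr, ?_⟩
  intro r _
  have h1 : deriv (fun r : ℝ => r) = fun _ => (1 : ℝ) := by
    funext x
    simp
  rw [h1]
  simp

/-- Lower bound for the dimension in the Euclidean case. -/
theorem euclid_finrank_low (hn : 2 ≤ n) (d : ℝ) (hd : 0 ≤ d) :
    (n + ⌊d⌋₊ - 1).choose (n - 1) + (n + ⌊d⌋₊ - 2).choose (n - 1) ≤
      Module.finrank ℝ (harmSubReal n (fun r : ℝ => r) d) := by
  obtain ⟨e1, e2, e3, e4, e5⟩ := euclid_hyp
  have hfin : Module.Finite ℝ (harmSubReal n (fun r : ℝ => r) d) :=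
    (harm_finrank_real hn d hd _ e1 e2 e3 e4 e5).1
  set k : ℕ := ⌊d⌋₊ with hkdef
  have hkd : (k : ℝ) ≤ d := Nat.floor_le hd
  let sumL : (∀ j : Fin (k + 1), harmPoly n j) →ₗ[ℝ] MvPolynomial (Fin n) ℝ :=
    ∑ j : Fin (k + 1), ((harmPoly n j).subtype ∘ₗ LinearMap.proj j)
  have hsum : ∀ p : (∀ j : Fin (k + 1), harmPoly n j),
      sumL p = ∑ j : Fin (k + 1), ((p j : harmPoly n j) : MvPolynomial (Fin n) ℝ) := by
    intro p
    simp [sumL]
  let F : (∀ j : Fin (k + 1), harmPoly n j) →ₗ[ℝ] (EuclideanSpace ℝ (Fin n) → ℝ) :=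
    (pfunL n) ∘ₗ sumL
  have hmem : ∀ p, F p ∈ harmSubReal n (fun r : ℝ => r) d := by
    intro p
    have h1 : F p = ∑ j : Fin (k + 1), pfunL n ((p j : harmPoly n j) :
        MvPolynomial (Fin n) ℝ) := by
      simp only [F, LinearMap.comp_apply, hsum, map_sum]
    rw [h1]
    apply Submodule.sum_mem
    intro j _
    obtain ⟨hq, hl⟩ := (mem_harmPoly (j : ℕ) _).mp (p j).2
    have hjk : ((j : ℕ) : ℝ) ≤ d := by
      have : (j : ℕ) ≤ k := Nat.lt_succ_iff.mp j.2
      have h2 : ((j : ℕ) : ℝ) ≤ (k : ℝ) := by exact_mod_cast this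
      linarith
    exact pfun_mem_euclid _ j hq hl d hjk
  let Ψ : (∀ j : Fin (k + 1), harmPoly n j) →ₗ[ℝ] harmSubReal n (fun r : ℝ => r) d :=
    F.codRestrict (harmSubReal n (fun r : ℝ => r) d) hmem
  have hF : ∀ p, F p = 0 → p = 0 := by
    intro p hp
    have h1 : sumL p = 0 := by
      apply pfunL_injective
      rw [map_zero]
      exact hp
    rw [hsum] at h1
    funext i
    have h2 := congrArg (homogeneousComponent (i : ℕ)) h1
    rw [map_sum, map_zero] at h2
    have h3 : ∀ j : Fin (k + 1), homogeneousComponent (i : ℕ)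
        ((p j : harmPoly n j) : MvPolynomial (Fin n) ℝ)
        = if j = i then ((p j : harmPoly n j) : MvPolynomial (Fin n) ℝ)
          else 0 := by
      intro j
      have hpj : ((p j : harmPoly n j) : MvPolynomial (Fin n) ℝ) ∈
          homogeneousSubmodule (Fin n) ℝ j := ((mem_harmPoly (j : ℕ) _).mp (p j).2).1
      rw [homogeneousComponent_of_mem hpj]
      by_cases hji : j = i
      · subst hji
        simp
      · rw [if_neg hji, if_neg]
        intro hcon
        exact hji (Fin.ext hcon.symm)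
    rw [Finset.sum_congr rfl (fun j _ => h3 j), Finset.sum_ite_eq' Finset.univ i] at h2
    simp only [Finset.mem_univ, if_true] at h2
    apply Subtype.ext
    simpa using h2
  have hinj : Function.Injective Ψ := by
    apply (injective_iff_map_eq_zero Ψ).mpr
    intro p hp
    apply hF
    exact congrArg Subtype.val hp
  have h4 := LinearMap.finrank_le_finrank_of_injective hinj
  rw [Module.finrank_pi_fintype] at h4
  have h5 := Fin.sum_univ_eq_sum_range (fun j => Module.finrank ℝ (harmPoly n j)) (k + 1)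
  rw [h5] at h4
  have h6 := tele_sum (fun j => Module.finrank ℝ (harmPoly n j)) (fun j => (n + j - 1).choose j)
    (fun j => harmPoly_finrank_low j) k
  have c1 : (n + k - 1).choose k = (n + k - 1).choose (n - 1) :=
    Nat.choose_symm_of_eq_add (by omega)
  have h7 : (n + k - 1).choose (n - 1) + (n + k - 2).choose (n - 1)
      = (n + k - 1).choose k + (if k = 0 then 0 else (n + (k - 1) - 1).choose (k - 1)) := by
    rw [c1]
    congr 1
    by_cases hk0 : k = 0
    · rw [if_pos hk0, hk0]
      exact Nat.choose_eq_zero_of_lt (by omega)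
    · rw [if_neg hk0]
      have e : n + (k - 1) - 1 = n + k - 2 := by omega
      rw [e]
      exact (Nat.choose_symm_of_eq_add (by omega)).symm
  rw [h7]
  exact h6.trans h4

/-- The Euclidean case: the dimension bound is an equality. -/
theorem euclid_finrank (hn : 2 ≤ n) (d : ℝ) (hd : 0 ≤ d) :
    Module.finrank ℝ (harmSubReal n (fun r : ℝ => r) d) =
      (n + ⌊d⌋₊ - 1).choose (n - 1) + (n + ⌊d⌋₊ - 2).choose (n - 1) := by
  obtain ⟨e1, e2, e3, e4, e5⟩ := euclid_hyp
  exact le_antisymm (harm_finrank_real hn d hd _ e1 e2 e3 e4 e5).2 (euclid_finrank_low hn d hd)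

/-- The Euclidean case for integer growth orders, in the form of the problem statement. -/
theorem euclid_finrank_nat (hn : 2 ≤ n) (k : ℕ) (hk : 1 ≤ k) :
    Module.finrank ℝ (Submodule.span ℝ (polyGrowthHarmonic n (fun r : ℝ => r) k)) =
      (n + k - 1).choose k + (n + k - 2).choose (k - 1) := by
  have h1 := euclid_finrank hn (k : ℝ) (Nat.cast_nonneg k)
  rw [← span_polyGrowthHarmonicReal, polyGrowthHarmonicReal_natCast, Nat.floor_natCast] at h1
  rw [h1]
  have c1 : (n + k - 1).choose k = (n + k - 1).choose (n - 1) :=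
    Nat.choose_symm_of_eq_add (by omega)
  have c2 : (n + k - 2).choose (k - 1) = (n + k - 2).choose (n - 1) :=
    Nat.choose_symm_of_eq_add (by omega)
  rw [c1, c2]

/-- Rigidity: for integer `k ≥ 1` the dimension equals the Euclidean one exactly when the warping
function is the Euclidean one. -/
theorem harm_finrank_eq_iff (hn : 2 ≤ n) (k : ℕ) (hk : 1 ≤ k) (h : ℝ → ℝ) (hC : ContDiff ℝ 2 h)
    (h0 : h 0 = 0) (hd0 : deriv h 0 = 1) (hpos : ∀ r, 0 < r → 0 < h r)
    (hconc : ∀ r, 0 < r → deriv (deriv h) r ≤ 0) :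
    Module.finrank ℝ (Submodule.span ℝ (polyGrowthHarmonic n h k)) =
        (n + k - 1).choose k + (n + k - 2).choose (k - 1) ↔ ∀ r, 0 < r → h r = r := by
  constructor
  · intro heq r hr
    by_contra hne
    have := harm_finrank_lt hn k hk h hC h0 hd0 hpos hconc ⟨r, hr, hne⟩
    omega
  · intro heq
    rw [polyGrowthHarmonic_congr h (fun r : ℝ => r) heq k]
    exact euclid_finrank_nat hn k hk

end Vale.Agent.Lib.P225
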