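import Vale.Agent.Lib.P225.WarpedLaplacian

/-!
The angular operator `S W = ‖x‖² ΔW - D²W(x,x) - (n-1) DW(x)` and rotation generators.
-/

namespace Vale.Agent.Lib.P225

open Laplacian

variable {n : ℕ}

/-- The angular operator `S W = ‖x‖² ΔW - D²W(x,x) - (n-1) DW(x)`. -/
noncomputable def angS (W : EuclideanSpace ℝ (Fin n) → ℝ)
    (x : EuclideanSpace ℝ (Fin n)) : ℝ :=
  ‖x‖ ^ 2 * Δ W x - fderiv ℝ (fderiv ℝ W) x x x - ((n : ℝ) - 1) * fderiv ℝ W x x

theorem sphereLaplacian_eq_angS (u : EuclideanSpace ℝ (Fin n) → ℝ)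
    (x : EuclideanSpace ℝ (Fin n)) (hx : x ≠ 0) : sphereLaplacian u x = angS u x := by
  have hx' : ‖x‖ ≠ 0 := norm_ne_zero_iff.mpr hx
  unfold sphereLaplacian angS radialDeriv2 radialDeriv radialUnit
  simp only [map_smul, smul_eq_mul, smul_apply]
  field_simp

theorem norm_sq_eq_sum (x : EuclideanSpace ℝ (Fin n)) : ‖x‖ ^ 2 = ∑ i, (x i) ^ 2 := by
  rw [EuclideanSpace.norm_sq_eq]
  simp

theorem eq_sum_single (x : EuclideanSpace ℝ (Fin n)) :
    x = ∑ i, x i • EuclideanSpace.single i (1 : ℝ) := by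
  have := (EuclideanSpace.basisFun (Fin n) ℝ).sum_repr x
  simpa using this.symm

theorem clm_apply_eq_sum (L : EuclideanSpace ℝ (Fin n) →L[ℝ] ℝ)
    (x : EuclideanSpace ℝ (Fin n)) :
    L x = ∑ i, x i * L (EuclideanSpace.single i (1 : ℝ)) := by
  conv_lhs => rw [eq_sum_single x]
  simp [map_sum, map_smul]

theorem laplacian_eq_sum (u : EuclideanSpace ℝ (Fin n) → ℝ) (x : EuclideanSpace ℝ (Fin n)) :
    Δ u x = ∑ i, fderiv ℝ (fderiv ℝ u) x (EuclideanSpace.single i 1)
      (EuclideanSpace.single i 1) := by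
  rw [InnerProductSpace.laplacian_eq_iteratedFDeriv_orthonormalBasis u
    (EuclideanSpace.basisFun (Fin n) ℝ)]
  simp [iteratedFDeriv_two_apply]

/-- The derivative of `W` along the generator of rotations in the `(i, j)` coordinate plane. -/
noncomputable def rotDeriv (i j : Fin n) (W : EuclideanSpace ℝ (Fin n) → ℝ)
    (x : EuclideanSpace ℝ (Fin n)) : ℝ :=
  x i * fderiv ℝ W x (EuclideanSpace.single j 1) - x j * fderiv ℝ W x (EuclideanSpace.single i 1)

/-- The generator of rotations in the `(i, j)` coordinate plane, applied to `x`. -/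
noncomputable def rotVec (i j : Fin n) (x : EuclideanSpace ℝ (Fin n)) :
    EuclideanSpace ℝ (Fin n) :=
  x i • EuclideanSpace.single j (1 : ℝ) - x j • EuclideanSpace.single i (1 : ℝ)

theorem rotDeriv_eq (i j : Fin n) (W : EuclideanSpace ℝ (Fin n) → ℝ)
    (x : EuclideanSpace ℝ (Fin n)) : rotDeriv i j W x = fderiv ℝ W x (rotVec i j x) := by
  unfold rotDeriv rotVec
  simp [map_sub, map_smul]

theorem rotVec_smul (i j : Fin n) (c : ℝ) (x : EuclideanSpace ℝ (Fin n)) :
    rotVec i j (c • x) = c • rotVec i j x := by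
  unfold rotVec
  simp only [PiLp.smul_apply, smul_eq_mul, smul_sub, smul_smul]

theorem inner_rotVec (i j : Fin n) (x : EuclideanSpace ℝ (Fin n)) :
    inner ℝ x (rotVec i j x) = 0 := by
  unfold rotVec
  rw [inner_sub_right, inner_smul_right, inner_smul_right]
  simp [EuclideanSpace.inner_single_right]
  ring

theorem fderiv_rotDeriv (i j : Fin n) (W : EuclideanSpace ℝ (Fin n) → ℝ)
    (x v : EuclideanSpace ℝ (Fin n)) (hW : DifferentiableAt ℝ (fderiv ℝ W) x) :
    fderiv ℝ (rotDeriv i j W) x v =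
      v i * fderiv ℝ W x (EuclideanSpace.single j 1)
        + x i * fderiv ℝ (fderiv ℝ W) x v (EuclideanSpace.single j 1)
        - (v j * fderiv ℝ W x (EuclideanSpace.single i 1)
        + x j * fderiv ℝ (fderiv ℝ W) x v (EuclideanSpace.single i 1)) := by
  have hD : HasFDerivAt (fderiv ℝ W) (fderiv ℝ (fderiv ℝ W) x) x := hW.hasFDerivAt
  have hc : ∀ l : Fin n, HasFDerivAt (fun y : EuclideanSpace ℝ (Fin n) => y l)
      (EuclideanSpace.proj l : EuclideanSpace ℝ (Fin n) →L[ℝ] ℝ) x := by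
    intro l
    exact (EuclideanSpace.proj l : EuclideanSpace ℝ (Fin n) →L[ℝ] ℝ).hasFDerivAt
  have hd : ∀ l : Fin n, HasFDerivAt
      (fun y : EuclideanSpace ℝ (Fin n) => fderiv ℝ W y (EuclideanSpace.single l 1))
      ((fderiv ℝ (fderiv ℝ W) x).flip (EuclideanSpace.single l 1)) x := by
    intro l
    have := hD.clm_apply (hasFDerivAt_const (EuclideanSpace.single l (1 : ℝ)) x)
    simpa using this
  have h1 := ((hc i).mul (hd j)).sub ((hc j).mul (hd i))
  have h3 : HasFDerivAt (rotDeriv i j W) _ x := h1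
  rw [h3.fderiv]
  simp
  ring

end Vale.Agent.Lib.P225
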