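import Vale.Agent.Lib.P225.Angular

/-!
Integration by parts for rotation generators and symmetry of the angular operator with respect
to Lebesgue measure.
-/

namespace Vale.Agent.Lib.P225

open Laplacian MeasureTheory

variable {n : ℕ}

theorem coord_contDiff (i : Fin n) {m : WithTop ℕ∞} :
    ContDiff ℝ m (fun y : EuclideanSpace ℝ (Fin n) => y i) :=
  (EuclideanSpace.proj i : EuclideanSpace ℝ (Fin n) →L[ℝ] ℝ).contDiff

theorem fderiv_apply_contDiff (W : EuclideanSpace ℝ (Fin n) → ℝ) (hW : ContDiff ℝ 2 W)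
    (v : EuclideanSpace ℝ (Fin n)) :
    ContDiff ℝ 1 (fun y : EuclideanSpace ℝ (Fin n) => fderiv ℝ W y v) :=
  (hW.fderiv_right (m := 1) (by norm_num)).clm_apply contDiff_const

theorem fderiv_apply_continuous (W : EuclideanSpace ℝ (Fin n) → ℝ) (hW : ContDiff ℝ 1 W)
    (v : EuclideanSpace ℝ (Fin n)) :
    Continuous (fun y : EuclideanSpace ℝ (Fin n) => fderiv ℝ W y v) :=
  (hW.continuous_fderiv (by norm_num)).clm_apply continuous_const

theorem rotDeriv_contDiff (i j : Fin n) (W : EuclideanSpace ℝ (Fin n) → ℝ)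
    (hW : ContDiff ℝ 2 W) : ContDiff ℝ 1 (rotDeriv i j W) :=
  ((coord_contDiff i).mul (fderiv_apply_contDiff W hW _)).sub
    ((coord_contDiff j).mul (fderiv_apply_contDiff W hW _))

theorem rotDeriv_continuous (i j : Fin n) (W : EuclideanSpace ℝ (Fin n) → ℝ)
    (hW : ContDiff ℝ 1 W) : Continuous (rotDeriv i j W) :=
  ((coord_contDiff i (m := 0)).continuous.mul (fderiv_apply_continuous W hW _)).sub
    ((coord_contDiff j (m := 0)).continuous.mul (fderiv_apply_continuous W hW _))

theorem rotDeriv_hasCompactSupport (i j : Fin n) (W : EuclideanSpace ℝ (Fin n) → ℝ)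
    (hW : HasCompactSupport W) : HasCompactSupport (rotDeriv i j W) :=
  ((hW.fderiv_apply ℝ _).mul_left).sub ((hW.fderiv_apply ℝ _).mul_left)

theorem ibp_coord (f g : EuclideanSpace ℝ (Fin n) → ℝ) (v : EuclideanSpace ℝ (Fin n))
    (hf : ContDiff ℝ 1 f) (hg : ContDiff ℝ 1 g) (hc : HasCompactSupport g) :
    ∫ x, f x * fderiv ℝ g x v = - ∫ x, fderiv ℝ f x v * g x := by
  apply integral_mul_fderiv_eq_neg_fderiv_mul_of_integrable
  · exact ((fderiv_apply_continuous f hf v).mul hg.continuous).integrable_of_hasCompactSupport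
      hc.mul_left
  · exact (hf.continuous.mul (fderiv_apply_continuous g hg v)).integrable_of_hasCompactSupport
      (hc.fderiv_apply ℝ v).mul_left
  · exact (hf.continuous.mul hg.continuous).integrable_of_hasCompactSupport hc.mul_left
  · intro x _
    exact hf.differentiable (by norm_num) x
  · intro x _
    exact hg.differentiable (by norm_num) x

theorem fderiv_coord_mul (i j : Fin n) (hij : i ≠ j) (Ψ : EuclideanSpace ℝ (Fin n) → ℝ)
    (hΨ : ContDiff ℝ 1 Ψ) (x : EuclideanSpace ℝ (Fin n)) :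
    fderiv ℝ (fun y : EuclideanSpace ℝ (Fin n) => y i * Ψ y) x (EuclideanSpace.single j 1)
      = x i * fderiv ℝ Ψ x (EuclideanSpace.single j 1) := by
  have h1 : HasFDerivAt (fun y : EuclideanSpace ℝ (Fin n) => y i)
      (EuclideanSpace.proj i : EuclideanSpace ℝ (Fin n) →L[ℝ] ℝ) x :=
    (EuclideanSpace.proj i : EuclideanSpace ℝ (Fin n) →L[ℝ] ℝ).hasFDerivAt
  have h2 : HasFDerivAt Ψ (fderiv ℝ Ψ x) x := (hΨ.differentiable (by norm_num) x).hasFDerivAt
  have h3 : HasFDerivAt (fun y : EuclideanSpace ℝ (Fin n) => y i * Ψ y) _ x := h1.mul h2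
  rw [h3.fderiv]
  simp [hij]

theorem integral_rotDeriv_mul (i j : Fin n) (Φ Ψ : EuclideanSpace ℝ (Fin n) → ℝ)
    (hΦ : ContDiff ℝ 1 Φ) (hΨ : ContDiff ℝ 1 Ψ) (hc : HasCompactSupport Ψ) :
    ∫ x, rotDeriv i j Φ x * Ψ x = - ∫ x, Φ x * rotDeriv i j Ψ x := by
  by_cases hij : i = j
  · subst hij
    simp [rotDeriv]
  · have hji : j ≠ i := fun h => hij h.symm
    have hci : ContDiff ℝ 1 (fun y : EuclideanSpace ℝ (Fin n) => y i * Ψ y) :=
      (coord_contDiff i).mul hΨ
    have hcj : ContDiff ℝ 1 (fun y : EuclideanSpace ℝ (Fin n) => y j * Ψ y) :=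
      (coord_contDiff j).mul hΨ
    have hsi : HasCompactSupport (fun y : EuclideanSpace ℝ (Fin n) => y i * Ψ y) := hc.mul_left
    have hsj : HasCompactSupport (fun y : EuclideanSpace ℝ (Fin n) => y j * Ψ y) := hc.mul_left
    have A := ibp_coord Φ _ (EuclideanSpace.single j 1) hΦ hci hsi
    have B := ibp_coord Φ _ (EuclideanSpace.single i 1) hΦ hcj hsj
    simp only [fderiv_coord_mul i j hij Ψ hΨ] at A
    simp only [fderiv_coord_mul j i hji Ψ hΨ] at B
    have iA : Integrable (fun x : EuclideanSpace ℝ (Fin n) =>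
        fderiv ℝ Φ x (EuclideanSpace.single j 1) * (x i * Ψ x)) :=
      ((fderiv_apply_continuous Φ hΦ _).mul hci.continuous).integrable_of_hasCompactSupport
        hsi.mul_left
    have iB : Integrable (fun x : EuclideanSpace ℝ (Fin n) =>
        fderiv ℝ Φ x (EuclideanSpace.single i 1) * (x j * Ψ x)) :=
      ((fderiv_apply_continuous Φ hΦ _).mul hcj.continuous).integrable_of_hasCompactSupport
        hsj.mul_left
    have iA' : Integrable (fun x : EuclideanSpace ℝ (Fin n) =>
        Φ x * (x i * fderiv ℝ Ψ x (EuclideanSpace.single j 1))) :=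
      (hΦ.continuous.mul ((coord_contDiff i (m := 0)).continuous.mul
        (fderiv_apply_continuous Ψ hΨ _))).integrable_of_hasCompactSupport
        ((hc.fderiv_apply ℝ _).mul_left).mul_left
    have iB' : Integrable (fun x : EuclideanSpace ℝ (Fin n) =>
        Φ x * (x j * fderiv ℝ Ψ x (EuclideanSpace.single i 1))) :=
      (hΦ.continuous.mul ((coord_contDiff j (m := 0)).continuous.mul
        (fderiv_apply_continuous Ψ hΨ _))).integrable_of_hasCompactSupport
        ((hc.fderiv_apply ℝ _).mul_left).mul_left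
    have e1 : (fun x : EuclideanSpace ℝ (Fin n) => rotDeriv i j Φ x * Ψ x) =
        fun x => fderiv ℝ Φ x (EuclideanSpace.single j 1) * (x i * Ψ x)
          - fderiv ℝ Φ x (EuclideanSpace.single i 1) * (x j * Ψ x) := by
      funext x
      unfold rotDeriv
      ring
    have e2 : (fun x : EuclideanSpace ℝ (Fin n) => Φ x * rotDeriv i j Ψ x) =
        fun x => Φ x * (x i * fderiv ℝ Ψ x (EuclideanSpace.single j 1))
          - Φ x * (x j * fderiv ℝ Ψ x (EuclideanSpace.single i 1)) := by
      funext x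
      unfold rotDeriv
      ring
    rw [e1, e2, integral_sub iA iB, integral_sub iA' iB', A, B]
    ring

theorem integral_rotDeriv_rotDeriv_mul (i j : Fin n) (U V : EuclideanSpace ℝ (Fin n) → ℝ)
    (hU : ContDiff ℝ 2 U) (hV : ContDiff ℝ 2 V) (hc : HasCompactSupport V) :
    ∫ x, rotDeriv i j (rotDeriv i j U) x * V x = ∫ x, U x * rotDeriv i j (rotDeriv i j V) x := by
  have h1 : ContDiff ℝ 1 U := hU.of_le (by norm_num)
  have h2 : ContDiff ℝ 1 V := hV.of_le (by norm_num)
  rw [integral_rotDeriv_mul i j (rotDeriv i j U) V (rotDeriv_contDiff i j U hU) h2 hc]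
  have h3 := integral_rotDeriv_mul i j U (rotDeriv i j V) h1 (rotDeriv_contDiff i j V hV)
    (rotDeriv_hasCompactSupport i j V hc)
  rw [h3, neg_neg]

/-- The angular operator is symmetric with respect to Lebesgue measure. -/
theorem integral_angS_mul (U V : EuclideanSpace ℝ (Fin n) → ℝ)
    (hU : ContDiff ℝ 2 U) (hV : ContDiff ℝ 2 V) (hc : HasCompactSupport V) :
    ∫ x, angS U x * V x = ∫ x, U x * angS V x := by
  have h1 : ContDiff ℝ 1 U := hU.of_le (by norm_num)
  have h2 : ContDiff ℝ 1 V := hV.of_le (by norm_num)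
  have eU : (fun x : EuclideanSpace ℝ (Fin n) => 2 * (angS U x * V x)) =
      fun x => ∑ i, ∑ j, rotDeriv i j (rotDeriv i j U) x * V x := by
    funext x
    rw [← mul_assoc, ← casimir U hU x, Finset.sum_mul]
    apply Finset.sum_congr rfl
    intro i _
    rw [Finset.sum_mul]
  have eV : (fun x : EuclideanSpace ℝ (Fin n) => 2 * (U x * angS V x)) =
      fun x => ∑ i, ∑ j, U x * rotDeriv i j (rotDeriv i j V) x := by
    funext x
    rw [mul_left_comm, ← casimir V hV x, Finset.mul_sum]
    apply Finset.sum_congr rfl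
    intro i _
    rw [Finset.mul_sum]
  have iU : ∀ i j : Fin n, Integrable
      (fun x : EuclideanSpace ℝ (Fin n) => rotDeriv i j (rotDeriv i j U) x * V x) := by
    intro i j
    exact ((rotDeriv_continuous i j _ (rotDeriv_contDiff i j U hU)).mul
      hV.continuous).integrable_of_hasCompactSupport hc.mul_left
  have iV : ∀ i j : Fin n, Integrable
      (fun x : EuclideanSpace ℝ (Fin n) => U x * rotDeriv i j (rotDeriv i j V) x) := by
    intro i j
    exact (hU.continuous.mul (rotDeriv_continuous i j _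
      (rotDeriv_contDiff i j V hV))).integrable_of_hasCompactSupport
      (rotDeriv_hasCompactSupport i j _ (rotDeriv_hasCompactSupport i j V hc)).mul_left
  have key : ∫ x, 2 * (angS U x * V x) = ∫ x, 2 * (U x * angS V x) := by
    rw [eU, eV]
    rw [integral_finsetSum _ (fun i _ => integrable_finsetSum _ (fun j _ => iU i j)),
      integral_finsetSum _ (fun i _ => integrable_finsetSum _ (fun j _ => iV i j))]
    apply Finset.sum_congr rfl
    intro i _
    rw [integral_finsetSum _ (fun j _ => iU i j), integral_finsetSum _ (fun j _ => iV i j)]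
    apply Finset.sum_congr rfl
    intro j _
    exact integral_rotDeriv_rotDeriv_mul i j U V hU hV hc
  rw [integral_const_mul, integral_const_mul] at key
  linarith

/-- The angular operator commutes with `cutK r`. -/
theorem angS_cutK (r : ℝ) (W : EuclideanSpace ℝ (Fin n) → ℝ) (hW : ContDiff ℝ 2 W)
    (x : EuclideanSpace ℝ (Fin n)) : angS (cutK r W) x = cutK r (angS W) x := by
  have hd : Differentiable ℝ W := hW.differentiable (by norm_num)
  have h1 : ∀ i j : Fin n, rotDeriv i j (cutK r W) = cutK r (rotDeriv i j W) := by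
    intro i j
    funext y
    exact rotDeriv_cutK i j r W hd y
  have h2 : ∀ i j : Fin n, rotDeriv i j (rotDeriv i j (cutK r W)) x =
      rotDeriv i j (rotDeriv i j W) (nrm r x) * chi x := by
    intro i j
    rw [h1 i j, rotDeriv_cutK i j r _ ((rotDeriv_contDiff i j W hW).differentiable (by norm_num)) x]
    rfl
  have h3 := casimir (cutK r W) (cutK_contDiff r W hW) x
  have h4 := casimir W hW (nrm r x)
  simp_rw [h2] at h3
  simp_rw [← Finset.sum_mul] at h3
  rw [h4] at h3
  unfold cutK at h3 ⊢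
  linarith

theorem integral_angS_cutK (r : ℝ) (u P : EuclideanSpace ℝ (Fin n) → ℝ)
    (hu : ContDiff ℝ 2 u) (hP : ContDiff ℝ 2 P) :
    ∫ x, cutK r (angS u) x * cutK 1 P x = ∫ x, cutK r u x * cutK 1 (angS P) x := by
  have h1 := integral_angS_mul (cutK r u) (cutK 1 P) (cutK_contDiff r u hu)
    (cutK_contDiff 1 P hP) (cutK_hasCompactSupport 1 P)
  simp_rw [angS_cutK r u hu, angS_cutK 1 P hP] at h1
  exact h1

end Vale.Agent.Lib.P225
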