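import Mathlib

/-!
Algebra of real polynomials in `n` variables: the algebraic Laplacian, the polynomial `|x|²`
and the Fischer decomposition of homogeneous polynomials into harmonic pieces.
-/

namespace Vale.Agent.Lib.P225

open MvPolynomial

variable {n : ℕ}

/-- The algebraic Laplacian of a polynomial. -/
noncomputable def plap (p : MvPolynomial (Fin n) ℝ) : MvPolynomial (Fin n) ℝ :=
  ∑ i, pderiv i (pderiv i p)

/-- The polynomial `x₁² + ... + xₙ²`. -/
noncomputable def N2 : MvPolynomial (Fin n) ℝ := ∑ i, X i ^ 2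

theorem plap_add (p q : MvPolynomial (Fin n) ℝ) : plap (p + q) = plap p + plap q := by
  simp [plap, Finset.sum_add_distrib]

theorem plap_sub (p q : MvPolynomial (Fin n) ℝ) : plap (p - q) = plap p - plap q := by
  simp [plap, Finset.sum_sub_distrib]

theorem plap_smul (c : ℝ) (p : MvPolynomial (Fin n) ℝ) : plap (c • p) = c • plap p := by
  simp [plap, Finset.smul_sum]

theorem plap_zero : plap (0 : MvPolynomial (Fin n) ℝ) = 0 := by
  simp [plap]

theorem N2_isHomogeneous : (N2 : MvPolynomial (Fin n) ℝ).IsHomogeneous 2 := by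
  unfold N2
  apply IsHomogeneous.sum
  intro i _
  exact isHomogeneous_X_pow i 2

theorem pderiv_N2 (i : Fin n) : pderiv i (N2 : MvPolynomial (Fin n) ℝ) = 2 * X i := by
  unfold N2
  rw [map_sum]
  have : ∀ j ∈ (Finset.univ : Finset (Fin n)),
      pderiv i ((X j : MvPolynomial (Fin n) ℝ) ^ 2) = if j = i then 2 * X i else 0 := by
    intro j _
    rw [Derivation.leibniz_pow]
    by_cases hji : j = i
    · subst hji
      rw [pderiv_X_self]
      simp
    · rw [pderiv_X_of_ne hji]
      simp [hji]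
  rw [Finset.sum_congr rfl this]
  simp

theorem pderiv_two_mul_X (i : Fin n) :
    pderiv i (2 * X i : MvPolynomial (Fin n) ℝ) = 2 := by
  rw [two_mul, map_add, pderiv_X_self, one_add_one_eq_two]

theorem plap_N2_mul (p : MvPolynomial (Fin n) ℝ) :
    plap (N2 * p) = N2 * plap p + 4 * ∑ i, X i * pderiv i p + (2 * (n : ℝ)) • p := by
  unfold plap
  have h1 : ∀ i : Fin n, pderiv i (pderiv i (N2 * p)) =
      N2 * pderiv i (pderiv i p) + 4 * (X i * pderiv i p) + 2 * p := by
    intro i
    have e1 : pderiv i (N2 * p) = (2 * X i) * p + N2 * pderiv i p := by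
      rw [Derivation.leibniz, pderiv_N2]
      simp only [smul_eq_mul]
      ring
    have e2 : pderiv i ((2 * X i) * p) = (2 * X i) * pderiv i p + p * 2 := by
      rw [Derivation.leibniz, pderiv_two_mul_X]
      simp only [smul_eq_mul]
    have e3 : pderiv i (N2 * pderiv i p) =
        N2 * pderiv i (pderiv i p) + pderiv i p * (2 * X i) := by
      rw [Derivation.leibniz, pderiv_N2]
      simp only [smul_eq_mul]
    rw [e1, map_add, e2, e3]
    ring
  rw [Finset.sum_congr rfl (fun i _ => h1 i)]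
  rw [Finset.sum_add_distrib, Finset.sum_add_distrib, ← Finset.mul_sum, ← Finset.mul_sum]
  congr 1
  simp only [Finset.sum_const, Finset.card_univ, Fintype.card_fin]
  rw [nsmul_eq_mul, smul_eq_C_mul]
  simp only [map_mul, map_ofNat, map_natCast]
  ring

theorem plap_N2_mul_of_isHomogeneous (p : MvPolynomial (Fin n) ℝ) (d : ℕ)
    (hp : p.IsHomogeneous d) :
    plap (N2 * p) = N2 * plap p + (4 * (d : ℝ) + 2 * (n : ℝ)) • p := by
  rw [plap_N2_mul, hp.sum_X_mul_pderiv, add_assoc]
  congr 1
  rw [add_smul, nsmul_eq_mul, smul_eq_C_mul, smul_eq_C_mul]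
  simp only [map_mul, map_ofNat, map_natCast]
  ring

theorem plap_isHomogeneous (p : MvPolynomial (Fin n) ℝ) (d : ℕ) (hp : p.IsHomogeneous d) :
    (plap p).IsHomogeneous (d - 1 - 1) := by
  unfold plap
  apply IsHomogeneous.sum
  intro i _
  exact hp.pderiv.pderiv

theorem pderiv_eq_zero_of_isHomogeneous_zero (p : MvPolynomial (Fin n) ℝ)
    (hp : p.IsHomogeneous 0) (i : Fin n) : pderiv i p = 0 := by
  have h0 : p.totalDegree = 0 := Nat.le_zero.mp hp.totalDegree_le
  rw [totalDegree_eq_zero_iff_eq_C] at h0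
  rw [h0, pderiv_C]

theorem plap_eq_zero_of_isHomogeneous_le_one (p : MvPolynomial (Fin n) ℝ) (d : ℕ) (hd : d ≤ 1)
    (hp : p.IsHomogeneous d) : plap p = 0 := by
  unfold plap
  apply Finset.sum_eq_zero
  intro i _
  have h1 : (pderiv i p).IsHomogeneous (d - 1) := hp.pderiv
  have h2 : d - 1 = 0 := by omega
  rw [h2] at h1
  exact pderiv_eq_zero_of_isHomogeneous_zero _ h1 i

/-- The constant `2 m (2 m + 2 j + n - 2)`. -/
noncomputable def fischerConst (n m j : ℕ) : ℝ := 2 * (m : ℝ) * (2 * m + 2 * j + n - 2)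

theorem fischerConst_pos (m j : ℕ) (hn : 1 ≤ n) : 0 < fischerConst n (m + 1) j := by
  unfold fischerConst
  have : (1 : ℝ) ≤ n := by exact_mod_cast hn
  push_cast
  have hm : (0 : ℝ) ≤ m := Nat.cast_nonneg m
  have hj : (0 : ℝ) ≤ j := Nat.cast_nonneg j
  nlinarith

/-- For a harmonic homogeneous `H` of degree `j`:
`|x|² Δ(|x|^(2m) H) = 2m(2m+2j+n-2) |x|^(2m) H`. -/
theorem N2_mul_plap_pow (H : MvPolynomial (Fin n) ℝ) (j : ℕ) (hH : H.IsHomogeneous j)
    (hlap : plap H = 0) (m : ℕ) :
    N2 * plap (N2 ^ m * H) = fischerConst n m j • (N2 ^ m * H) := by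
  induction m with
  | zero => simp [hlap, fischerConst]
  | succ m ih =>
    have hhom : (N2 ^ m * H).IsHomogeneous (2 * m + j) := (N2_isHomogeneous.pow m).mul hH
    have h1 : plap (N2 ^ (m + 1) * H) = fischerConst n (m + 1) j • (N2 ^ m * H) := by
      rw [pow_succ', mul_assoc, plap_N2_mul_of_isHomogeneous _ _ hhom, ih, ← add_smul]
      congr 1
      unfold fischerConst
      push_cast
      ring
    rw [h1, mul_smul_comm, pow_succ', mul_assoc]

/-- For a harmonic homogeneous `H` of degree `j`: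
`Δ(|x|^(2m+2) H) = 2(m+1)(2m+2j+n) |x|^(2m) H`. -/
theorem plap_N2_pow_succ_mul (H : MvPolynomial (Fin n) ℝ) (j : ℕ) (hH : H.IsHomogeneous j)
    (hlap : plap H = 0) (m : ℕ) :
    plap (N2 ^ (m + 1) * H) = fischerConst n (m + 1) j • (N2 ^ m * H) := by
  have hhom : (N2 ^ m * H).IsHomogeneous (2 * m + j) := (N2_isHomogeneous.pow m).mul hH
  rw [pow_succ', mul_assoc, plap_N2_mul_of_isHomogeneous _ _ hhom,
    N2_mul_plap_pow H j hH hlap m, ← add_smul]
  congr 1
  unfold fischerConst
  push_cast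
  ring

/-- The products `|x|^(2m) H` of degree `d`, with `H` harmonic and homogeneous. -/
def fischerSet (n d : ℕ) : Set (MvPolynomial (Fin n) ℝ) :=
  {q | ∃ (m j : ℕ) (H : MvPolynomial (Fin n) ℝ),
    H.IsHomogeneous j ∧ plap H = 0 ∧ 2 * m + j = d ∧ q = N2 ^ m * H}

theorem fischerSet_isHomogeneous (d : ℕ) (q : MvPolynomial (Fin n) ℝ)
    (hq : q ∈ fischerSet n d) : q.IsHomogeneous d := by
  obtain ⟨m, j, H, hH, -, hd, rfl⟩ := hq
  rw [← hd]
  exact (N2_isHomogeneous.pow m).mul hH

theorem span_fischerSet_isHomogeneous (d : ℕ) (q : MvPolynomial (Fin n) ℝ)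
    (hq : q ∈ Submodule.span ℝ (fischerSet n d)) : q.IsHomogeneous d := by
  have h1 : Submodule.span ℝ (fischerSet n d) ≤ homogeneousSubmodule (Fin n) ℝ d :=
    Submodule.span_le.mpr (fun q hq => fischerSet_isHomogeneous d q hq)
  exact h1 hq

theorem exists_plap_preimage (hn : 1 ≤ n) (d : ℕ) (g : MvPolynomial (Fin n) ℝ)
    (hg : g ∈ Submodule.span ℝ (fischerSet n d)) :
    ∃ q ∈ Submodule.span ℝ (fischerSet n (d + 2)), plap q = g := by
  induction hg using Submodule.span_induction with
  | mem x hx =>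
    obtain ⟨m, j, H, hH, hlap, hd, rfl⟩ := hx
    refine ⟨(fischerConst n (m + 1) j)⁻¹ • (N2 ^ (m + 1) * H), ?_, ?_⟩
    · apply Submodule.smul_mem
      apply Submodule.subset_span
      exact ⟨m + 1, j, H, hH, hlap, by omega, rfl⟩
    · rw [plap_smul, plap_N2_pow_succ_mul H j hH hlap m, smul_smul,
        inv_mul_cancel₀ (fischerConst_pos m j hn).ne', one_smul]
  | zero => exact ⟨0, Submodule.zero_mem _, plap_zero⟩
  | add x y _ _ hx hy =>
    obtain ⟨q1, h1, e1⟩ := hx
    obtain ⟨q2, h2, e2⟩ := hy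
    exact ⟨q1 + q2, Submodule.add_mem _ h1 h2, by rw [plap_add, e1, e2]⟩
  | smul a x _ hx =>
    obtain ⟨q1, h1, e1⟩ := hx
    exact ⟨a • q1, Submodule.smul_mem _ a h1, by rw [plap_smul, e1]⟩

/-- Fischer decomposition: every homogeneous polynomial of degree `d` is a linear combination
of products `|x|^(2m) H` with `H` harmonic homogeneous of degree `d - 2m`. -/
theorem fischer (hn : 1 ≤ n) : ∀ (d : ℕ) (p : MvPolynomial (Fin n) ℝ), p.IsHomogeneous d →
    p ∈ Submodule.span ℝ (fischerSet n d) := by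
  intro d
  induction d using Nat.strong_induction_on with
  | _ d ih =>
    intro p hp
    rcases Nat.lt_or_ge d 2 with hd | hd
    · apply Submodule.subset_span
      exact ⟨0, d, p, hp, plap_eq_zero_of_isHomogeneous_le_one p d (by omega) hp, by omega,
        by simp⟩
    · obtain ⟨e, rfl⟩ : ∃ e, d = e + 2 := ⟨d - 2, by omega⟩
      have h1 : (plap p).IsHomogeneous e := by
        have := plap_isHomogeneous p (e + 2) hp
        simpa using this
      have h2 := ih e (by omega) (plap p) h1
      obtain ⟨q, hq, hqe⟩ := exists_plap_preimage hn e (plap p) h2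
      have h3 : p - q ∈ fischerSet n (e + 2) :=
        ⟨0, e + 2, p - q, hp.sub (span_fischerSet_isHomogeneous _ q hq),
          by rw [plap_sub, hqe, sub_self], by omega, by simp⟩
      have h4 : p = (p - q) + q := by ring
      rw [h4]
      exact Submodule.add_mem _ (Submodule.subset_span h3) hq

/-- A submodule of polynomials containing all `|x|^(2m) H`, `H` harmonic homogeneous, is
everything. -/
theorem fischer_induction (hn : 1 ≤ n) (M : Submodule ℝ (MvPolynomial (Fin n) ℝ))
    (hM : ∀ (m j : ℕ) (H : MvPolynomial (Fin n) ℝ), H.IsHomogeneous j → plap H = 0 →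
      N2 ^ m * H ∈ M) :
    ∀ p, p ∈ M := by
  intro p
  rw [← sum_homogeneousComponent p]
  apply Submodule.sum_mem
  intro d _
  have h1 := fischer hn d _ (homogeneousComponent_isHomogeneous d p)
  have h2 : Submodule.span ℝ (fischerSet n d) ≤ M :=
    Submodule.span_le.mpr (by
      rintro q ⟨m, j, H, hH, hlap, -, rfl⟩
      exact hM m j H hH hlap)
  exact h2 h1

end Vale.Agent.Lib.P225
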