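import Vale.Agent.Lib.P225.IBP
import Vale.Agent.Lib.P225.PolyCalc

/-!
Polynomial functions on Euclidean space: derivatives and the action of the angular operator on
harmonic homogeneous polynomials.
-/

namespace Vale.Agent.Lib.P225

open Laplacian MvPolynomial

variable {n : ℕ}

/-- The function on Euclidean space defined by a polynomial. -/
noncomputable def pfun (p : MvPolynomial (Fin n) ℝ) (x : EuclideanSpace ℝ (Fin n)) : ℝ :=
  MvPolynomial.eval (fun i => x i) p

theorem pfun_add (p q : MvPolynomial (Fin n) ℝ) (x : EuclideanSpace ℝ (Fin n)) :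
    pfun (p + q) x = pfun p x + pfun q x := by
  simp [pfun]

theorem pfun_mul (p q : MvPolynomial (Fin n) ℝ) (x : EuclideanSpace ℝ (Fin n)) :
    pfun (p * q) x = pfun p x * pfun q x := by
  simp [pfun]

theorem pfun_smul (c : ℝ) (p : MvPolynomial (Fin n) ℝ) (x : EuclideanSpace ℝ (Fin n)) :
    pfun (c • p) x = c * pfun p x := by
  simp [pfun]

theorem pfun_C (a : ℝ) (x : EuclideanSpace ℝ (Fin n)) : pfun (C a) x = a := by
  simp [pfun]

theorem pfun_X (i : Fin n) (x : EuclideanSpace ℝ (Fin n)) : pfun (X i) x = x i := by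
  simp [pfun]

theorem pfun_zero (x : EuclideanSpace ℝ (Fin n)) : pfun (0 : MvPolynomial (Fin n) ℝ) x = 0 := by
  simp [pfun]

theorem pfun_sum {ι : Type*} (s : Finset ι) (f : ι → MvPolynomial (Fin n) ℝ)
    (x : EuclideanSpace ℝ (Fin n)) : pfun (∑ i ∈ s, f i) x = ∑ i ∈ s, pfun (f i) x := by
  simp [pfun]

theorem pfun_pow (p : MvPolynomial (Fin n) ℝ) (m : ℕ) (x : EuclideanSpace ℝ (Fin n)) :
    pfun (p ^ m) x = pfun p x ^ m := by
  simp [pfun]

theorem pfun_N2 (x : EuclideanSpace ℝ (Fin n)) : pfun N2 x = ‖x‖ ^ 2 := by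
  rw [norm_sq_eq_sum, N2, pfun_sum]
  apply Finset.sum_congr rfl
  intro i _
  rw [pfun_pow, pfun_X]

theorem pfun_contDiff (p : MvPolynomial (Fin n) ℝ) {m : WithTop ℕ∞} :
    ContDiff ℝ m (pfun p) := by
  induction p using MvPolynomial.induction_on with
  | C a =>
    have : pfun (C a : MvPolynomial (Fin n) ℝ) = fun _ => a := by
      funext x
      exact pfun_C a x
    rw [this]
    exact contDiff_const
  | add p q hp hq =>
    have : pfun (p + q) = fun x => pfun p x + pfun q x := by
      funext x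
      exact pfun_add p q x
    rw [this]
    exact hp.add hq
  | mul_X p j hp =>
    have : pfun (p * X j) = fun x => pfun p x * x j := by
      funext x
      rw [pfun_mul, pfun_X]
    rw [this]
    exact hp.mul (coord_contDiff j)

theorem pfun_hasFDerivAt (p : MvPolynomial (Fin n) ℝ) (x : EuclideanSpace ℝ (Fin n)) :
    HasFDerivAt (pfun p)
      (∑ i, pfun (pderiv i p) x • (EuclideanSpace.proj i : EuclideanSpace ℝ (Fin n) →L[ℝ] ℝ))
      x := by
  induction p using MvPolynomial.induction_on with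
  | C a =>
    have h1 : pfun (C a : MvPolynomial (Fin n) ℝ) = fun _ => a := by
      funext x
      exact pfun_C a x
    rw [h1]
    have h2 : (∑ i : Fin n, pfun (pderiv i (C a : MvPolynomial (Fin n) ℝ)) x •
        (EuclideanSpace.proj i : EuclideanSpace ℝ (Fin n) →L[ℝ] ℝ)) = 0 := by
      simp [pfun_zero]
    rw [h2]
    exact hasFDerivAt_const a x
  | add p q hp hq =>
    have h1 : pfun (p + q) = fun x => pfun p x + pfun q x := by
      funext x
      exact pfun_add p q x
    rw [h1]
    have h2 : (∑ i : Fin n, pfun (pderiv i (p + q)) x •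
        (EuclideanSpace.proj i : EuclideanSpace ℝ (Fin n) →L[ℝ] ℝ)) =
        (∑ i : Fin n, pfun (pderiv i p) x •
          (EuclideanSpace.proj i : EuclideanSpace ℝ (Fin n) →L[ℝ] ℝ)) +
        (∑ i : Fin n, pfun (pderiv i q) x •
          (EuclideanSpace.proj i : EuclideanSpace ℝ (Fin n) →L[ℝ] ℝ)) := by
      rw [← Finset.sum_add_distrib]
      apply Finset.sum_congr rfl
      intro i _
      rw [map_add, pfun_add, add_smul]
    rw [h2]
    exact hp.add hq
  | mul_X p j hp =>
    have h1 : pfun (p * X j) = fun x => pfun p x * x j := by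
      funext x
      rw [pfun_mul, pfun_X]
    rw [h1]
    have hc : HasFDerivAt (fun y : EuclideanSpace ℝ (Fin n) => y j)
        (EuclideanSpace.proj j : EuclideanSpace ℝ (Fin n) →L[ℝ] ℝ) x :=
      (EuclideanSpace.proj j : EuclideanSpace ℝ (Fin n) →L[ℝ] ℝ).hasFDerivAt
    have h3 := hp.mul hc
    have h2 : (∑ i : Fin n, pfun (pderiv i (p * X j)) x •
        (EuclideanSpace.proj i : EuclideanSpace ℝ (Fin n) →L[ℝ] ℝ)) =
        pfun p x • (EuclideanSpace.proj j : EuclideanSpace ℝ (Fin n) →L[ℝ] ℝ) +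
        x j • (∑ i : Fin n, pfun (pderiv i p) x •
          (EuclideanSpace.proj i : EuclideanSpace ℝ (Fin n) →L[ℝ] ℝ)) := by
      have h4 : ∀ i : Fin n, pfun (pderiv i (p * X j)) x =
          (if i = j then pfun p x else 0) + x j * pfun (pderiv i p) x := by
        intro i
        rw [Derivation.leibniz]
        simp only [smul_eq_mul]
        rw [pfun_add, pfun_mul, pfun_mul, pfun_X]
        by_cases hij : i = j
        · subst hij
          rw [pderiv_X_self]
          simp [pfun]
        · rw [pderiv_X_of_ne (fun h => hij h.symm)]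
          simp [pfun_zero, hij]
      simp_rw [h4, add_smul, Finset.sum_add_distrib, Finset.smul_sum, smul_smul]
      congr 1
      simp
    rw [h2]
    exact h3

theorem pfun_fderiv (p : MvPolynomial (Fin n) ℝ) (x : EuclideanSpace ℝ (Fin n)) :
    fderiv ℝ (pfun p) x =
      ∑ i, pfun (pderiv i p) x • (EuclideanSpace.proj i : EuclideanSpace ℝ (Fin n) →L[ℝ] ℝ) :=
  (pfun_hasFDerivAt p x).fderiv

theorem pfun_fderiv_apply (p : MvPolynomial (Fin n) ℝ) (x v : EuclideanSpace ℝ (Fin n)) :
    fderiv ℝ (pfun p) x v = ∑ i, pfun (pderiv i p) x * v i := by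
  rw [pfun_fderiv]
  simp

theorem pfun_fderiv_fderiv_apply (p : MvPolynomial (Fin n) ℝ)
    (x v w : EuclideanSpace ℝ (Fin n)) :
    fderiv ℝ (fderiv ℝ (pfun p)) x v w =
      ∑ i, (∑ l, pfun (pderiv l (pderiv i p)) x * v l) * w i := by
  have h1 : fderiv ℝ (pfun p) = fun y => ∑ i, pfun (pderiv i p) y •
      (EuclideanSpace.proj i : EuclideanSpace ℝ (Fin n) →L[ℝ] ℝ) := by
    funext y
    exact pfun_fderiv p y
  have h2 : HasFDerivAt (fun y : EuclideanSpace ℝ (Fin n) => ∑ i, pfun (pderiv i p) y •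
      (EuclideanSpace.proj i : EuclideanSpace ℝ (Fin n) →L[ℝ] ℝ))
      (∑ i, (fderiv ℝ (pfun (pderiv i p)) x).smulRight
        (EuclideanSpace.proj i : EuclideanSpace ℝ (Fin n) →L[ℝ] ℝ)) x := by
    apply HasFDerivAt.fun_sum
    intro i _
    have hi : HasFDerivAt (pfun (pderiv i p)) (fderiv ℝ (pfun (pderiv i p)) x) x :=
      ((pfun_contDiff (pderiv i p) (m := 1)).differentiable (by norm_num) x).hasFDerivAt
    exact hi.smul_const (EuclideanSpace.proj i : EuclideanSpace ℝ (Fin n) →L[ℝ] ℝ)
  rw [h1, h2.fderiv]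
  simp [pfun_fderiv_apply]

theorem pfun_euler (p : MvPolynomial (Fin n) ℝ) (d : ℕ) (hp : p.IsHomogeneous d)
    (x : EuclideanSpace ℝ (Fin n)) :
    ∑ i, pfun (pderiv i p) x * x i = d * pfun p x := by
  have h1 := hp.sum_X_mul_pderiv
  have h2 := congrArg (fun q => pfun q x) h1
  simp only [pfun_sum, pfun_mul, pfun_X] at h2
  have h3 : pfun (d • p) x = d * pfun p x := by
    simp [pfun]
  rw [h3] at h2
  rw [← h2]
  apply Finset.sum_congr rfl
  intro i _
  ring

theorem laplacian_pfun (p : MvPolynomial (Fin n) ℝ) (x : EuclideanSpace ℝ (Fin n)) :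
    Δ (pfun p) x = pfun (plap p) x := by
  rw [laplacian_eq_sum, plap, pfun_sum]
  apply Finset.sum_congr rfl
  intro i _
  rw [pfun_fderiv_fderiv_apply]
  simp [PiLp.single_apply]

/-- On a harmonic homogeneous polynomial of degree `d` the angular operator acts as
multiplication by `-d (d + n - 2)`. -/
theorem angS_pfun (p : MvPolynomial (Fin n) ℝ) (d : ℕ) (hp : p.IsHomogeneous d)
    (hlap : plap p = 0) (x : EuclideanSpace ℝ (Fin n)) :
    angS (pfun p) x = -((d : ℝ) * (d + n - 2)) * pfun p x := by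
  unfold angS
  rw [laplacian_pfun, hlap, pfun_zero, mul_zero, pfun_fderiv_apply, pfun_euler p d hp x,
    pfun_fderiv_fderiv_apply]
  have h1 : ∀ i, ∑ l, pfun (pderiv l (pderiv i p)) x * x l =
      ((d - 1 : ℕ) : ℝ) * pfun (pderiv i p) x :=
    fun i => pfun_euler (pderiv i p) (d - 1) hp.pderiv x
  simp_rw [h1, mul_assoc, ← Finset.mul_sum, pfun_euler p d hp x]
  cases d with
  | zero => simp
  | succ e =>
    simp only [Nat.add_sub_cancel]
    push_cast
    ring

end Vale.Agent.Lib.P225
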