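import Mathlib

/-!
The Laplace–Beltrami operator of a rotationally symmetric metric `dr² + h(r)² g_{S^{n-1}}` on
`ℝⁿ`, written in Euclidean coordinates, and the space of its harmonic functions of polynomial
growth.
-/

namespace Vale.Agent.Lib.P225

variable {n : ℕ}

/-- The unit radial vector `x / ‖x‖`. -/
noncomputable def radialUnit (x : EuclideanSpace ℝ (Fin n)) : EuclideanSpace ℝ (Fin n) :=
  ‖x‖⁻¹ • x

/-- The radial derivative `∂u/∂r` at `x`. -/
noncomputable def radialDeriv (u : EuclideanSpace ℝ (Fin n) → ℝ)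
    (x : EuclideanSpace ℝ (Fin n)) : ℝ :=
  fderiv ℝ u x (radialUnit x)

/-- The second radial derivative `∂²u/∂r²` at `x`. -/
noncomputable def radialDeriv2 (u : EuclideanSpace ℝ (Fin n) → ℝ)
    (x : EuclideanSpace ℝ (Fin n)) : ℝ :=
  fderiv ℝ (fderiv ℝ u) x (radialUnit x) (radialUnit x)

/-- The Laplace–Beltrami operator of the unit sphere applied to `θ ↦ u(‖x‖ θ)` at `θ = x/‖x‖`,
read off from the polar form `Δu = u_rr + (n-1)/r u_r + r⁻² Δ_S u` of the Euclidean Laplacian. -/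
noncomputable def sphereLaplacian (u : EuclideanSpace ℝ (Fin n) → ℝ)
    (x : EuclideanSpace ℝ (Fin n)) : ℝ :=
  ‖x‖ ^ 2 * (Laplacian.laplacian u x - radialDeriv2 u x - ((n : ℝ) - 1) / ‖x‖ * radialDeriv u x)

/-- The Laplace–Beltrami operator of the metric `dr² + h(r)² g_{S^{n-1}}` on `ℝⁿ ∖ {0}`
(where `r = ‖x‖`): `u_rr + (n-1) (h'/h) u_r + h⁻² Δ_S u`. -/
noncomputable def warpedLaplacian (h : ℝ → ℝ) (u : EuclideanSpace ℝ (Fin n) → ℝ)
    (x : EuclideanSpace ℝ (Fin n)) : ℝ :=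
  radialDeriv2 u x + ((n : ℝ) - 1) * (deriv h ‖x‖ / h ‖x‖) * radialDeriv u x
    + sphereLaplacian u x / (h ‖x‖) ^ 2

/-- The `C²` functions on `ℝⁿ` that are harmonic for the metric `dr² + h(r)² g_{S^{n-1}}` and
grow at most like the `k`-th power of the distance `‖x‖` to the pole. -/
def polyGrowthHarmonic (n : ℕ) (h : ℝ → ℝ) (k : ℕ) : Set (EuclideanSpace ℝ (Fin n) → ℝ) :=
  {u | ContDiff ℝ 2 u ∧ (∀ x, x ≠ 0 → warpedLaplacian h u x = 0) ∧
    ∃ C : ℝ, ∀ x, |u x| ≤ C * (1 + ‖x‖) ^ k}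

end Vale.Agent.Lib.P225
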